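/-
Row 341 (S0534, S0535): the entropy layer.  `vnEntropy` on finite matrices: spectral formula, unitary
invariance, pinching, concavity, subadditivity, additivity on Kronecker products, scaling, qubits.
All elementary: no matrix logarithm.  The key fact is pinching: for any unitary `V`,
`S(ρ) ≤ H(diag (V* ρ V))`, by Jensen along the doubly stochastic matrix `|(U* V)_ij|²`.
-/
import Mathlib
import Crest.Prelude.Def_QState
import Crest.Prelude.Def_QChannel

set_option autoImplicit false
set_option linter.unusedSectionVars false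

namespace Crest.Agent.Lib.GAD

open Matrix Real Finset
open scoped ComplexOrder Kronecker
open Crest.Quantum

variable {ι κ : Type*} [Fintype ι] [DecidableEq ι] [Fintype κ] [DecidableEq κ]

/-! ### Spectral formula -/

theorem vnEntropy_eq {ρ : Matrix ι ι ℂ} (h : ρ.IsHermitian) :
    vnEntropy ρ = ∑ i, negMulLog (h.eigenvalues i) := by
  unfold vnEntropy
  rw [dif_pos h, ← Finset.sum_neg_distrib]
  exact Finset.sum_congr rfl fun i _ => by simp [negMulLog]

/-- Functions of the spectrum only depend on the characteristic polynomial. -/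
theorem sum_eigen_eq_of_charpoly {A : Matrix ι ι ℂ} {B : Matrix κ κ ℂ} (hA : A.IsHermitian)
    (hB : B.IsHermitian) (hc : A.charpoly = B.charpoly) (f : ℝ → ℝ) :
    ∑ i, f (hA.eigenvalues i) = ∑ k, f (hB.eigenvalues k) := by
  have h1 := hA.roots_charpoly_eq_eigenvalues
  have h2 := hB.roots_charpoly_eq_eigenvalues
  rw [hc, h2] at h1
  have h3 := congrArg (fun s : Multiset ℂ => (s.map (fun z => f z.re)).sum) h1
  simpa [Multiset.map_map, Function.comp_def] using h3.symm

/-- Functions of the spectrum of an explicitly diagonalised matrix. -/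
theorem sum_eigen_eq_of_spectral {ρ : Matrix ι ι ℂ} (h : ρ.IsHermitian) {U : Matrix ι ι ℂ}
    (hU : U ∈ unitaryGroup ι ℂ) {μ : ι → ℝ}
    (hρ : ρ = U * diagonal (fun i => (μ i : ℂ)) * star U) (f : ℝ → ℝ) :
    ∑ i, f (h.eigenvalues i) = ∑ i, f (μ i) := by
  have hc : ρ.charpoly = ∏ i, (Polynomial.X - Polynomial.C (μ i : ℂ)) := by
    rw [hρ, mul_assoc, charpoly_mul_comm, mul_assoc, (mem_unitaryGroup_iff'.1 hU), mul_one,
      charpoly_diagonal]
  have h1 : ρ.charpoly.roots = Multiset.map (fun i => (μ i : ℂ)) Finset.univ.val := by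
    rw [hc, Polynomial.roots_prod]
    · simp
    · simp [Finset.prod_ne_zero_iff, Polynomial.X_sub_C_ne_zero]
  have h2 := h.roots_charpoly_eq_eigenvalues
  rw [h1] at h2
  have h3 := congrArg (fun s : Multiset ℂ => (s.map (fun z => f z.re)).sum) h2
  simpa [Multiset.map_map, Function.comp_def] using h3.symm

theorem vnEntropy_of_spectral {ρ : Matrix ι ι ℂ} (h : ρ.IsHermitian) {U : Matrix ι ι ℂ}
    (hU : U ∈ unitaryGroup ι ℂ) {μ : ι → ℝ}
    (hρ : ρ = U * diagonal (fun i => (μ i : ℂ)) * star U) :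
    vnEntropy ρ = ∑ i, negMulLog (μ i) := by
  rw [vnEntropy_eq h]
  exact sum_eigen_eq_of_spectral h hU hρ _

/-- Mathlib's spectral theorem in the plain form. -/
theorem spectral_eq {ρ : Matrix ι ι ℂ} (h : ρ.IsHermitian) :
    ρ = (h.eigenvectorUnitary : Matrix ι ι ℂ) * diagonal (fun i => (h.eigenvalues i : ℂ)) *
      star (h.eigenvectorUnitary : Matrix ι ι ℂ) := by
  have := h.spectral_theorem
  rw [Unitary.conjStarAlgAut_apply] at this
  exact this

/-- Diagonalisation. -/
theorem star_mul_mul_eigenvectorUnitary {ρ : Matrix ι ι ℂ} (h : ρ.IsHermitian) :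
    star (h.eigenvectorUnitary : Matrix ι ι ℂ) * ρ * (h.eigenvectorUnitary : Matrix ι ι ℂ) =
      diagonal (fun i => (h.eigenvalues i : ℂ)) := by
  have := h.conjStarAlgAut_star_eigenvectorUnitary
  rw [Unitary.conjStarAlgAut_star_apply] at this
  exact this

/-- Unitary invariance. -/
theorem vnEntropy_conj {ρ : Matrix ι ι ℂ} (h : ρ.IsHermitian) {V : Matrix ι ι ℂ}
    (hV : V ∈ unitaryGroup ι ℂ) : vnEntropy (V * ρ * star V) = vnEntropy ρ := by
  have hh : (V * ρ * star V).IsHermitian := by
    have := isHermitian_mul_mul_conjTranspose V h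
    simpa [star_eq_conjTranspose] using this
  rw [vnEntropy_eq h]
  refine vnEntropy_of_spectral hh (U := V * (h.eigenvectorUnitary : Matrix ι ι ℂ))
    (Submonoid.mul_mem _ hV h.eigenvectorUnitary.2) ?_
  conv_lhs => rw [spectral_eq h]
  simp only [star_mul, Matrix.mul_assoc]

/-- Reindexing. -/
theorem vnEntropy_submatrix {ρ : Matrix ι ι ℂ} (h : ρ.IsHermitian) (e : κ ≃ ι) :
    vnEntropy (ρ.submatrix e e) = vnEntropy ρ := by
  have hh : (ρ.submatrix e e).IsHermitian := h.submatrix e
  rw [vnEntropy_eq h, vnEntropy_eq hh]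
  refine sum_eigen_eq_of_charpoly hh h ?_ _
  have := charpoly_reindex e.symm ρ
  simpa [reindex_apply] using this

/-- Scaling. -/
theorem vnEntropy_smul {ρ : Matrix ι ι ℂ} (h : ρ.IsHermitian) (c : ℝ) :
    vnEntropy ((c : ℂ) • ρ) = c * vnEntropy ρ + negMulLog c * (ρ.trace).re := by
  have hh : ((c : ℂ) • ρ).IsHermitian := by
    rw [IsHermitian, conjTranspose_smul, h.eq]; simp
  have hs : (c : ℂ) • ρ = (h.eigenvectorUnitary : Matrix ι ι ℂ) *
      diagonal (fun i => ((c * h.eigenvalues i : ℝ) : ℂ)) *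
      star (h.eigenvectorUnitary : Matrix ι ι ℂ) := by
    have : diagonal (fun i => ((c * h.eigenvalues i : ℝ) : ℂ)) =
        (c : ℂ) • diagonal (fun i => (h.eigenvalues i : ℂ)) := by
      ext i j
      by_cases hij : i = j <;> simp [hij]
    rw [this, Matrix.mul_smul, Matrix.smul_mul, ← spectral_eq h]
  rw [vnEntropy_of_spectral hh h.eigenvectorUnitary.2 hs, vnEntropy_eq h, h.trace_eq_sum_eigenvalues,
    Complex.re_sum, Finset.mul_sum, Finset.mul_sum, ← Finset.sum_add_distrib]
  refine Finset.sum_congr rfl fun i _ => ?_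
  rw [negMulLog_mul]
  simp
  ring

/-! ### Pinching -/

lemma eigenvalues_nonneg' {ρ : Matrix ι ι ℂ} (h : ρ.PosSemidef) (i : ι) :
    0 ≤ h.1.eigenvalues i := h.eigenvalues_nonneg i

/-- `S(ρ) ≤ H(diag(V* ρ V))`. -/
theorem vnEntropy_le_pinch {ρ : Matrix ι ι ℂ} (hρ : ρ.PosSemidef) {V : Matrix ι ι ℂ}
    (hV : V ∈ unitaryGroup ι ℂ) :
    vnEntropy ρ ≤ ∑ j, negMulLog ((star V * ρ * V) j j).re := by
  classical
  set h := hρ.1 with hh
  set U : Matrix ι ι ℂ := (h.eigenvectorUnitary : Matrix ι ι ℂ) with hU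
  have hUu : U ∈ unitaryGroup ι ℂ := h.eigenvectorUnitary.2
  set W : Matrix ι ι ℂ := star U * V with hW
  have hWu : W ∈ unitaryGroup ι ℂ := Submonoid.mul_mem _ (Unitary.star_mem hUu) hV
  set D : ι → ι → ℝ := fun i j => Complex.normSq (W i j) with hD
  have hD0 : ∀ i j, 0 ≤ D i j := fun i j => Complex.normSq_nonneg _
  have hrow : ∀ i, ∑ j, D i j = 1 := by
    intro i
    have h1 : (W * star W) i i = 1 := by rw [mem_unitaryGroup_iff.1 hWu]; simp
    rw [Matrix.mul_apply] at h1
    have h2 : ∑ j, W i j * star W j i = ((∑ j, D i j : ℝ) : ℂ) := by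
      push_cast
      refine Finset.sum_congr rfl fun j _ => ?_
      rw [star_apply, RCLike.star_def, Complex.mul_conj]
    rw [h2] at h1
    exact_mod_cast h1
  have hcol : ∀ j, ∑ i, D i j = 1 := by
    intro j
    have h1 : (star W * W) j j = 1 := by rw [mem_unitaryGroup_iff'.1 hWu]; simp
    rw [Matrix.mul_apply] at h1
    have h2 : ∑ i, star W j i * W i j = ((∑ i, D i j : ℝ) : ℂ) := by
      push_cast
      refine Finset.sum_congr rfl fun i _ => ?_
      rw [star_apply, RCLike.star_def, mul_comm, Complex.mul_conj]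
    rw [h2] at h1
    exact_mod_cast h1
  have hdiag : ∀ j, ((star V * ρ * V) j j).re = ∑ i, D i j * h.eigenvalues i := by
    intro j
    have h3 : star V * ρ * V = star W * diagonal (fun i => (h.eigenvalues i : ℂ)) * W := by
      have : ρ = U * diagonal (fun i => (h.eigenvalues i : ℂ)) * star U := spectral_eq h
      conv_lhs => rw [this]
      simp only [hW, star_mul, star_star, Matrix.mul_assoc]
    rw [h3, Matrix.mul_apply]
    simp only [Matrix.mul_diagonal]
    rw [Complex.re_sum]
    refine Finset.sum_congr rfl fun i _ => ?_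
    have : star W j i * (h.eigenvalues i : ℂ) * W i j = ((D i j * h.eigenvalues i : ℝ) : ℂ) := by
      rw [star_apply, RCLike.star_def, hD]
      push_cast
      rw [← Complex.mul_conj (W i j)]
      ring
    rw [this, Complex.ofReal_re]
  rw [vnEntropy_eq h]
  calc ∑ i, negMulLog (h.eigenvalues i)
      = ∑ j, ∑ i, D i j • negMulLog (h.eigenvalues i) := by
        rw [Finset.sum_comm]
        refine Finset.sum_congr rfl fun i _ => ?_
        simp only [smul_eq_mul]
        rw [← Finset.sum_mul, hrow, one_mul]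
    _ ≤ ∑ j, negMulLog (∑ i, D i j • h.eigenvalues i) := by
        refine Finset.sum_le_sum fun j _ => ?_
        exact concaveOn_negMulLog.le_map_sum (fun i _ => hD0 i j) (hcol j)
          (fun i _ => eigenvalues_nonneg' hρ i)
    _ = _ := by
        refine Finset.sum_congr rfl fun j _ => ?_
        rw [hdiag]
        simp only [smul_eq_mul]

/-- Pinching in the computational basis. -/
theorem vnEntropy_le_diag {ρ : Matrix ι ι ℂ} (hρ : ρ.PosSemidef) :
    vnEntropy ρ ≤ ∑ j, negMulLog (ρ j j).re := by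
  have := vnEntropy_le_pinch hρ (V := 1) (Submonoid.one_mem _)
  simpa using this

/-- Entropy of a diagonal matrix. -/
theorem vnEntropy_diagonal (μ : ι → ℝ) :
    vnEntropy (diagonal (fun i => (μ i : ℂ))) = ∑ i, negMulLog (μ i) := by
  have hh : (diagonal (fun i => (μ i : ℂ))).IsHermitian := by
    rw [IsHermitian, diagonal_conjTranspose]
    congr 1
    funext i
    simp
  exact vnEntropy_of_spectral hh (U := 1) (Submonoid.one_mem _) (by simp)

/-! ### Concavity -/

omit [Fintype ι] [DecidableEq ι] in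
/-- Diagonal entries of PSD matrices are nonnegative reals. -/
lemma re_diag_nonneg {ρ : Matrix ι ι ℂ} (hρ : ρ.PosSemidef) (j : ι) : 0 ≤ (ρ j j).re := by
  have := hρ.diag_nonneg (i := j)
  exact (Complex.le_def.1 this).1

/-- Concavity of the von Neumann entropy. -/
theorem vnEntropy_concave {α : Type*} [Fintype α] (q : α → ℝ) (ρ : α → Matrix ι ι ℂ)
    (hq : ∀ a, 0 ≤ q a) (hs : ∑ a, q a = 1) (hρ : ∀ a, (ρ a).PosSemidef)
    (hm : (∑ a, (q a : ℂ) • ρ a).IsHermitian) :
    ∑ a, q a * vnEntropy (ρ a) ≤ vnEntropy (∑ a, (q a : ℂ) • ρ a) := by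
  classical
  set V : Matrix ι ι ℂ := (hm.eigenvectorUnitary : Matrix ι ι ℂ) with hVdef
  have hV : V ∈ unitaryGroup ι ℂ := hm.eigenvectorUnitary.2
  have hw : ∀ a j, 0 ≤ ((star V * ρ a * V) j j).re := fun a j => by
    have := (hρ a).conjTranspose_mul_mul_same V
    exact re_diag_nonneg (by simpa [star_eq_conjTranspose] using this) j
  have hsum : ∀ j, ∑ a, q a • ((star V * ρ a * V) j j).re = hm.eigenvalues j := by
    intro j
    have h1 := star_mul_mul_eigenvectorUnitary hm
    have h2 : (star V * (∑ a, (q a : ℂ) • ρ a) * V) j j = (hm.eigenvalues j : ℂ) := by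
      rw [h1]; simp
    rw [Finset.mul_sum, Finset.sum_mul] at h2
    simp only [Matrix.sum_apply, Matrix.mul_smul, Matrix.smul_mul, Matrix.smul_apply] at h2
    have h3 := congrArg Complex.re h2
    rw [Complex.re_sum] at h3
    simp only [smul_eq_mul, Complex.re_ofReal_mul, Complex.ofReal_re] at h3
    exact h3
  rw [vnEntropy_eq hm]
  calc ∑ a, q a * vnEntropy (ρ a)
      ≤ ∑ a, q a * ∑ j, negMulLog ((star V * ρ a * V) j j).re :=
        Finset.sum_le_sum fun a _ =>
          mul_le_mul_of_nonneg_left (vnEntropy_le_pinch (hρ a) hV) (hq a)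
    _ = ∑ j, ∑ a, q a • negMulLog ((star V * ρ a * V) j j).re := by
        rw [Finset.sum_comm]
        refine Finset.sum_congr rfl fun a _ => ?_
        rw [Finset.mul_sum]
        rfl
    _ ≤ ∑ j, negMulLog (∑ a, q a • ((star V * ρ a * V) j j).re) :=
        Finset.sum_le_sum fun j _ =>
          concaveOn_negMulLog.le_map_sum (fun a _ => hq a) hs (fun a _ => hw a j)
    _ = _ := by simp only [hsum]

/-! ### Classical subadditivity -/

theorem classical_subadd {α β : Type*} [Fintype α] [Fintype β] (w : α × β → ℝ) (hw : ∀ x, 0 ≤ w x)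
    (hs : ∑ x, w x = 1) :
    ∑ x, negMulLog (w x) ≤
      ∑ a, negMulLog (∑ b, w (a, b)) + ∑ b, negMulLog (∑ a, w (a, b)) := by
  classical
  set A : α → ℝ := fun a => ∑ b, w (a, b) with hA
  set B : β → ℝ := fun b => ∑ a, w (a, b) with hB
  have hA0 : ∀ a, 0 ≤ A a := fun a => Finset.sum_nonneg fun b _ => hw _
  have hB0 : ∀ b, 0 ≤ B b := fun b => Finset.sum_nonneg fun a _ => hw _
  have hAs : ∑ a, A a = 1 := by
    rw [← hs, Fintype.sum_prod_type]
  have hBs : ∑ b, B b = 1 := by
    rw [← hs, Fintype.sum_prod_type_right]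
  have hpt : ∀ a b, negMulLog (w (a, b)) ≤
      A a * B b - w (a, b) - w (a, b) * log (A a) - w (a, b) * log (B b) := by
    intro a b
    rcases (hw (a, b)).eq_or_lt with h0 | hpos
    · rw [← h0]
      simpa [negMulLog] using mul_nonneg (hA0 a) (hB0 b)
    · have hAa : 0 < A a := lt_of_lt_of_le hpos
        (Finset.single_le_sum (f := fun b => w (a, b)) (fun b _ => hw _) (Finset.mem_univ b))
      have hBb : 0 < B b := lt_of_lt_of_le hpos
        (Finset.single_le_sum (f := fun a => w (a, b)) (fun a _ => hw _) (Finset.mem_univ a))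
      have hx : 0 < A a * B b / w (a, b) := div_pos (mul_pos hAa hBb) hpos
      have h1 := Real.log_le_sub_one_of_pos hx
      rw [Real.log_div (mul_pos hAa hBb).ne' hpos.ne', Real.log_mul hAa.ne' hBb.ne'] at h1
      have h2 := mul_le_mul_of_nonneg_left h1 hpos.le
      have h3 : w (a, b) * (A a * B b / w (a, b) - 1) = A a * B b - w (a, b) := by
        field_simp
      rw [h3] at h2
      unfold negMulLog
      nlinarith
  calc ∑ x, negMulLog (w x) = ∑ a, ∑ b, negMulLog (w (a, b)) := Fintype.sum_prod_type _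
    _ ≤ ∑ a, ∑ b, (A a * B b - w (a, b) - w (a, b) * log (A a) - w (a, b) * log (B b)) :=
        Finset.sum_le_sum fun a _ => Finset.sum_le_sum fun b _ => hpt a b
    _ = (∑ a, A a) * (∑ b, B b) - ∑ a, A a - ∑ a, A a * log (A a) - ∑ b, B b * log (B b) := by
        simp only [Finset.sum_sub_distrib]
        have e1 : ∑ a, ∑ b, A a * B b = (∑ a, A a) * ∑ b, B b := by
          rw [Finset.sum_mul_sum]
        have e2 : ∑ a, ∑ b, w (a, b) = ∑ a, A a := rfl
        have e3 : ∑ a, ∑ b, w (a, b) * log (A a) = ∑ a, A a * log (A a) := by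
          refine Finset.sum_congr rfl fun a _ => ?_
          rw [← Finset.sum_mul]
        have e4 : ∑ a, ∑ b, w (a, b) * log (B b) = ∑ b, B b * log (B b) := by
          rw [Finset.sum_comm]
          refine Finset.sum_congr rfl fun b _ => ?_
          rw [← Finset.sum_mul]
        rw [e1, e2, e3, e4]
    _ = _ := by
        rw [hAs, hBs]
        simp only [negMulLog, neg_mul, Finset.sum_neg_distrib]
        ring

/-! ### Partial traces and subadditivity -/

section Partial

variable {α β : Type*} [Fintype α] [DecidableEq α] [Fintype β] [DecidableEq β]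

/-- Trace out the second factor. -/
def ptraceR (ρ : Matrix (α × β) (α × β) ℂ) : Matrix α α ℂ :=
  Matrix.of fun a a' => ∑ b, ρ (a, b) (a', b)

/-- Trace out the first factor. -/
def ptraceL (ρ : Matrix (α × β) (α × β) ℂ) : Matrix β β ℂ :=
  Matrix.of fun b b' => ∑ a, ρ (a, b) (a, b')

omit [DecidableEq α] [DecidableEq β] in
lemma ptraceR_eq_sum (ρ : Matrix (α × β) (α × β) ℂ) :
    ptraceR ρ = ∑ b, ρ.submatrix (fun a => (a, b)) (fun a => (a, b)) := by
  ext a a'
  simp [ptraceR, Matrix.sum_apply]

omit [DecidableEq α] [DecidableEq β] in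
lemma ptraceL_eq_sum (ρ : Matrix (α × β) (α × β) ℂ) :
    ptraceL ρ = ∑ a, ρ.submatrix (fun b => (a, b)) (fun b => (a, b)) := by
  ext b b'
  simp [ptraceL, Matrix.sum_apply]

theorem ptraceR_posSemidef {ρ : Matrix (α × β) (α × β) ℂ} (h : ρ.PosSemidef) :
    (ptraceR ρ).PosSemidef := by
  rw [ptraceR_eq_sum]
  exact posSemidef_sum _ fun b _ => h.submatrix _

theorem ptraceL_posSemidef {ρ : Matrix (α × β) (α × β) ℂ} (h : ρ.PosSemidef) :
    (ptraceL ρ).PosSemidef := by
  rw [ptraceL_eq_sum]
  exact posSemidef_sum _ fun b _ => h.submatrix _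

omit [DecidableEq α] [DecidableEq β] in
theorem trace_ptraceR (ρ : Matrix (α × β) (α × β) ℂ) : (ptraceR ρ).trace = ρ.trace := by
  simp only [trace, ptraceR, Matrix.diag, of_apply]
  rw [Fintype.sum_prod_type]

omit [DecidableEq α] [DecidableEq β] in
theorem trace_ptraceL (ρ : Matrix (α × β) (α × β) ℂ) : (ptraceL ρ).trace = ρ.trace := by
  simp only [trace, ptraceL, Matrix.diag, of_apply]
  rw [Fintype.sum_prod_type_right]

/-- Partial trace of a conjugation by a Kronecker product, with unitary second factor. -/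
theorem ptraceR_conj (ρ : Matrix (α × β) (α × β) ℂ) (A : Matrix α α ℂ) {B : Matrix β β ℂ}
    (hB : B ∈ unitaryGroup β ℂ) :
    ptraceR (star (A ⊗ₖ B) * ρ * (A ⊗ₖ B)) = star A * ptraceR ρ * A := by
  have hBB : ∀ x y : β, ∑ b, star (B x b) * B y b = if x = y then 1 else 0 := by
    intro x y
    have h1 := congrFun (congrFun (mem_unitaryGroup_iff.1 hB) y) x
    rw [Matrix.mul_apply] at h1
    simp only [star_apply] at h1
    rw [Matrix.one_apply] at h1
    have : ∑ b, star (B x b) * B y b = ∑ b, B y b * star (B x b) :=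
      Finset.sum_congr rfl fun b _ => mul_comm _ _
    rw [this, h1]
    by_cases hxy : x = y
    · simp [hxy]
    · simp [hxy, Ne.symm hxy]
  ext a a'
  simp only [ptraceR, of_apply, Matrix.mul_apply, star_apply, kroneckerMap_apply]
  calc ∑ b, ∑ y : α × β, (∑ x : α × β, star (A x.1 a * B x.2 b) * ρ x y) * (A y.1 a' * B y.2 b)
      = ∑ y : α × β, ∑ x : α × β, star (A x.1 a) * ρ x y * A y.1 a' *
          ∑ b, star (B x.2 b) * B y.2 b := by
        rw [Finset.sum_comm]
        refine Finset.sum_congr rfl fun y _ => ?_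
        simp only [Finset.sum_mul, Finset.mul_sum]
        rw [Finset.sum_comm]
        refine Finset.sum_congr rfl fun x _ => Finset.sum_congr rfl fun b _ => ?_
        rw [star_mul']
        ring
    _ = ∑ y : α × β, ∑ x : α × β, star (A x.1 a) * ρ x y * A y.1 a' *
          (if x.2 = y.2 then 1 else 0) := by
        simp only [hBB]
    _ = ∑ y, (∑ x, star (A x a) * ∑ b, ρ (x, b) (y, b)) * A y a' := by
        rw [Fintype.sum_prod_type]
        refine Finset.sum_congr rfl fun y1 _ => ?_
        have hin : ∀ y2 : β, ∑ x : α × β, star (A x.1 a) * ρ x (y1, y2) * A y1 a' *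
            (if x.2 = y2 then 1 else 0) =
            ∑ x1, star (A x1 a) * ρ (x1, y2) (y1, y2) * A y1 a' := by
          intro y2
          rw [Fintype.sum_prod_type]
          refine Finset.sum_congr rfl fun x1 _ => ?_
          simp only [mul_ite, mul_one, mul_zero]
          rw [Finset.sum_ite_eq']
          simp
        simp only [hin]
        rw [Finset.sum_comm, Finset.sum_mul]
        refine Finset.sum_congr rfl fun x1 _ => ?_
        rw [Finset.mul_sum, Finset.sum_mul]

/-- The other partial trace. -/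
theorem ptraceL_conj (ρ : Matrix (α × β) (α × β) ℂ) {A : Matrix α α ℂ} (B : Matrix β β ℂ)
    (hA : A ∈ unitaryGroup α ℂ) :
    ptraceL (star (A ⊗ₖ B) * ρ * (A ⊗ₖ B)) = star B * ptraceL ρ * B := by
  have hAA : ∀ x y : α, ∑ a, star (A x a) * A y a = if x = y then 1 else 0 := by
    intro x y
    have h1 := congrFun (congrFun (mem_unitaryGroup_iff.1 hA) y) x
    rw [Matrix.mul_apply] at h1
    simp only [star_apply] at h1
    rw [Matrix.one_apply] at h1
    have : ∑ b, star (A x b) * A y b = ∑ b, A y b * star (A x b) :=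
      Finset.sum_congr rfl fun b _ => mul_comm _ _
    rw [this, h1]
    by_cases hxy : x = y
    · simp [hxy]
    · simp [hxy, Ne.symm hxy]
  ext b b'
  simp only [ptraceL, of_apply, Matrix.mul_apply, star_apply, kroneckerMap_apply]
  calc ∑ a, ∑ y : α × β, (∑ x : α × β, star (A x.1 a * B x.2 b) * ρ x y) * (A y.1 a * B y.2 b')
      = ∑ y : α × β, ∑ x : α × β, star (B x.2 b) * ρ x y * B y.2 b' *
          ∑ a, star (A x.1 a) * A y.1 a := by
        rw [Finset.sum_comm]
        refine Finset.sum_congr rfl fun y _ => ?_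
        simp only [Finset.sum_mul, Finset.mul_sum]
        rw [Finset.sum_comm]
        refine Finset.sum_congr rfl fun x _ => Finset.sum_congr rfl fun b _ => ?_
        rw [star_mul']
        ring
    _ = ∑ y : α × β, ∑ x : α × β, star (B x.2 b) * ρ x y * B y.2 b' *
          (if x.1 = y.1 then 1 else 0) := by
        simp only [hAA]
    _ = ∑ y, (∑ x, star (B x b) * ∑ a, ρ (a, x) (a, y)) * B y b' := by
        rw [Fintype.sum_prod_type_right]
        refine Finset.sum_congr rfl fun y2 _ => ?_
        have hin : ∀ y1 : α, ∑ x : α × β, star (B x.2 b) * ρ x (y1, y2) * B y2 b' *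
            (if x.1 = y1 then 1 else 0) =
            ∑ x2, star (B x2 b) * ρ (y1, x2) (y1, y2) * B y2 b' := by
          intro y1
          rw [Fintype.sum_prod_type_right]
          refine Finset.sum_congr rfl fun x2 _ => ?_
          simp only [mul_ite, mul_one, mul_zero]
          rw [Finset.sum_ite_eq']
          simp
        simp only [hin]
        rw [Finset.sum_comm, Finset.sum_mul]
        refine Finset.sum_congr rfl fun x2 _ => ?_
        rw [Finset.mul_sum, Finset.sum_mul]

/-- Subadditivity of the von Neumann entropy. -/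
theorem vnEntropy_subadd {ρ : Matrix (α × β) (α × β) ℂ} (hρ : ρ.PosSemidef) (htr : ρ.trace = 1) :
    vnEntropy ρ ≤ vnEntropy (ptraceR ρ) + vnEntropy (ptraceL ρ) := by
  have hA := (ptraceR_posSemidef hρ).1
  have hB := (ptraceL_posSemidef hρ).1
  set UA : Matrix α α ℂ := (hA.eigenvectorUnitary : Matrix α α ℂ) with hUA
  set UB : Matrix β β ℂ := (hB.eigenvectorUnitary : Matrix β β ℂ) with hUB
  have hUAu : UA ∈ unitaryGroup α ℂ := hA.eigenvectorUnitary.2
  have hUBu : UB ∈ unitaryGroup β ℂ := hB.eigenvectorUnitary.2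
  have hV : UA ⊗ₖ UB ∈ unitaryGroup (α × β) ℂ := kronecker_mem_unitary hUAu hUBu
  set τ : Matrix (α × β) (α × β) ℂ := star (UA ⊗ₖ UB) * ρ * (UA ⊗ₖ UB) with hτ
  have hτpsd : τ.PosSemidef := by
    exact hρ.conjTranspose_mul_mul_same (UA ⊗ₖ UB)
  have hw0 : ∀ x, 0 ≤ (τ x x).re := fun x => re_diag_nonneg hτpsd x
  have hmargA : ∀ i, ∑ j, (τ (i, j) (i, j)).re = hA.eigenvalues i := by
    intro i
    have h1 : ptraceR τ = diagonal (fun i => (hA.eigenvalues i : ℂ)) := by
      rw [hτ, ptraceR_conj _ _ hUBu]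
      exact star_mul_mul_eigenvectorUnitary hA
    have h2 : ∑ j, τ (i, j) (i, j) = (hA.eigenvalues i : ℂ) := by
      have := congrFun (congrFun h1 i) i
      rw [diagonal_apply_eq] at this
      exact this
    have h3 := congrArg Complex.re h2
    rw [Complex.re_sum, Complex.ofReal_re] at h3
    exact h3
  have hmargB : ∀ j, ∑ i, (τ (i, j) (i, j)).re = hB.eigenvalues j := by
    intro j
    have h1 : ptraceL τ = diagonal (fun i => (hB.eigenvalues i : ℂ)) := by
      rw [hτ, ptraceL_conj _ _ hUAu]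
      exact star_mul_mul_eigenvectorUnitary hB
    have h2 : ∑ i, τ (i, j) (i, j) = (hB.eigenvalues j : ℂ) := by
      have := congrFun (congrFun h1 j) j
      rw [diagonal_apply_eq] at this
      exact this
    have h3 := congrArg Complex.re h2
    rw [Complex.re_sum, Complex.ofReal_re] at h3
    exact h3
  have hs : ∑ x, (τ x x).re = 1 := by
    have h1 : τ.trace = 1 := by
      rw [hτ, Matrix.trace_mul_comm, ← Matrix.mul_assoc, mem_unitaryGroup_iff.1 hV, Matrix.one_mul, htr]
    have h2 := congrArg Complex.re h1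
    simp only [trace, Matrix.diag, Complex.re_sum] at h2
    simpa using h2
  rw [vnEntropy_eq hA, vnEntropy_eq hB]
  calc vnEntropy ρ ≤ ∑ x, negMulLog (τ x x).re := vnEntropy_le_pinch hρ hV
    _ ≤ ∑ a, negMulLog (∑ b, (τ (a, b) (a, b)).re) + ∑ b, negMulLog (∑ a, (τ (a, b) (a, b)).re) :=
        classical_subadd (fun x => (τ x x).re) hw0 hs
    _ = _ := by simp only [hmargA, hmargB]

end Partial

/-! ### Kronecker products -/

/-- Additivity on products. -/
theorem vnEntropy_kronecker {ρ : Matrix ι ι ℂ} {σ : Matrix κ κ ℂ} (hρ : ρ.IsHermitian)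
    (hσ : σ.IsHermitian) (hρ1 : ρ.trace = 1) (hσ1 : σ.trace = 1) :
    vnEntropy (ρ ⊗ₖ σ) = vnEntropy ρ + vnEntropy σ := by
  classical
  have hh : (ρ ⊗ₖ σ).IsHermitian := by
    rw [IsHermitian, conjTranspose_kronecker, hρ.eq, hσ.eq]
  set U : Matrix ι ι ℂ := (hρ.eigenvectorUnitary : Matrix ι ι ℂ) with hU
  set V : Matrix κ κ ℂ := (hσ.eigenvectorUnitary : Matrix κ κ ℂ) with hV
  have hUu : U ∈ unitaryGroup ι ℂ := hρ.eigenvectorUnitary.2
  have hVu : V ∈ unitaryGroup κ ℂ := hσ.eigenvectorUnitary.2
  have hs : ρ ⊗ₖ σ = (U ⊗ₖ V) *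
      diagonal (fun p : ι × κ => ((hρ.eigenvalues p.1 * hσ.eigenvalues p.2 : ℝ) : ℂ)) *
      star (U ⊗ₖ V) := by
    have h1 : diagonal (fun p : ι × κ => ((hρ.eigenvalues p.1 * hσ.eigenvalues p.2 : ℝ) : ℂ)) =
        diagonal (fun i => (hρ.eigenvalues i : ℂ)) ⊗ₖ diagonal (fun i => (hσ.eigenvalues i : ℂ)) := by
      rw [diagonal_kronecker_diagonal]
      congr 1
      funext p
      push_cast
      rfl
    have h2 : star (U ⊗ₖ V) = star U ⊗ₖ star V := conjTranspose_kronecker U V
    rw [h1, h2, ← mul_kronecker_mul, ← mul_kronecker_mul, ← spectral_eq hρ, ← spectral_eq hσ]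
  rw [vnEntropy_of_spectral hh (kronecker_mem_unitary hUu hVu) hs, vnEntropy_eq hρ, vnEntropy_eq hσ,
    Fintype.sum_prod_type]
  simp only [negMulLog_mul]
  have hs1 : ∑ i, hρ.eigenvalues i = 1 := by
    have := hρ.trace_eq_sum_eigenvalues
    rw [hρ1] at this
    have h3 := congrArg Complex.re this
    rw [Complex.re_sum] at h3
    simpa using h3.symm
  have hs2 : ∑ i, hσ.eigenvalues i = 1 := by
    have := hσ.trace_eq_sum_eigenvalues
    rw [hσ1] at this
    have h3 := congrArg Complex.re this
    rw [Complex.re_sum] at h3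
    simpa using h3.symm
  simp only [Finset.sum_add_distrib, ← Finset.mul_sum, ← Finset.sum_mul, hs1, hs2, one_mul]

/-! ### Klein in basis form, block subadditivity -/

/-- Scalar Klein. -/
lemma negMulLog_le_klein {ξ y : ℝ} (hξ : 0 ≤ ξ) (hy : 0 ≤ y) (h0 : y = 0 → ξ = 0) :
    negMulLog ξ ≤ -(ξ * log y) + y - ξ := by
  rcases hξ.eq_or_lt with rfl | hξ'
  · simpa [negMulLog] using hy
  · have hy' : 0 < y := lt_of_le_of_ne hy (fun h => hξ'.ne' (h0 h.symm))
    have h1 := Real.log_le_sub_one_of_pos (div_pos hy' hξ')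
    rw [Real.log_div hy'.ne' hξ'.ne'] at h1
    have h2 := mul_le_mul_of_nonneg_left h1 hξ
    have h3 : ξ * (y / ξ - 1) = y - ξ := by field_simp
    rw [h3] at h2
    unfold negMulLog
    nlinarith

/-- Klein in basis form: no logarithm of a singular matrix. -/
theorem vnEntropy_le_klein {X : Matrix ι ι ℂ} (hX : X.PosSemidef) {V : Matrix ι ι ℂ}
    (hV : V ∈ unitaryGroup ι ℂ) (y : ι → ℝ) (hy : ∀ j, 0 ≤ y j)
    (h0 : ∀ j, y j = 0 → ((star V * X * V) j j).re = 0) :
    vnEntropy X ≤ -∑ j, ((star V * X * V) j j).re * log (y j) + ∑ j, y j - (X.trace).re := by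
  have hτ : (star V * X * V).PosSemidef := hX.conjTranspose_mul_mul_same V
  have htr : (X.trace).re = ∑ j, ((star V * X * V) j j).re := by
    have h1 : (star V * X * V).trace = X.trace := by
      rw [Matrix.trace_mul_comm, ← Matrix.mul_assoc, mem_unitaryGroup_iff.1 hV, Matrix.one_mul]
    rw [← h1]
    simp only [trace, Matrix.diag, Complex.re_sum]
  rw [htr]
  refine (vnEntropy_le_pinch hX hV).trans ?_
  have h2 : ∀ j, negMulLog ((star V * X * V) j j).re ≤
      -(((star V * X * V) j j).re * log (y j)) + y j - ((star V * X * V) j j).re := fun j =>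
    negMulLog_le_klein (re_diag_nonneg hτ j) (hy j) (h0 j)
  refine (Finset.sum_le_sum fun j _ => h2 j).trans (le_of_eq ?_)
  simp only [Finset.sum_sub_distrib, Finset.sum_add_distrib, Finset.sum_neg_distrib]

/-- Block subadditivity: `S(X) ≤ h(Tr X₁₁) + S(X₀₀ + X₁₁)`. -/
theorem vnEntropy_le_block {e : Type*} [Fintype e] [DecidableEq e] {X : Matrix (Bool × e) (Bool × e) ℂ}
    (hX : X.PosSemidef) (htr : X.trace = 1) :
    vnEntropy X ≤ binEntropy ((Crest.Quantum.block X true true).trace.re) +
      vnEntropy (Crest.Quantum.block X false false + Crest.Quantum.block X true true) := by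
  have h1 := vnEntropy_subadd hX htr
  have hL : ptraceL X = Crest.Quantum.block X false false + Crest.Quantum.block X true true := by
    ext i j
    simp [ptraceL, Crest.Quantum.block, add_comm]
  have h2 := vnEntropy_le_diag (ptraceR_posSemidef hX)
  rw [Fintype.sum_bool] at h2
  have h3 : (ptraceR X true true).re = (Crest.Quantum.block X true true).trace.re := by
    simp [ptraceR, Crest.Quantum.block, trace]
  have h4 : (ptraceR X false false).re = 1 - (Crest.Quantum.block X true true).trace.re := by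
    have h5 := trace_ptraceR X
    rw [htr] at h5
    simp only [trace, Matrix.diag, Fintype.sum_bool] at h5
    have h6 := congrArg Complex.re h5
    simp only [Complex.add_re, Complex.one_re] at h6
    rw [← h3]
    linarith
  rw [h3, h4] at h2
  have h7 := binEntropy_eq_negMulLog_add_negMulLog_one_sub ((Crest.Quantum.block X true true).trace.re)
  rw [← hL]
  linarith

/-! ### Qubits -/

/-- Entropy of a `2 × 2` Hermitian matrix with trace one and determinant `v`. -/
theorem vnEntropy_qubit {M : Matrix Bool Bool ℂ} (hM : M.IsHermitian) (htr : M.trace = 1) {v : ℝ}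
    (hdet : M.det = (v : ℂ)) :
    vnEntropy M = binEntropy ((1 + Real.sqrt (1 - 4 * v)) / 2) := by
  set a := hM.eigenvalues false with ha
  set b := hM.eigenvalues true with hb
  have h1 : a + b = 1 := by
    have := hM.trace_eq_sum_eigenvalues
    rw [htr, Fintype.sum_bool] at this
    have h3 := congrArg Complex.re this
    simp only [Complex.one_re, Complex.add_re] at h3
    simpa [add_comm, ha, hb] using h3.symm
  have h2 : a * b = v := by
    have := hM.det_eq_prod_eigenvalues
    rw [hdet, Fintype.prod_bool] at this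
    have h3 := congrArg Complex.re this
    simp at h3
    rw [h3, mul_comm]
  have hb1 : b = 1 - a := by linarith
  have hprod : a * (1 - a) = v := by rw [← hb1]; exact h2
  have hnn : 0 ≤ 1 - 4 * v := by nlinarith [sq_nonneg (2 * a - 1)]
  set r := Real.sqrt (1 - 4 * v) with hr
  have hr2 : r ^ 2 = 1 - 4 * v := Real.sq_sqrt hnn
  have hzero : (a - (1 + r) / 2) * (a - (1 - r) / 2) = 0 := by
    nlinarith
  rw [vnEntropy_eq hM, Fintype.sum_bool, binEntropy_eq_negMulLog_add_negMulLog_one_sub]
  rcases mul_eq_zero.1 hzero with h | h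
  · have ha' : a = (1 + r) / 2 := by linarith
    have h5 : hM.eigenvalues true = 1 - (1 + r) / 2 := by rw [← hb, hb1, ha']
    have h6 : hM.eigenvalues false = (1 + r) / 2 := ha'
    rw [h5, h6, add_comm]
  · have ha' : a = (1 - r) / 2 := by linarith
    have h5 : hM.eigenvalues true = (1 + r) / 2 := by rw [← hb, hb1, ha']; ring
    have h6 : hM.eigenvalues false = 1 - (1 + r) / 2 := by rw [← ha, ha']; ring
    rw [h5, h6]

end Crest.Agent.Lib.GAD
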