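/-
Row 341 (S0534, S0535): Steps 2 and 3 of the proof of the key inequality.
Functional calculus on a Hermitian matrix by its spectral decomposition, concavity of `log det`,
Loewner monotonicity of `det`, the clip, the Young-type decoupling of `log det (1 - k² X Y)`.
-/
import Crest.Agent.Lib.GAD.Entropy

set_option autoImplicit false
set_option linter.unusedSectionVars false

namespace Crest.Agent.Lib.GAD

open Matrix Real Finset
open scoped ComplexOrder

variable {κ : Type*} [Fintype κ] [DecidableEq κ]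

/-! ### Functional calculus -/

/-- `g(X) = U diag(g(x_i)) U*` for Hermitian `X`. -/
noncomputable def hfun {X : Matrix κ κ ℂ} (h : X.IsHermitian) (g : ℝ → ℝ) : Matrix κ κ ℂ :=
  (h.eigenvectorUnitary : Matrix κ κ ℂ) * diagonal (fun i => (g (h.eigenvalues i) : ℂ)) *
    star (h.eigenvectorUnitary : Matrix κ κ ℂ)

lemma hfun_id {X : Matrix κ κ ℂ} (h : X.IsHermitian) : hfun h (fun x => x) = X :=
  (spectral_eq h).symm

lemma unitary_star_mul {X : Matrix κ κ ℂ} (h : X.IsHermitian) :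
    star (h.eigenvectorUnitary : Matrix κ κ ℂ) * (h.eigenvectorUnitary : Matrix κ κ ℂ) = 1 :=
  mem_unitaryGroup_iff'.1 h.eigenvectorUnitary.2

lemma unitary_mul_star {X : Matrix κ κ ℂ} (h : X.IsHermitian) :
    (h.eigenvectorUnitary : Matrix κ κ ℂ) * star (h.eigenvectorUnitary : Matrix κ κ ℂ) = 1 :=
  mem_unitaryGroup_iff.1 h.eigenvectorUnitary.2

lemma hfun_const {X : Matrix κ κ ℂ} (h : X.IsHermitian) (c : ℝ) :
    hfun h (fun _ => c) = (c : ℂ) • (1 : Matrix κ κ ℂ) := by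
  unfold hfun
  have : diagonal (fun _ : κ => (c : ℂ)) = (c : ℂ) • (1 : Matrix κ κ ℂ) := by
    ext i j
    by_cases hij : i = j <;> simp [hij]
  rw [this, Matrix.mul_smul, Matrix.smul_mul, Matrix.mul_one, unitary_mul_star]

lemma hfun_one {X : Matrix κ κ ℂ} (h : X.IsHermitian) : hfun h (fun _ => 1) = 1 := by
  rw [hfun_const]; simp

lemma hfun_mul {X : Matrix κ κ ℂ} (h : X.IsHermitian) (g g' : ℝ → ℝ) :
    hfun h g * hfun h g' = hfun h (fun x => g x * g' x) := by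
  unfold hfun
  calc _ = (h.eigenvectorUnitary : Matrix κ κ ℂ) * diagonal (fun i => (g (h.eigenvalues i) : ℂ)) *
        (star (h.eigenvectorUnitary : Matrix κ κ ℂ) * (h.eigenvectorUnitary : Matrix κ κ ℂ)) *
        diagonal (fun i => (g' (h.eigenvalues i) : ℂ)) *
        star (h.eigenvectorUnitary : Matrix κ κ ℂ) := by simp only [Matrix.mul_assoc]
    _ = _ := by
        rw [unitary_star_mul, Matrix.mul_one, Matrix.mul_assoc (h.eigenvectorUnitary : Matrix κ κ ℂ),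
          diagonal_mul_diagonal]
        simp only [Complex.ofReal_mul]

lemma hfun_add {X : Matrix κ κ ℂ} (h : X.IsHermitian) (g g' : ℝ → ℝ) :
    hfun h (fun x => g x + g' x) = hfun h g + hfun h g' := by
  unfold hfun
  rw [← Matrix.add_mul, ← Matrix.mul_add]
  congr 2
  ext i j
  by_cases hij : i = j <;> simp [hij]

lemma hfun_smul {X : Matrix κ κ ℂ} (h : X.IsHermitian) (c : ℝ) (g : ℝ → ℝ) :
    hfun h (fun x => c * g x) = (c : ℂ) • hfun h g := by
  unfold hfun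
  rw [← Matrix.smul_mul, ← Matrix.mul_smul]
  congr 2
  ext i j
  by_cases hij : i = j <;> simp [hij]

lemma hfun_sub {X : Matrix κ κ ℂ} (h : X.IsHermitian) (g g' : ℝ → ℝ) :
    hfun h (fun x => g x - g' x) = hfun h g - hfun h g' := by
  have : (fun x => g x - g' x) = fun x => g x + (-1) * g' x := by
    funext x; ring
  rw [this, hfun_add, hfun_smul]
  simp [sub_eq_add_neg]

lemma hfun_congr {X : Matrix κ κ ℂ} (h : X.IsHermitian) {g g' : ℝ → ℝ}
    (hg : ∀ i, g (h.eigenvalues i) = g' (h.eigenvalues i)) : hfun h g = hfun h g' := by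
  unfold hfun
  simp only [hg]

lemma det_conj_unitary {U : Matrix κ κ ℂ} (hU : U ∈ unitaryGroup κ ℂ) (D : Matrix κ κ ℂ) :
    det (U * D * star U) = det D := by
  rw [Matrix.mul_assoc, det_mul_comm, Matrix.mul_assoc, mem_unitaryGroup_iff'.1 hU, Matrix.mul_one]

lemma det_hfun {X : Matrix κ κ ℂ} (h : X.IsHermitian) (g : ℝ → ℝ) :
    det (hfun h g) = ((∏ i, g (h.eigenvalues i) : ℝ) : ℂ) := by
  unfold hfun
  rw [det_conj_unitary h.eigenvectorUnitary.2, det_diagonal]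
  push_cast
  rfl

lemma hfun_isHermitian {X : Matrix κ κ ℂ} (h : X.IsHermitian) (g : ℝ → ℝ) :
    (hfun h g).IsHermitian := by
  unfold hfun
  have h1 : (diagonal (fun i => (g (h.eigenvalues i) : ℂ))).IsHermitian := by
    rw [IsHermitian, diagonal_conjTranspose]
    congr 1
    funext i
    simp
  have := isHermitian_mul_mul_conjTranspose (h.eigenvectorUnitary : Matrix κ κ ℂ) h1
  exact this

lemma hfun_posSemidef {X : Matrix κ κ ℂ} (h : X.IsHermitian) {g : ℝ → ℝ}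
    (hg : ∀ i, 0 ≤ g (h.eigenvalues i)) : (hfun h g).PosSemidef := by
  unfold hfun
  have h1 : (diagonal (fun i => (g (h.eigenvalues i) : ℂ))).PosSemidef := by
    rw [posSemidef_diagonal_iff]
    intro i
    exact_mod_cast hg i
  exact h1.mul_mul_conjTranspose_same (h.eigenvectorUnitary : Matrix κ κ ℂ)

lemma hfun_posDef {X : Matrix κ κ ℂ} (h : X.IsHermitian) {g : ℝ → ℝ}
    (hg : ∀ i, 0 < g (h.eigenvalues i)) : (hfun h g).PosDef := by
  have h1 : (diagonal (fun i => (g (h.eigenvalues i) : ℂ))).PosDef := by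
    rw [posDef_diagonal_iff]
    intro i
    exact_mod_cast hg i
  have h2 := h1.conjTranspose_mul_mul_same (B := star (h.eigenvectorUnitary : Matrix κ κ ℂ)) (by
    have hu : IsUnit (star (h.eigenvectorUnitary : Matrix κ κ ℂ)) :=
      ⟨⟨_, _, unitary_star_mul h, unitary_mul_star h⟩, rfl⟩
    exact Matrix.mulVec_injective_of_isUnit hu)
  have h3 : (star (h.eigenvectorUnitary : Matrix κ κ ℂ))ᴴ = (h.eigenvectorUnitary : Matrix κ κ ℂ) := by
    rw [star_eq_conjTranspose, conjTranspose_conjTranspose]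
  rw [h3] at h2
  exact h2

/-! ### Real determinants of positive definite matrices -/

lemma det_posDef_re {T : Matrix κ κ ℂ} (h : T.PosDef) : 0 < (det T).re ∧ (det T).im = 0 :=
  ⟨(Complex.pos_iff.1 h.det_pos).1, (Complex.pos_iff.1 h.det_pos).2.symm⟩

lemma det_eq_re_of_posDef {T : Matrix κ κ ℂ} (h : T.PosDef) : det T = ((det T).re : ℂ) :=
  Complex.ext (by simp) (by simpa using (det_posDef_re h).2)

/-- A positive definite matrix is `G G*` with `G` invertible. -/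
lemma exists_factor {T : Matrix κ κ ℂ} (h : T.PosDef) :
    ∃ G Gi : Matrix κ κ ℂ, G * Gi = 1 ∧ Gi * G = 1 ∧ T = G * star G := by
  have hT := h.1
  have hpos := fun i => h.eigenvalues_pos i
  refine ⟨hfun hT (fun x => Real.sqrt x), hfun hT (fun x => (Real.sqrt x)⁻¹), ?_, ?_, ?_⟩
  · rw [hfun_mul, ← hfun_one hT]
    refine hfun_congr hT fun i => ?_
    exact mul_inv_cancel₀ (Real.sqrt_pos.2 (hpos i)).ne'
  · rw [hfun_mul, ← hfun_one hT]
    refine hfun_congr hT fun i => ?_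
    exact inv_mul_cancel₀ (Real.sqrt_pos.2 (hpos i)).ne'
  · have h1 : star (hfun hT (fun x => Real.sqrt x)) = hfun hT (fun x => Real.sqrt x) :=
      hfun_isHermitian hT _
    rw [h1, hfun_mul]
    conv_lhs => rw [← hfun_id hT]
    refine hfun_congr hT fun i => ?_
    exact (Real.mul_self_sqrt (hpos i).le).symm

/-- Determinant of `G S G*`. -/
lemma det_factor {G Gi : Matrix κ κ ℂ} (_h1 : G * Gi = 1) (S : Matrix κ κ ℂ) :
    det (G * S * star G) = det (G * star G) * det S := by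
  rw [det_mul, det_mul, det_mul]
  ring

/-- Monotonicity of the determinant in the Loewner order. -/
theorem det_mono {P Q : Matrix κ κ ℂ} (hP : P.PosDef) (hPQ : (Q - P).PosSemidef) :
    (det P).re ≤ (det Q).re := by
  obtain ⟨G, Gi, h1, h2, hG⟩ := exists_factor hP
  set R : Matrix κ κ ℂ := Gi * (Q - P) * star Gi with hR
  have hRpsd : R.PosSemidef := by
    have := hPQ.mul_mul_conjTranspose_same Gi
    exact this
  have hstar : star Gi * star G = 1 := by
    rw [← star_mul, h1, star_one]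
  have hQ : Q = G * (1 + R) * star G := by
    have : G * R * star G = Q - P := by
      rw [hR]
      calc G * (Gi * (Q - P) * star Gi) * star G
          = (G * Gi) * (Q - P) * (star Gi * star G) := by simp only [Matrix.mul_assoc]
        _ = Q - P := by rw [h1, Matrix.one_mul, hstar, Matrix.mul_one]
    rw [Matrix.mul_add, Matrix.add_mul, Matrix.mul_one, ← hG, this]
    abel
  have hdR : det (1 + R) = ((∏ i, (1 + hRpsd.1.eigenvalues i) : ℝ) : ℂ) := by
    have : 1 + R = hfun hRpsd.1 (fun x => 1 + x) := by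
      rw [hfun_add, hfun_one, hfun_id]
    rw [this, det_hfun]
  have hge : 1 ≤ ∏ i, (1 + hRpsd.1.eigenvalues i) := by
    have h3 : ∏ _i : κ, (1 : ℝ) ≤ ∏ i, (1 + hRpsd.1.eigenvalues i) :=
      Finset.prod_le_prod (fun _ _ => zero_le_one) fun i _ => by
        linarith [hRpsd.eigenvalues_nonneg i]
    simpa using h3
  have hdP := (det_posDef_re hP)
  rw [hQ, det_factor h1, ← hG, hdR, Complex.re_mul_ofReal]
  nlinarith [hdP.1]

/-- Concavity of `log det`. -/
theorem logdet_concave {T1 T2 : Matrix κ κ ℂ} (h1 : T1.PosDef) (h2 : T2.PosDef) {θ : ℝ} (h0 : 0 ≤ θ)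
    (hθ : θ ≤ 1) :
    θ * log (det T1).re + (1 - θ) * log (det T2).re ≤
      log (det ((θ : ℂ) • T1 + ((1 - θ : ℝ) : ℂ) • T2)).re := by
  obtain ⟨G, Gi, hG1, hG2, hG⟩ := exists_factor h1
  set H : Matrix κ κ ℂ := Gi * T2 * star Gi with hH
  have hstar : star G * star Gi = 1 := by
    rw [← star_mul, hG2, star_one]
  have hstar' : star Gi * star G = 1 := by
    rw [← star_mul, hG1, star_one]
  have hHpd : H.PosDef := by
    have hu : IsUnit (star Gi) := ⟨⟨_, _, hstar', hstar⟩, rfl⟩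
    exact h2.conjTranspose_mul_mul_same (B := star Gi) (Matrix.mulVec_injective_of_isUnit hu) |> fun h => by
      have h3 : (star Gi)ᴴ = Gi := by rw [star_eq_conjTranspose, conjTranspose_conjTranspose]
      rw [h3] at h
      exact h
  have hT2 : T2 = G * H * star G := by
    rw [hH]
    calc T2 = (G * Gi) * T2 * (star Gi * star G) := by
          rw [hG1, Matrix.one_mul, hstar', Matrix.mul_one]
      _ = G * (Gi * T2 * star Gi) * star G := by simp only [Matrix.mul_assoc]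
  have hpos := fun i => hHpd.eigenvalues_pos i
  set hHH := hHpd.1
  have hdH : det H = ((∏ i, hHH.eigenvalues i : ℝ) : ℂ) := by
    conv_lhs => rw [← hfun_id hHH]
    rw [det_hfun]
  have hmix : (θ : ℂ) • T1 + ((1 - θ : ℝ) : ℂ) • T2 =
      G * hfun hHH (fun x => θ + (1 - θ) * x) * star G := by
    rw [hfun_add, hfun_smul, hfun_const, hfun_id]
    simp only [Matrix.mul_add, Matrix.add_mul, Matrix.mul_smul, Matrix.smul_mul, Matrix.mul_one]
    rw [← hG, ← hT2]
  have hD := det_posDef_re h1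
  have hT1 : det T1 = det (G * star G) := by rw [← hG]
  have e1 : (det T2).re = (det T1).re * ∏ i, hHH.eigenvalues i := by
    rw [hT2, det_factor hG1, ← hT1, hdH, Complex.re_mul_ofReal]
  have e2 : (det ((θ : ℂ) • T1 + ((1 - θ : ℝ) : ℂ) • T2)).re =
      (det T1).re * ∏ i, (θ + (1 - θ) * hHH.eigenvalues i) := by
    rw [hmix, det_factor hG1, ← hT1, det_hfun, Complex.re_mul_ofReal]
  have hprod1 : ∏ i, hHH.eigenvalues i ≠ 0 := (Finset.prod_pos fun i _ => hpos i).ne'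
  have hθpos : ∀ i, 0 < θ + (1 - θ) * hHH.eigenvalues i := fun i => by
    rcases h0.eq_or_lt with rfl | h0'
    · simpa using hpos i
    · have : 0 ≤ (1 - θ) * hHH.eigenvalues i := mul_nonneg (by linarith) (hpos i).le
      linarith
  have hprod2 : ∏ i, (θ + (1 - θ) * hHH.eigenvalues i) ≠ 0 :=
    (Finset.prod_pos fun i _ => hθpos i).ne'
  rw [e1, e2, Real.log_mul hD.1.ne' hprod1, Real.log_mul hD.1.ne' hprod2,
    Real.log_prod (fun i _ => (hpos i).ne'), Real.log_prod (fun i _ => (hθpos i).ne')]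
  have hsum : (1 - θ) * ∑ i, log (hHH.eigenvalues i) ≤ ∑ i, log (θ + (1 - θ) * hHH.eigenvalues i) := by
    rw [Finset.mul_sum]
    refine Finset.sum_le_sum fun i _ => ?_
    have := strictConcaveOn_log_Ioi.concaveOn.2 (x := 1) (y := hHH.eigenvalues i)
      (Set.mem_Ioi.2 one_pos) (hpos i) h0 (by linarith : (0 : ℝ) ≤ 1 - θ) (by ring)
    simpa [smul_eq_mul] using this
  nlinarith

/-! ### The clip -/

/-- A PSD matrix is `B* B`. -/
lemma exists_sqrt {E : Matrix κ κ ℂ} (h : E.PosSemidef) : ∃ B : Matrix κ κ ℂ, E = Bᴴ * B := by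
  refine ⟨hfun h.1 (fun x => Real.sqrt x), ?_⟩
  have h1 : (hfun h.1 (fun x => Real.sqrt x))ᴴ = hfun h.1 (fun x => Real.sqrt x) :=
    hfun_isHermitian h.1 _
  rw [h1, hfun_mul]
  conv_lhs => rw [← hfun_id h.1]
  refine hfun_congr h.1 fun i => ?_
  exact (Real.mul_self_sqrt (h.eigenvalues_nonneg i)).symm

/-- The clip inequality: with `E ≥ 0`, the ratio `det(1 - α g(X) + g(X) E) / ∏ (1 - α g(x_i))` is
monotone in `g`. -/
theorem det_ratio_mono {X E : Matrix κ κ ℂ} (hX : X.IsHermitian) (hE : E.PosSemidef) {α : ℝ}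
    {g g' : ℝ → ℝ} (hg0 : ∀ i, 0 ≤ g (hX.eigenvalues i))
    (hgg' : ∀ i, g (hX.eigenvalues i) ≤ g' (hX.eigenvalues i))
    (hα : 0 ≤ α) (hlt : ∀ i, α * g' (hX.eigenvalues i) < 1) :
    0 < (det (1 - (α : ℂ) • hfun hX g + hfun hX g * E)).re ∧
    (det (1 - (α : ℂ) • hfun hX g + hfun hX g * E)).im = 0 ∧
    (det (1 - (α : ℂ) • hfun hX g + hfun hX g * E)).re * ∏ i, (1 - α * g' (hX.eigenvalues i)) ≤
      (det (1 - (α : ℂ) • hfun hX g' + hfun hX g' * E)).re * ∏ i, (1 - α * g (hX.eigenvalues i)) := by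
  obtain ⟨B, rfl⟩ := exists_sqrt hE
  have hlt1 : ∀ i, 0 < 1 - α * g (hX.eigenvalues i) := fun i => by
    have := hlt i
    have h3 := mul_le_mul_of_nonneg_left (hgg' i) hα
    linarith
  have hlt2 : ∀ i, 0 < 1 - α * g' (hX.eigenvalues i) := fun i => by
    linarith [hlt i]
  have hg0' : ∀ i, 0 ≤ g' (hX.eigenvalues i) := fun i => (hg0 i).trans (hgg' i)
  -- the factorisation, for any `g`
  have hfac : ∀ g₀ : ℝ → ℝ, (∀ i, 0 < 1 - α * g₀ (hX.eigenvalues i)) →
      det (1 - (α : ℂ) • hfun hX g₀ + hfun hX g₀ * (Bᴴ * B)) =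
        ((∏ i, (1 - α * g₀ (hX.eigenvalues i)) : ℝ) : ℂ) *
          det (1 + B * (hfun hX (fun x => g₀ x / (1 - α * g₀ x)) * Bᴴ)) := by
    intro g₀ h₀
    have e1 : 1 - (α : ℂ) • hfun hX g₀ = hfun hX (fun x => 1 - α * g₀ x) := by
      rw [hfun_sub, hfun_one, hfun_smul]
    have e2 : hfun hX g₀ = hfun hX (fun x => 1 - α * g₀ x) *
        hfun hX (fun x => g₀ x / (1 - α * g₀ x)) := by
      rw [hfun_mul]
      refine hfun_congr hX fun i => ?_
      have := (h₀ i).ne'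
      rw [← mul_div_assoc, mul_div_cancel_left₀ _ this]
    have e3 : 1 - (α : ℂ) • hfun hX g₀ + hfun hX g₀ * (Bᴴ * B) =
        hfun hX (fun x => 1 - α * g₀ x) *
          (1 + hfun hX (fun x => g₀ x / (1 - α * g₀ x)) * (Bᴴ * B)) := by
      have e4 : hfun hX g₀ * (Bᴴ * B) = hfun hX (fun x => 1 - α * g₀ x) *
          (hfun hX (fun x => g₀ x / (1 - α * g₀ x)) * (Bᴴ * B)) := by
        conv_lhs => rw [e2]
        exact Matrix.mul_assoc _ _ _
      rw [e1, e4, Matrix.mul_add, Matrix.mul_one]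
    rw [e3, det_mul, det_hfun, ← Matrix.mul_assoc, det_one_add_mul_comm]
  set F := hfun hX (fun x => g x / (1 - α * g x)) with hF
  set F' := hfun hX (fun x => g' x / (1 - α * g' x)) with hF'
  have hFpsd : F.PosSemidef := hfun_posSemidef hX fun i => div_nonneg (hg0 i) (hlt1 i).le
  have hFF' : (F' - F).PosSemidef := by
    rw [hF, hF', ← hfun_sub]
    refine hfun_posSemidef hX fun i => ?_
    rw [sub_nonneg, div_le_div_iff₀ (hlt1 i) (hlt2 i)]
    nlinarith [hgg' i]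
  have hPpd : (1 + B * (F * Bᴴ)).PosDef := by
    have h1 : (B * (F * Bᴴ)).PosSemidef := by
      have := hFpsd.mul_mul_conjTranspose_same B
      rwa [Matrix.mul_assoc] at this
    exact PosDef.one.add_posSemidef h1
  have hmono := det_mono (P := 1 + B * (F * Bᴴ)) (Q := 1 + B * (F' * Bᴴ)) hPpd (by
    have h1 : (1 + B * (F' * Bᴴ)) - (1 + B * (F * Bᴴ)) = B * (F' - F) * Bᴴ := by
      rw [Matrix.mul_sub, Matrix.sub_mul]
      simp only [Matrix.mul_assoc]
      abel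
    rw [h1]
    exact hFF'.mul_mul_conjTranspose_same B)
  have hdP := det_posDef_re hPpd
  have hprod : 0 < ∏ i, (1 - α * g (hX.eigenvalues i)) := Finset.prod_pos fun i _ => hlt1 i
  have hprod' : 0 < ∏ i, (1 - α * g' (hX.eigenvalues i)) := Finset.prod_pos fun i _ => hlt2 i
  rw [hfac g hlt1, hfac g' hlt2, ← hF, ← hF']
  simp only [Complex.re_ofReal_mul, Complex.im_ofReal_mul]
  refine ⟨mul_pos hprod hdP.1, by rw [hdP.2, mul_zero], ?_⟩
  nlinarith [mul_le_mul_of_nonneg_left hmono (mul_pos hprod hprod').le]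

/-! ### The Young decoupling -/

/-- Step 2: decoupling of `log det (1 - a₀ b₀ X' Y')` for `X' = g(X)`, `Y' = h(Y)`. -/
theorem young {X Y : Matrix κ κ ℂ} (hX : X.IsHermitian) (hY : Y.IsHermitian) {g h : ℝ → ℝ}
    {a0 a1 b0 b1 θ : ℝ} (hθ0 : 0 < θ) (hθ1 : θ < 1) (ha0 : 0 ≤ a0) (hb0 : 0 ≤ b0)
    (ha : a1 * θ = a0 * (1 - θ)) (hb : b1 * (1 - θ) = b0 * θ)
    (hg0 : ∀ i, 0 ≤ g (hX.eigenvalues i)) (hh0 : ∀ j, 0 ≤ h (hY.eigenvalues j))
    (hg1 : ∀ i, a1 * g (hX.eigenvalues i) < 1) (hh1 : ∀ j, b1 * h (hY.eigenvalues j) < 1) :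
    0 < (det (1 - ((a0 * b0 : ℝ) : ℂ) • (hfun hX g * hfun hY h))).re ∧
    (det (1 - ((a0 * b0 : ℝ) : ℂ) • (hfun hX g * hfun hY h))).im = 0 ∧
    ∑ i, ((1 - θ) * log (1 + a0 * g (hX.eigenvalues i)) + θ * log (1 - a1 * g (hX.eigenvalues i))) +
      ∑ j, (θ * log (1 + b0 * h (hY.eigenvalues j)) + (1 - θ) * log (1 - b1 * h (hY.eigenvalues j))) ≤
      log (det (1 - ((a0 * b0 : ℝ) : ℂ) • (hfun hX g * hfun hY h))).re := by
  have hA0 : ∀ i, 0 < 1 + a0 * g (hX.eigenvalues i) := fun i => by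
    have := mul_nonneg ha0 (hg0 i); linarith
  have hB0 : ∀ j, 0 < 1 + b0 * h (hY.eigenvalues j) := fun j => by
    have := mul_nonneg hb0 (hh0 j); linarith
  have hA1 : ∀ i, 0 < 1 - a1 * g (hX.eigenvalues i) := fun i => by linarith [hg1 i]
  have hB1 : ∀ j, 0 < 1 - b1 * h (hY.eigenvalues j) := fun j => by linarith [hh1 j]
  set A := hfun hX (fun x => 1 + a0 * g x) with hA
  set B := hfun hY (fun y => 1 + b0 * h y) with hB
  set Ui := hfun hX (fun x => (1 + a0 * g x)⁻¹) with hUi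
  set Vi := hfun hY (fun y => (1 + b0 * h y)⁻¹) with hVi
  set T1 := hfun hX (fun x => (1 - a1 * g x) / (1 + a0 * g x)) with hT1
  set T2 := hfun hY (fun y => (1 - b1 * h y) / (1 + b0 * h y)) with hT2
  have hT1pd : T1.PosDef := hfun_posDef hX fun i => div_pos (hA1 i) (hA0 i)
  have hT2pd : T2.PosDef := hfun_posDef hY fun j => div_pos (hB1 j) (hB0 j)
  have hAUi : A * Ui = 1 := by
    rw [hA, hUi, hfun_mul, ← hfun_one hX]
    exact hfun_congr hX fun i => mul_inv_cancel₀ (hA0 i).ne'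
  have hViB : Vi * B = 1 := by
    rw [hB, hVi, hfun_mul, ← hfun_one hY]
    exact hfun_congr hY fun j => inv_mul_cancel₀ (hB0 j).ne'
  have e1 : (θ : ℂ) • T1 = Ui - ((1 - θ : ℝ) : ℂ) • (1 : Matrix κ κ ℂ) := by
    rw [hT1, ← hfun_smul, hUi, ← hfun_const hX, ← hfun_sub]
    refine hfun_congr hX fun i => ?_
    have hD := (hA0 i).ne'
    have key : θ * (1 - a1 * g (hX.eigenvalues i)) =
        1 - (1 - θ) * (1 + a0 * g (hX.eigenvalues i)) := by
      linear_combination (- g (hX.eigenvalues i)) * ha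
    calc θ * ((1 - a1 * g (hX.eigenvalues i)) / (1 + a0 * g (hX.eigenvalues i)))
        = (θ * (1 - a1 * g (hX.eigenvalues i))) / (1 + a0 * g (hX.eigenvalues i)) := by ring
      _ = (1 - (1 - θ) * (1 + a0 * g (hX.eigenvalues i))) / (1 + a0 * g (hX.eigenvalues i)) := by
          rw [key]
      _ = _ := by
          rw [sub_div, mul_div_cancel_right₀ _ hD, one_div]
  have e2 : ((1 - θ : ℝ) : ℂ) • T2 = Vi - (θ : ℂ) • (1 : Matrix κ κ ℂ) := by
    rw [hT2, ← hfun_smul, hVi, ← hfun_const hY, ← hfun_sub]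
    refine hfun_congr hY fun j => ?_
    have hD := (hB0 j).ne'
    have key : (1 - θ) * (1 - b1 * h (hY.eigenvalues j)) =
        1 - θ * (1 + b0 * h (hY.eigenvalues j)) := by
      linear_combination (- h (hY.eigenvalues j)) * hb
    calc (1 - θ) * ((1 - b1 * h (hY.eigenvalues j)) / (1 + b0 * h (hY.eigenvalues j)))
        = ((1 - θ) * (1 - b1 * h (hY.eigenvalues j))) / (1 + b0 * h (hY.eigenvalues j)) := by ring
      _ = (1 - θ * (1 + b0 * h (hY.eigenvalues j))) / (1 + b0 * h (hY.eigenvalues j)) := by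
          rw [key]
      _ = _ := by
          rw [sub_div, mul_div_cancel_right₀ _ hD, one_div]
  have hmix : (θ : ℂ) • T1 + ((1 - θ : ℝ) : ℂ) • T2 = Ui + Vi - 1 := by
    rw [e1, e2]
    have : ((1 - θ : ℝ) : ℂ) • (1 : Matrix κ κ ℂ) + (θ : ℂ) • (1 : Matrix κ κ ℂ) = 1 := by
      rw [← add_smul]; simp
    calc _ = Ui + Vi - (((1 - θ : ℝ) : ℂ) • (1 : Matrix κ κ ℂ) + (θ : ℂ) • (1 : Matrix κ κ ℂ)) := by abel
      _ = _ := by rw [this]
  have hA' : A = 1 + (a0 : ℂ) • hfun hX g := by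
    rw [hA, hfun_add, hfun_one, hfun_smul]
  have hB' : B = 1 + (b0 : ℂ) • hfun hY h := by
    rw [hB, hfun_add, hfun_one, hfun_smul]
  have hfact : 1 - ((a0 * b0 : ℝ) : ℂ) • (hfun hX g * hfun hY h) =
      A * ((θ : ℂ) • T1 + ((1 - θ : ℝ) : ℂ) • T2) * B := by
    rw [hmix]
    have : A * (Ui + Vi - 1) * B = A * Ui * B + A * (Vi * B) - A * B := by
      simp only [Matrix.mul_add, Matrix.mul_sub, Matrix.add_mul, Matrix.sub_mul, Matrix.mul_one,
        Matrix.mul_assoc]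
    rw [this, hAUi, hViB, Matrix.one_mul, Matrix.mul_one, hA', hB']
    have hexp : (1 + (a0 : ℂ) • hfun hX g) * (1 + (b0 : ℂ) • hfun hY h) =
        1 + (a0 : ℂ) • hfun hX g + (b0 : ℂ) • hfun hY h +
          ((a0 * b0 : ℝ) : ℂ) • (hfun hX g * hfun hY h) := by
      have hab : ((a0 * b0 : ℝ) : ℂ) = (b0 : ℂ) * (a0 : ℂ) := by push_cast; ring
      rw [hab]
      simp only [Matrix.mul_add, Matrix.add_mul, Matrix.mul_one, Matrix.one_mul, Matrix.smul_mul,
        Matrix.mul_smul, smul_add, smul_smul]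
      abel
    rw [hexp]
    abel
  have hdA : det A = ((∏ i, (1 + a0 * g (hX.eigenvalues i)) : ℝ) : ℂ) := det_hfun hX _
  have hdB : det B = ((∏ j, (1 + b0 * h (hY.eigenvalues j)) : ℝ) : ℂ) := det_hfun hY _
  have hdT1 : det T1 = ((∏ i, ((1 - a1 * g (hX.eigenvalues i)) / (1 + a0 * g (hX.eigenvalues i))) : ℝ) : ℂ) :=
    det_hfun hX _
  have hdT2 : det T2 = ((∏ j, ((1 - b1 * h (hY.eigenvalues j)) / (1 + b0 * h (hY.eigenvalues j))) : ℝ) : ℂ) :=
    det_hfun hY _
  have hmixpd : ((θ : ℂ) • T1 + ((1 - θ : ℝ) : ℂ) • T2).PosDef := by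
    have hs1 : 0 < (θ : ℂ) := by exact_mod_cast hθ0
    have hs2 : 0 < ((1 - θ : ℝ) : ℂ) := by
      exact_mod_cast (by linarith : 0 < 1 - θ)
    exact (hT1pd.smul hs1).add (hT2pd.smul hs2)
  have hdM := det_posDef_re hmixpd
  have hpA : 0 < ∏ i, (1 + a0 * g (hX.eigenvalues i)) := Finset.prod_pos fun i _ => hA0 i
  have hpB : 0 < ∏ j, (1 + b0 * h (hY.eigenvalues j)) := Finset.prod_pos fun j _ => hB0 j
  have hconc := logdet_concave hT1pd hT2pd hθ0.le hθ1.le
  have hfactdet : det (1 - ((a0 * b0 : ℝ) : ℂ) • (hfun hX g * hfun hY h)) =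
      ((∏ i, (1 + a0 * g (hX.eigenvalues i)) : ℝ) : ℂ) *
        det ((θ : ℂ) • T1 + ((1 - θ : ℝ) : ℂ) • T2) *
          ((∏ j, (1 + b0 * h (hY.eigenvalues j)) : ℝ) : ℂ) := by
    rw [hfact, det_mul, det_mul, hdA, hdB]
  rw [hfactdet]
  have hre : (((∏ i, (1 + a0 * g (hX.eigenvalues i)) : ℝ) : ℂ) *
        det ((θ : ℂ) • T1 + ((1 - θ : ℝ) : ℂ) • T2) *
          ((∏ j, (1 + b0 * h (hY.eigenvalues j)) : ℝ) : ℂ)).re =
      (∏ i, (1 + a0 * g (hX.eigenvalues i))) * (det ((θ : ℂ) • T1 + ((1 - θ : ℝ) : ℂ) • T2)).re *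
        ∏ j, (1 + b0 * h (hY.eigenvalues j)) := by
    rw [Complex.re_mul_ofReal, Complex.re_ofReal_mul]
  have him : (((∏ i, (1 + a0 * g (hX.eigenvalues i)) : ℝ) : ℂ) *
        det ((θ : ℂ) • T1 + ((1 - θ : ℝ) : ℂ) • T2) *
          ((∏ j, (1 + b0 * h (hY.eigenvalues j)) : ℝ) : ℂ)).im = 0 := by
    rw [Complex.im_mul_ofReal, Complex.im_ofReal_mul, hdM.2, mul_zero, zero_mul]
  refine ⟨by rw [hre]; exact mul_pos (mul_pos hpA hdM.1) hpB, him, ?_⟩
  rw [hre, Real.log_mul (mul_pos hpA hdM.1).ne' hpB.ne', Real.log_mul hpA.ne' hdM.1.ne',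
    Real.log_prod (fun i _ => (hA0 i).ne'), Real.log_prod (fun j _ => (hB0 j).ne')]
  have h1 : (det T1).re = ∏ i, ((1 - a1 * g (hX.eigenvalues i)) / (1 + a0 * g (hX.eigenvalues i))) := by
    rw [hdT1, Complex.ofReal_re]
  have h2 : (det T2).re = ∏ j, ((1 - b1 * h (hY.eigenvalues j)) / (1 + b0 * h (hY.eigenvalues j))) := by
    rw [hdT2, Complex.ofReal_re]
  rw [h1, h2, Real.log_prod (fun i _ => (div_pos (hA1 i) (hA0 i)).ne'),
    Real.log_prod (fun j _ => (div_pos (hB1 j) (hB0 j)).ne')] at hconc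
  simp only [Real.log_div (hA1 _).ne' (hA0 _).ne', Real.log_div (hB1 _).ne' (hB0 _).ne'] at hconc
  simp only [Finset.sum_add_distrib, Finset.sum_sub_distrib, ← Finset.mul_sum] at hconc ⊢
  nlinarith [hconc]

/-! ### Steps 2 + 3 together -/

lemma det_one_sub_smul {X : Matrix κ κ ℂ} (hX : X.IsHermitian) (α : ℝ) :
    det (1 - (α : ℂ) • X) = ((∏ i, (1 - α * hX.eigenvalues i) : ℝ) : ℂ) := by
  have : 1 - (α : ℂ) • X = hfun hX (fun x => 1 - α * x) := by
    rw [hfun_sub, hfun_one, hfun_smul, hfun_id]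
  rw [this, det_hfun]

/-- Steps 2 and 3 of the key inequality: for PSD `X, Y` with `α X < 1`, `β' Y < 1`, `a₀ b₀ ≤ α β'`,
`log det (1 - a₀ b₀ X Y) - log det (1 - α X) - log det (1 - β' Y)` is at least the sum over the
eigenvalues of the clipped scalar functions. -/
theorem young_clip {X Y : Matrix κ κ ℂ} (hX : X.PosSemidef) (hY : Y.PosSemidef)
    {α β' a0 a1 b0 b1 θ x0 y0 : ℝ} (hα : 0 < α) (hβ' : 0 < β') (hθ0 : 0 < θ) (hθ1 : θ < 1)
    (ha0 : 0 ≤ a0) (hb0 : 0 ≤ b0) (ha : a1 * θ = a0 * (1 - θ)) (hb : b1 * (1 - θ) = b0 * θ)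
    (hk : a0 * b0 ≤ α * β') (hx : ∀ i, α * hX.1.eigenvalues i < 1)
    (hy : ∀ j, β' * hY.1.eigenvalues j < 1) (hx0 : 0 ≤ x0) (hy0 : 0 ≤ y0) (ha1 : a1 * x0 < 1)
    (hb1 : b1 * y0 < 1) :
    0 < (det (1 - ((a0 * b0 : ℝ) : ℂ) • (X * Y))).re ∧
    (det (1 - ((a0 * b0 : ℝ) : ℂ) • (X * Y))).im = 0 ∧
    ∑ i, ((1 - θ) * log (1 + a0 * min (hX.1.eigenvalues i) x0) +
          θ * log (1 - a1 * min (hX.1.eigenvalues i) x0) -
          log (1 - α * min (hX.1.eigenvalues i) x0)) +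
      ∑ j, (θ * log (1 + b0 * min (hY.1.eigenvalues j) y0) +
          (1 - θ) * log (1 - b1 * min (hY.1.eigenvalues j) y0) -
          log (1 - β' * min (hY.1.eigenvalues j) y0)) ≤
      log (det (1 - ((a0 * b0 : ℝ) : ℂ) • (X * Y))).re - log (det (1 - (α : ℂ) • X)).re -
        log (det (1 - (β' : ℂ) • Y)).re := by
  set hXh := hX.1
  set hYh := hY.1
  set k2 : ℝ := a0 * b0 with hk2
  have hk20 : 0 ≤ k2 := mul_nonneg ha0 hb0
  have hxe := fun i => hX.eigenvalues_nonneg i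
  have hye := fun j => hY.eigenvalues_nonneg j
  set g : ℝ → ℝ := fun x => min x x0 with hg
  set h : ℝ → ℝ := fun y => min y y0 with hh
  have hg0 : ∀ i, 0 ≤ g (hXh.eigenvalues i) := fun i => le_min (hxe i) hx0
  have hh0 : ∀ j, 0 ≤ h (hYh.eigenvalues j) := fun j => le_min (hye j) hy0
  have hgle : ∀ i, g (hXh.eigenvalues i) ≤ hXh.eigenvalues i := fun i => min_le_left _ _
  have hhle : ∀ j, h (hYh.eigenvalues j) ≤ hYh.eigenvalues j := fun j => min_le_left _ _
  have ha1nn : 0 ≤ a1 := by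
    by_contra hneg
    have hneg := not_le.1 hneg
    have h1 : a1 * θ < 0 := mul_neg_of_neg_of_pos hneg hθ0
    have h2 : 0 ≤ a0 * (1 - θ) := mul_nonneg ha0 (by linarith)
    linarith
  have hb1nn : 0 ≤ b1 := by
    by_contra hneg
    have hneg := not_le.1 hneg
    have h1 : b1 * (1 - θ) < 0 := mul_neg_of_neg_of_pos hneg (by linarith)
    have h2 : 0 ≤ b0 * θ := mul_nonneg hb0 hθ0.le
    linarith
  have hg1 : ∀ i, a1 * g (hXh.eigenvalues i) < 1 := fun i =>
    lt_of_le_of_lt (mul_le_mul_of_nonneg_left (min_le_right _ _) ha1nn) ha1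
  have hh1 : ∀ j, b1 * h (hYh.eigenvalues j) < 1 := fun j =>
    lt_of_le_of_lt (mul_le_mul_of_nonneg_left (min_le_right _ _) hb1nn) hb1
  have hgα : ∀ i, 0 < 1 - α * g (hXh.eigenvalues i) := fun i => by
    have := mul_le_mul_of_nonneg_left (hgle i) hα.le
    linarith [hx i]
  have hhβ : ∀ j, 0 < 1 - β' * h (hYh.eigenvalues j) := fun j => by
    have := mul_le_mul_of_nonneg_left (hhle j) hβ'.le
    linarith [hy j]
  -- Step 3 for X
  have hE1 : (hfun hYh (fun y => α - k2 * y)).PosSemidef := hfun_posSemidef hYh fun j => by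
    have h1 : k2 * hYh.eigenvalues j ≤ α * β' * hYh.eigenvalues j :=
      mul_le_mul_of_nonneg_right hk (hye j)
    have h2 : α * (β' * hYh.eigenvalues j) ≤ α * 1 :=
      mul_le_mul_of_nonneg_left (hy j).le hα.le
    nlinarith
  have hX1 : ∀ g₀ : ℝ → ℝ, 1 - (α : ℂ) • hfun hXh g₀ + hfun hXh g₀ * hfun hYh (fun y => α - k2 * y) =
      1 - (k2 : ℂ) • (hfun hXh g₀ * Y) := by
    intro g₀
    rw [hfun_sub, hfun_const, hfun_smul, hfun_id, Matrix.mul_sub, Matrix.mul_smul, Matrix.mul_smul,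
      Matrix.mul_one]
    abel
  obtain ⟨hd1, hd1', hc1⟩ := det_ratio_mono (E := hfun hYh (fun y => α - k2 * y)) hXh hE1 (g := g)
    (g' := fun x => x) hg0 hgle hα.le hx
  rw [hX1 g] at hd1 hd1'
  rw [hX1 g, hX1 (fun x => x), hfun_id] at hc1
  -- Step 3 for Y
  have hE2 : (hfun hXh (fun x => β' - k2 * g x)).PosSemidef := hfun_posSemidef hXh fun i => by
    have h1 : k2 * g (hXh.eigenvalues i) ≤ α * β' * g (hXh.eigenvalues i) :=
      mul_le_mul_of_nonneg_right hk (hg0 i)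
    have h2 : α * g (hXh.eigenvalues i) ≤ 1 := by linarith [hgα i]
    nlinarith
  have hY1 : ∀ h₀ : ℝ → ℝ, 1 - (β' : ℂ) • hfun hYh h₀ + hfun hYh h₀ * hfun hXh (fun x => β' - k2 * g x) =
      1 - (k2 : ℂ) • (hfun hYh h₀ * hfun hXh g) := by
    intro h₀
    rw [hfun_sub, hfun_const, hfun_smul, Matrix.mul_sub, Matrix.mul_smul, Matrix.mul_smul,
      Matrix.mul_one]
    abel
  have hcomm : ∀ h₀ : ℝ → ℝ, det (1 - (k2 : ℂ) • (hfun hYh h₀ * hfun hXh g)) =
      det (1 - (k2 : ℂ) • (hfun hXh g * hfun hYh h₀)) := by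
    intro h₀
    have h1 : (k2 : ℂ) • (hfun hYh h₀ * hfun hXh g) = ((k2 : ℂ) • hfun hYh h₀) * hfun hXh g := by
      rw [Matrix.smul_mul]
    have h2 : (k2 : ℂ) • (hfun hXh g * hfun hYh h₀) = hfun hXh g * ((k2 : ℂ) • hfun hYh h₀) := by
      rw [Matrix.mul_smul]
    rw [h1, h2, det_one_sub_mul_comm]
  obtain ⟨hd2, hd2', hc2⟩ := det_ratio_mono (E := hfun hXh (fun x => β' - k2 * g x)) hYh hE2 (g := h)
    (g' := fun y => y) hh0 hhle hβ'.le hy
  rw [hY1 h, hcomm] at hd2 hd2'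
  rw [hY1 h, hY1 (fun y => y), hcomm, hcomm, hfun_id] at hc2
  -- Step 2
  obtain ⟨hd3, hd3', hy3⟩ := young hXh hYh (g := g) (h := h) hθ0 hθ1 ha0 hb0 ha hb hg0 hh0 hg1 hh1
  -- combine
  have hpx : 0 < ∏ i, (1 - α * hXh.eigenvalues i) := Finset.prod_pos fun i _ => by linarith [hx i]
  have hpy : 0 < ∏ j, (1 - β' * hYh.eigenvalues j) := Finset.prod_pos fun j _ => by linarith [hy j]
  have hpgx : 0 < ∏ i, (1 - α * g (hXh.eigenvalues i)) := Finset.prod_pos fun i _ => hgα i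
  have hpgy : 0 < ∏ j, (1 - β' * h (hYh.eigenvalues j)) := Finset.prod_pos fun j _ => hhβ j
  obtain ⟨hd0, hd0', -⟩ := det_ratio_mono (E := hfun hYh (fun y => α - k2 * y)) hXh hE1
    (g := fun x => x) (g' := fun x => x) hxe (fun _ => le_rfl) hα.le hx
  rw [hX1 (fun x => x), hfun_id] at hd0 hd0'
  refine ⟨hd0, hd0', ?_⟩
  have hdX : (det (1 - (α : ℂ) • X)).re = ∏ i, (1 - α * hXh.eigenvalues i) := by
    rw [det_one_sub_smul hXh, Complex.ofReal_re]
  have hdY : (det (1 - (β' : ℂ) • Y)).re = ∏ j, (1 - β' * hYh.eigenvalues j) := by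
    rw [det_one_sub_smul hYh, Complex.ofReal_re]
  rw [hdX, hdY]
  have hl1 := Real.log_le_log (mul_pos hd1 hpx) hc1
  have hl2 := Real.log_le_log (mul_pos hd3 hpy) hc2
  rw [Real.log_mul hd1.ne' hpx.ne', Real.log_mul hd0.ne' hpgx.ne'] at hl1
  rw [Real.log_mul hd3.ne' hpy.ne', Real.log_mul hd1.ne' hpgy.ne'] at hl2
  have hsum1 : log (∏ i, (1 - α * g (hXh.eigenvalues i))) =
      ∑ i, log (1 - α * g (hXh.eigenvalues i)) := Real.log_prod fun i _ => (hgα i).ne'
  have hsum2 : log (∏ j, (1 - β' * h (hYh.eigenvalues j))) =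
      ∑ j, log (1 - β' * h (hYh.eigenvalues j)) := Real.log_prod fun j _ => (hhβ j).ne'
  rw [hsum1] at hl1
  rw [hsum2] at hl2
  have hsplit1 : ∑ i, ((1 - θ) * log (1 + a0 * min (hXh.eigenvalues i) x0) +
          θ * log (1 - a1 * min (hXh.eigenvalues i) x0) -
          log (1 - α * min (hXh.eigenvalues i) x0)) =
      ∑ i, ((1 - θ) * log (1 + a0 * g (hXh.eigenvalues i)) + θ * log (1 - a1 * g (hXh.eigenvalues i))) -
        ∑ i, log (1 - α * g (hXh.eigenvalues i)) := by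
    rw [← Finset.sum_sub_distrib]
  have hsplit2 : ∑ j, (θ * log (1 + b0 * min (hYh.eigenvalues j) y0) +
          (1 - θ) * log (1 - b1 * min (hYh.eigenvalues j) y0) -
          log (1 - β' * min (hYh.eigenvalues j) y0)) =
      ∑ j, (θ * log (1 + b0 * h (hYh.eigenvalues j)) + (1 - θ) * log (1 - b1 * h (hYh.eigenvalues j))) -
        ∑ j, log (1 - β' * h (hYh.eigenvalues j)) := by
    rw [← Finset.sum_sub_distrib]
  rw [hsplit1, hsplit2]
  linarith

end Crest.Agent.Lib.GAD
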