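import Mathlib
import Crest.Prelude.Def_AmpDamp

/-!
Shared statement of the key inequality of row 341 (S0534, S0535).  No proof here.
`GadKey` will be proved in `Crest.Agent.Lib.GAD.Key` (helper23); `Final` takes it as hypothesis.
-/

set_option autoImplicit false

namespace Crest.Agent.GAD

open Crest.Quantum Crest.MathPhysics.AmpDamp

/-- The determinant of the output of the pure state with excited population `p`. -/
noncomputable def gadV (γ ν p : ℝ) : ℝ := γ * ν * (1 - ν) + γ * (1 - γ) * (p - ν) ^ 2

/-- Entropy of the output of the pure state with excited population `p`. -/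
noncomputable def gadG (γ ν p : ℝ) : ℝ :=
  Real.binEntropy ((1 + Real.sqrt (1 - 4 * gadV γ ν p)) / 2)

/-- The key inequality (unnormalised blocks; no case split at `p = 0, 1`):
`S(M) ≥ g(p) - h(p) + S(A) + S(C)` where `A, C` are the diagonal blocks of the density `ρ`,
`p = Tr C`, and `M = (GAD ⊗ id) ρ`.  Here `vnEntropy` is not normalised by the trace. -/
def GadKey : Prop :=
  ∀ (γ ν : ℝ), γ ∈ Set.Icc (0 : ℝ) 1 → ν ∈ Set.Icc (0 : ℝ) 1 →
    ∀ (d : Type) [Fintype d] [DecidableEq d] (ρ : Matrix (Bool × d) (Bool × d) ℂ), IsDensity ρ →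
      gadG γ ν (block ρ true true).trace.re - Real.binEntropy (block ρ true true).trace.re
          + vnEntropy (block ρ false false) + vnEntropy (block ρ true true)
        ≤ vnEntropy (qubitTensor (gadMap γ ν) (id : Matrix d d ℂ → Matrix d d ℂ) ρ)

end Crest.Agent.GAD
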