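/-
Row 341 (S0534, S0535): Kraus form of the generalized amplitude-damping channel and of its tensor powers.
A map given by Kraus operators with `∑ Aᴴ A = 1` is a channel.
-/
import Crest.Agent.Lib.GAD.Entropy
import Crest.Prelude.Def_AmpDamp

set_option autoImplicit false
set_option linter.unusedSectionVars false

namespace Crest.Agent.Lib.GAD

open Matrix Real Finset
open scoped ComplexOrder Kronecker
open Crest.Quantum Crest.MathPhysics.AmpDamp

section Kraus

variable {ι : Type*} [Fintype ι] {d e : Type*} [Fintype d] [Fintype e] [DecidableEq d] [DecidableEq e]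

/-- The map with Kraus operators `A c`. -/
noncomputable def krausMap (A : ι → Matrix e d ℂ) (M : Matrix d d ℂ) : Matrix e e ℂ :=
  ∑ c, A c * M * (A c)ᴴ

theorem krausMap_apply (A : ι → Matrix e d ℂ) (M : Matrix d d ℂ) (i j : e) :
    krausMap A M i j = ∑ c, ∑ i', ∑ j', A c i i' * M i' j' * star (A c j j') := by
  simp only [krausMap, Matrix.sum_apply, Matrix.mul_apply, conjTranspose_apply]
  refine Finset.sum_congr rfl fun c _ => ?_
  rw [Finset.sum_comm]
  refine Finset.sum_congr rfl fun j' _ => ?_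
  rw [Finset.sum_mul]
  
theorem krausMap_isLinearMap (A : ι → Matrix e d ℂ) : IsLinearMap ℂ (krausMap A) := by
  constructor
  · intro M N
    simp only [krausMap, Matrix.mul_add, Matrix.add_mul, Finset.sum_add_distrib]
  · intro c M
    simp only [krausMap, Finset.smul_sum, Matrix.mul_smul, Matrix.smul_mul]

theorem krausMap_trace (A : ι → Matrix e d ℂ) (h : ∑ c, (A c)ᴴ * A c = 1) (M : Matrix d d ℂ) :
    (krausMap A M).trace = M.trace := by
  simp only [krausMap, trace_sum]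
  have : ∀ c, (A c * M * (A c)ᴴ).trace = (((A c)ᴴ * A c) * M).trace := by
    intro c
    rw [Matrix.trace_mul_comm, ← Matrix.mul_assoc]
  simp only [this, ← trace_sum, ← Finset.sum_mul, h, Matrix.one_mul]

theorem conj_one_kronecker_apply {k : Type*} [Fintype k] [DecidableEq k] (A : Matrix e d ℂ)
    (M : Matrix (k × d) (k × d) ℂ) (a b : k) (i j : e) :
    (((1 : Matrix k k ℂ) ⊗ₖ A) * M * ((1 : Matrix k k ℂ) ⊗ₖ A)ᴴ) (a, i) (b, j) =
      ∑ i', ∑ j', A i i' * M (a, i') (b, j') * star (A j j') := by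
  have hB : ∀ (a a' : k) (i : e) (i' : d), ((1 : Matrix k k ℂ) ⊗ₖ A) (a, i) (a', i') =
      if a = a' then A i i' else 0 := by
    intro a a' i i'
    simp [kroneckerMap_apply, Matrix.one_apply]
  simp only [Matrix.mul_apply, conjTranspose_apply, Fintype.sum_prod_type, hB]
  rw [Finset.sum_eq_single b]
  · simp only [if_true]
    conv_rhs => rw [Finset.sum_comm]
    refine Finset.sum_congr rfl fun y _ => ?_
    simp_rw [Finset.sum_mul]
    rw [Finset.sum_eq_single a]
    · simp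
    · intro a' _ ha'
      simp [Ne.symm ha']
    · simp
  · intro y _ hy
    simp [Ne.symm hy]
  · simp

theorem blockwise_krausMap {k : Type*} [Fintype k] [DecidableEq k] (A : ι → Matrix e d ℂ)
    (M : Matrix (k × d) (k × d) ℂ) :
    blockwise (krausMap A) M = ∑ c, ((1 : Matrix k k ℂ) ⊗ₖ A c) * M * ((1 : Matrix k k ℂ) ⊗ₖ A c)ᴴ := by
  ext ⟨a, i⟩ ⟨b, j⟩
  simp only [blockwise, Matrix.of_apply, Matrix.sum_apply, conj_one_kronecker_apply, krausMap_apply, block]

theorem krausMap_isChannel (A : ι → Matrix e d ℂ) (h : ∑ c, (A c)ᴴ * A c = 1) :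
    IsChannel (krausMap A) := by
  refine ⟨krausMap_isLinearMap A, ?_, krausMap_trace A h⟩
  intro k M hM
  rw [blockwise_krausMap]
  exact posSemidef_sum _ fun c _ => hM.mul_mul_conjTranspose_same _

theorem krausMap_coeff (A : ι → Matrix Bool Bool ℂ) (s t s' t' : Bool) :
    qubitCoeff (krausMap A) s t s' t' = ∑ c, A c s s' * star (A c t t') := by
  simp only [qubitCoeff, krausMap_apply]
  refine Finset.sum_congr rfl fun c _ => ?_
  rw [Finset.sum_eq_single s', Finset.sum_eq_single t']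
  · simp
  · intro b _ hb
    simp [Matrix.single_apply, Ne.symm hb]
  · simp
  · intro b _ hb
    simp [Matrix.single_apply, Ne.symm hb]
  · simp

/-- Kraus operators of the tensor power. -/
def powKraus {n : ℕ} (A : ι → Matrix Bool Bool ℂ) (j : Fin n → ι) :
    Matrix (Fin n → Bool) (Fin n → Bool) ℂ :=
  Matrix.of fun σ σ' => ∏ i, A (j i) (σ i) (σ' i)

theorem qubitPower_krausMap [DecidableEq ι] (n : ℕ) (A : ι → Matrix Bool Bool ℂ) :
    qubitPower n (krausMap A) = krausMap (powKraus (n := n) A) := by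
  funext M
  ext σ τ
  simp only [qubitPower, Matrix.of_apply, krausMap_coeff, krausMap_apply, powKraus]
  have hprod : ∀ σ' τ' : Fin n → Bool,
      ∏ i, ∑ c, A c (σ i) (σ' i) * star (A c (τ i) (τ' i)) =
        ∑ j : Fin n → ι, ∏ i, (A (j i) (σ i) (σ' i) * star (A (j i) (τ i) (τ' i))) := by
    intro σ' τ'
    rw [Finset.prod_univ_sum, Fintype.piFinset_univ]
  simp only [hprod, Finset.sum_mul]
  refine (Finset.sum_congr rfl fun σ' _ => Finset.sum_comm).trans ?_
  refine Finset.sum_comm.trans ?_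
  refine Finset.sum_congr rfl fun j _ => ?_
  refine Finset.sum_congr rfl fun σ' _ => ?_
  refine Finset.sum_congr rfl fun τ' _ => ?_
  simp only [Finset.prod_mul_distrib, star_prod]
  ring

theorem sum_powKraus [DecidableEq ι] {n : ℕ} (A : ι → Matrix Bool Bool ℂ) (h : ∑ c, (A c)ᴴ * A c = 1) :
    ∑ j, (powKraus (n := n) A j)ᴴ * powKraus (n := n) A j = 1 := by
  have hA : ∀ s t : Bool, ∑ b : Bool, ∑ c, star (A c b s) * A c b t = if s = t then 1 else 0 := by
    intro s t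
    have := congrFun (congrFun h s) t
    simp only [Matrix.sum_apply, Matrix.mul_apply, conjTranspose_apply, Matrix.one_apply] at this
    rw [Finset.sum_comm]
    exact this
  ext σ' τ'
  simp only [Matrix.sum_apply, Matrix.mul_apply, conjTranspose_apply, powKraus, Matrix.of_apply]
  have hstep : ∀ j : Fin n → ι, ∑ σ : Fin n → Bool,
      star (∏ i, A (j i) (σ i) (σ' i)) * ∏ i, A (j i) (σ i) (τ' i) =
      ∑ σ : Fin n → Bool, ∏ i, (star (A (j i) (σ i) (σ' i)) * A (j i) (σ i) (τ' i)) := by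
    intro j
    refine Finset.sum_congr rfl fun σ _ => ?_
    rw [Finset.prod_mul_distrib, star_prod]
  simp only [hstep]
  rw [Finset.sum_comm]
  have h1 : ∀ σ : Fin n → Bool, ∑ j : Fin n → ι, ∏ i, (star (A (j i) (σ i) (σ' i)) * A (j i) (σ i) (τ' i)) =
      ∏ i, ∑ c, star (A c (σ i) (σ' i)) * A c (σ i) (τ' i) := by
    intro σ
    rw [Finset.prod_univ_sum, Fintype.piFinset_univ]
  simp only [h1]
  have h2 : ∑ σ : Fin n → Bool, ∏ i, ∑ c, star (A c (σ i) (σ' i)) * A c (σ i) (τ' i) =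
      ∏ i, ∑ b : Bool, ∑ c, star (A c b (σ' i)) * A c b (τ' i) := by
    rw [Finset.prod_univ_sum, Fintype.piFinset_univ]
  rw [h2]
  simp only [hA, Matrix.one_apply]
  by_cases hst : σ' = τ'
  · subst hst; simp
  · rw [if_neg hst]
    obtain ⟨i, hi⟩ := Function.ne_iff.mp hst
    exact Finset.prod_eq_zero (Finset.mem_univ i) (by simp [hi])

theorem qubitPower_isChannel [DecidableEq ι] (n : ℕ) (A : ι → Matrix Bool Bool ℂ)
    (h : ∑ c, (A c)ᴴ * A c = 1) : IsChannel (qubitPower n (krausMap A)) := by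
  rw [qubitPower_krausMap]
  exact krausMap_isChannel _ (sum_powKraus A h)

end Kraus

section Gad

/-- The Kraus operators of the generalized amplitude-damping channel. -/
noncomputable def krR (γ ν : ℝ) : Fin 4 → Bool → Bool → ℝ
  | 0, false, false => √(1 - ν)
  | 0, true, true => √(1 - ν) * √(1 - γ)
  | 1, false, true => √(1 - ν) * √γ
  | 2, false, false => √ν * √(1 - γ)
  | 2, true, true => √ν
  | 3, true, false => √ν * √γ
  | _, _, _ => 0

noncomputable def kr (γ ν : ℝ) (c : Fin 4) : Matrix Bool Bool ℂ :=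
  Matrix.of fun s t => (krR γ ν c s t : ℂ)

variable {γ ν : ℝ} 

theorem gadMap_eq_krausMap (hγ : γ ∈ Set.Icc (0 : ℝ) 1) (hν : ν ∈ Set.Icc (0 : ℝ) 1) :
    gadMap γ ν = krausMap (kr γ ν) := by
  have ha : ((√(1 - ν) : ℝ) : ℂ) * ((√(1 - ν) : ℝ) : ℂ) = ((1 - ν : ℝ) : ℂ) := by
    rw [← Complex.ofReal_mul, Real.mul_self_sqrt (by linarith [hν.2])]
  have hb : ((√ν : ℝ) : ℂ) * ((√ν : ℝ) : ℂ) = ((ν : ℝ) : ℂ) := by
    rw [← Complex.ofReal_mul, Real.mul_self_sqrt hν.1]
  have hk : ((√(1 - γ) : ℝ) : ℂ) * ((√(1 - γ) : ℝ) : ℂ) = ((1 - γ : ℝ) : ℂ) := by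
    rw [← Complex.ofReal_mul, Real.mul_self_sqrt (by linarith [hγ.2])]
  have hg : ((√γ : ℝ) : ℂ) * ((√γ : ℝ) : ℂ) = ((γ : ℝ) : ℂ) := by
    rw [← Complex.ofReal_mul, Real.mul_self_sqrt hγ.1]
  funext M
  ext s t
  rw [krausMap_apply]
  push_cast at ha hb hk hg
  set A : ℂ := ((√(1 - ν) : ℝ) : ℂ)
  set B : ℂ := ((√ν : ℝ) : ℂ)
  set K : ℂ := ((√(1 - γ) : ℝ) : ℂ)
  set G : ℂ := ((√γ : ℝ) : ℂ)
  cases s <;> cases t <;>
    simp [gadMap, Fin.sum_univ_four, Fintype.sum_bool, kr, krR] <;> push_cast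
  · linear_combination (M false false) * (-ha - K * K * hb - (ν : ℂ) * hk) +
      (M true true) * (-G * G * ha - (1 - (ν : ℂ)) * hg)
  · linear_combination (-K * M false true) * ha + (-K * M false true) * hb
  · linear_combination (-K * M true false) * ha + (-K * M true false) * hb
  · linear_combination (M false false) * (-G * G * hb - (ν : ℂ) * hg) +
      (M true true) * (-K * K * ha - (1 - (ν : ℂ)) * hk - hb)

theorem sum_kr (hγ : γ ∈ Set.Icc (0 : ℝ) 1) (hν : ν ∈ Set.Icc (0 : ℝ) 1) :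
    ∑ c, (kr γ ν c)ᴴ * kr γ ν c = 1 := by
  have ha : ((√(1 - ν) : ℝ) : ℂ) * ((√(1 - ν) : ℝ) : ℂ) = ((1 - ν : ℝ) : ℂ) := by
    rw [← Complex.ofReal_mul, Real.mul_self_sqrt (by linarith [hν.2])]
  have hb : ((√ν : ℝ) : ℂ) * ((√ν : ℝ) : ℂ) = ((ν : ℝ) : ℂ) := by
    rw [← Complex.ofReal_mul, Real.mul_self_sqrt hν.1]
  have hk : ((√(1 - γ) : ℝ) : ℂ) * ((√(1 - γ) : ℝ) : ℂ) = ((1 - γ : ℝ) : ℂ) := by
    rw [← Complex.ofReal_mul, Real.mul_self_sqrt (by linarith [hγ.2])]
  have hg : ((√γ : ℝ) : ℂ) * ((√γ : ℝ) : ℂ) = ((γ : ℝ) : ℂ) := by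
    rw [← Complex.ofReal_mul, Real.mul_self_sqrt hγ.1]
  push_cast at ha hb hk hg
  set A : ℂ := ((√(1 - ν) : ℝ) : ℂ)
  set B : ℂ := ((√ν : ℝ) : ℂ)
  set K : ℂ := ((√(1 - γ) : ℝ) : ℂ)
  set G : ℂ := ((√γ : ℝ) : ℂ)
  ext s t
  cases s <;> cases t <;>
    simp [Matrix.sum_apply, Matrix.mul_apply, Fin.sum_univ_four, Fintype.sum_bool, kr, krR,
      conjTranspose_apply, Matrix.one_apply]
  · linear_combination ha + B * B * (hk + hg) + hb
  · linear_combination A * A * (hk + hg) + ha + hb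

theorem gad_isChannel (hγ : γ ∈ Set.Icc (0 : ℝ) 1) (hν : ν ∈ Set.Icc (0 : ℝ) 1) :
    IsChannel (gadMap γ ν) := by
  rw [gadMap_eq_krausMap hγ hν]
  exact krausMap_isChannel _ (sum_kr hγ hν)

theorem gadPower_isChannel (hγ : γ ∈ Set.Icc (0 : ℝ) 1) (hν : ν ∈ Set.Icc (0 : ℝ) 1) (n : ℕ) :
    IsChannel (qubitPower n (gadMap γ ν)) := by
  rw [gadMap_eq_krausMap hγ hν]
  exact qubitPower_isChannel n _ (sum_kr hγ hν)

/-- The transfer coefficients give the map (a linear map on qubit matrices). -/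
theorem gadMap_apply_coeff (hγ : γ ∈ Set.Icc (0 : ℝ) 1) (hν : ν ∈ Set.Icc (0 : ℝ) 1)
    (M : Matrix Bool Bool ℂ) (s t : Bool) :
    gadMap γ ν M s t = ∑ s', ∑ t', qubitCoeff (gadMap γ ν) s t s' t' * M s' t' := by
  rw [gadMap_eq_krausMap hγ hν, krausMap_apply]
  simp only [krausMap_coeff, Finset.sum_mul]
  rw [Finset.sum_comm]
  refine Finset.sum_congr rfl fun s' _ => ?_
  rw [Finset.sum_comm]
  refine Finset.sum_congr rfl fun t' _ => ?_
  refine Finset.sum_congr rfl fun c _ => ?_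
  ring

/-- Table of the diagonal transfer coefficients. -/
theorem coeff_diag_ff (s' t' : Bool) : qubitCoeff (gadMap γ ν) false false s' t' =
    if s' = t' then (if s' then ((γ * (1 - ν) : ℝ) : ℂ) else ((1 - γ * ν : ℝ) : ℂ)) else 0 := by
  cases s' <;> cases t' <;> simp [qubitCoeff, gadMap, Matrix.single_apply]

theorem coeff_diag_tt (s' t' : Bool) : qubitCoeff (gadMap γ ν) true true s' t' =
    if s' = t' then (if s' then ((1 - γ + γ * ν : ℝ) : ℂ) else ((γ * ν : ℝ) : ℂ)) else 0 := by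
  cases s' <;> cases t' <;> simp [qubitCoeff, gadMap, Matrix.single_apply]

end Gad

end Crest.Agent.Lib.GAD
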