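/-
Row 341 (S0534, S0535): the one-variable layer.  Wootters' function `wF C = h((1+√(1-C²))/2)` is
monotone and convex on `[0,1]`; `C(q) = 2√v(q)` is convex; hence the output entropy
`sG γ ν q = h((1+√(1-4v(q)))/2)` of the pure qubit state with population `q` is convex in `q`.
-/
import Crest.Prelude.Def_AmpDamp

set_option autoImplicit false
set_option linter.unusedSectionVars false
set_option linter.unusedVariables false

namespace Crest.Agent.Lib.GAD

open Real Set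

/-! ### Hyperbolic sine -/

/-- `sinh u / u` is nondecreasing, in product form. -/
theorem mul_sinh_le {u v : ℝ} (hu : 0 ≤ u) (huv : u ≤ v) : v * sinh u ≤ u * sinh v := by
  have hcont : Continuous sinh := continuous_sinh
  have hder : Differentiable ℝ sinh := differentiable_sinh
  have h1 : sinh u - sinh 0 ≤ cosh u * (u - 0) := by
    refine Convex.image_sub_le_mul_sub_of_deriv_le (convex_Icc 0 u) hcont.continuousOn
      hder.differentiableOn (fun x hx => ?_) 0 (left_mem_Icc.2 hu) u (right_mem_Icc.2 hu) hu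
    rw [interior_Icc] at hx
    rw [Real.deriv_sinh]
    exact cosh_le_cosh.2 (by rw [abs_of_pos hx.1, abs_of_nonneg hu]; exact hx.2.le)
  have h2 : cosh u * (v - u) ≤ sinh v - sinh u := by
    refine Convex.mul_sub_le_image_sub_of_le_deriv (convex_Icc u v) hcont.continuousOn
      hder.differentiableOn (fun x hx => ?_) u (left_mem_Icc.2 huv) v (right_mem_Icc.2 huv) huv
    rw [interior_Icc] at hx
    rw [Real.deriv_sinh]
    exact cosh_le_cosh.2 (by rw [abs_of_nonneg hu, abs_of_pos (lt_of_le_of_lt hu hx.1)]; exact hx.1.le)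
  simp only [sinh_zero, sub_zero] at h1
  nlinarith [mul_le_mul_of_nonneg_left h2 hu, mul_le_mul_of_nonneg_right h1 (sub_nonneg.2 huv)]

/-! ### Wootters' function -/

/-- `h((1+√(1-C²))/2)`. -/
noncomputable def wF (C : ℝ) : ℝ := binEntropy ((1 + √(1 - C ^ 2)) / 2)

theorem continuous_wF : Continuous wF := by
  unfold wF
  exact binEntropy_continuous.comp (by fun_prop)

section deriv

variable {C : ℝ} (h0 : 0 < C) (h1 : C < 1)
include h0 h1

theorem wF_hasDerivAt : HasDerivAt wF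
    (artanh (√(1 - C ^ 2)) / sinh (artanh (√(1 - C ^ 2)))) C := by
  set w := √(1 - C ^ 2) with hw
  have hC2 : 0 < 1 - C ^ 2 := by nlinarith
  have hw0 : 0 < w := Real.sqrt_pos.2 hC2
  have hw2 : w ^ 2 = 1 - C ^ 2 := Real.sq_sqrt hC2.le
  have hw1 : w < 1 := by nlinarith
  have hwd : HasDerivAt (fun x : ℝ => √(1 - x ^ 2)) (-(C / w)) C := by
    have h2 : HasDerivAt (fun x : ℝ => 1 - x ^ 2) (-(2 * C)) C := by
      simpa using ((hasDerivAt_id C).pow 2).const_sub 1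
    have := h2.sqrt hC2.ne'
    convert this using 1
    rw [← hw]
    field_simp
  set x := (1 + w) / 2 with hx
  have hx0 : x ≠ 0 := by rw [hx]; positivity
  have hx1 : x ≠ 1 := by rw [hx]; intro h; linarith
  have hxd : HasDerivAt (fun y : ℝ => (1 + √(1 - y ^ 2)) / 2) (-(C / w) / 2) C :=
    (hwd.const_add 1).div_const 2
  have hb := (hasDerivAt_binEntropy hx0 hx1).comp C hxd
  have hval : (Real.log (1 - x) - Real.log x) * (-(C / w) / 2) =
      artanh w / sinh (artanh w) := by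
    have hmem : w ∈ Ioo (-1 : ℝ) 1 := ⟨by linarith, hw1⟩
    have hs : sinh (artanh w) = w / C := by
      rw [sinh_artanh hmem, hw2, ]
      congr 1
      rw [show 1 - (1 - C ^ 2) = C ^ 2 by ring, Real.sqrt_sq h0.le]
    have hlog : artanh w = (Real.log x - Real.log (1 - x)) / 2 := by
      rw [artanh_eq_half_log ⟨by linarith, hw1.le⟩]
      have h3 : (1 + w) / (1 - w) = x / (1 - x) := by
        have h4 : 1 - x = (1 - w) / 2 := by rw [hx]; ring
        rw [h4, hx]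
        have : 1 - w ≠ 0 := by linarith
        field_simp
      rw [h3, Real.log_div hx0 (by rw [hx]; intro h; linarith)]
      ring
    rw [hs, hlog]
    field_simp
    ring
  have hb' : HasDerivAt wF ((Real.log (1 - x) - Real.log x) * (-(C / w) / 2)) C := hb
  rw [hval] at hb'
  exact hb'

theorem wF_deriv_nonneg : 0 ≤ artanh (√(1 - C ^ 2)) / sinh (artanh (√(1 - C ^ 2))) := by
  have hC2 : 0 < 1 - C ^ 2 := by nlinarith
  have hw0 : 0 ≤ √(1 - C ^ 2) := Real.sqrt_nonneg _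
  have hA := artanh_nonneg hw0
  exact div_nonneg hA (sinh_nonneg_iff.2 hA)

end deriv

theorem wF_differentiableOn : DifferentiableOn ℝ wF (Ioo 0 1) := fun C hC =>
  (wF_hasDerivAt hC.1 hC.2).differentiableAt.differentiableWithinAt

theorem monotoneOn_wF : MonotoneOn wF (Icc 0 1) := by
  refine monotoneOn_of_deriv_nonneg (convex_Icc 0 1) continuous_wF.continuousOn ?_ ?_
  · rw [interior_Icc]; exact wF_differentiableOn
  · intro C hC
    rw [interior_Icc] at hC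
    rw [(wF_hasDerivAt hC.1 hC.2).deriv]
    exact wF_deriv_nonneg hC.1 hC.2

theorem convexOn_wF : ConvexOn ℝ (Icc 0 1) wF := by
  refine MonotoneOn.convexOn_of_deriv (convex_Icc 0 1) continuous_wF.continuousOn ?_ ?_
  · rw [interior_Icc]; exact wF_differentiableOn
  · rw [interior_Icc]
    intro C₁ hC₁ C₂ hC₂ hle
    rw [(wF_hasDerivAt hC₁.1 hC₁.2).deriv, (wF_hasDerivAt hC₂.1 hC₂.2).deriv]
    have hs : ∀ C ∈ Ioo (0 : ℝ) 1, 0 < √(1 - C ^ 2) ∧ √(1 - C ^ 2) < 1 := by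
      intro C hC
      have h2 : 0 < 1 - C ^ 2 := by nlinarith [hC.1, hC.2]
      have h3 : 1 - C ^ 2 < 1 := by nlinarith [hC.1]
      refine ⟨Real.sqrt_pos.2 h2, ?_⟩
      rw [Real.sqrt_lt' one_pos]
      linarith
    obtain ⟨h10, h11⟩ := hs C₁ hC₁
    obtain ⟨h20, h21⟩ := hs C₂ hC₂
    have hw : √(1 - C₂ ^ 2) ≤ √(1 - C₁ ^ 2) := by
      apply Real.sqrt_le_sqrt
      nlinarith [hC₁.1, hC₂.1]
    have hu : artanh (√(1 - C₂ ^ 2)) ≤ artanh (√(1 - C₁ ^ 2)) :=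
      artanh_le_artanh (by linarith) h11 hw
    set u₁ := artanh (√(1 - C₁ ^ 2))
    set u₂ := artanh (√(1 - C₂ ^ 2))
    have hu₂ : 0 < u₂ := artanh_pos ⟨h20, h21⟩
    have hu₁ : 0 < u₁ := artanh_pos ⟨h10, h11⟩
    have hs₁ : 0 < sinh u₁ := sinh_pos_iff.2 hu₁
    have hs₂ : 0 < sinh u₂ := sinh_pos_iff.2 hu₂
    rw [div_le_div_iff₀ hs₁ hs₂]
    exact mul_sinh_le hu₂.le hu

/-! ### The function `v(q)` -/

/-- The determinant of the output for the pure state with population `q`. -/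
noncomputable def vG (γ ν q : ℝ) : ℝ := γ * ν * (1 - ν) + γ * (1 - γ) * (q - ν) ^ 2

/-- Output entropy of the pure state with population `q`. -/
noncomputable def sG (γ ν q : ℝ) : ℝ := binEntropy ((1 + √(1 - 4 * vG γ ν q)) / 2)

/-- `v` as the determinant. -/
theorem vG_eq (γ ν q : ℝ) : vG γ ν q =
    ((1 - γ) * q + γ * ν) * (1 - ((1 - γ) * q + γ * ν)) - (1 - γ) * (q * (1 - q)) := by
  unfold vG
  ring

variable {γ ν : ℝ}

theorem vG_nonneg (hγ : γ ∈ Icc (0 : ℝ) 1) (hν : ν ∈ Icc (0 : ℝ) 1) (q : ℝ) : 0 ≤ vG γ ν q := by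
  unfold vG
  have h1 : 0 ≤ γ * ν * (1 - ν) := mul_nonneg (mul_nonneg hγ.1 hν.1) (by linarith [hν.2])
  have h2 : 0 ≤ γ * (1 - γ) * (q - ν) ^ 2 :=
    mul_nonneg (mul_nonneg hγ.1 (by linarith [hγ.2])) (sq_nonneg _)
  linarith

theorem four_vG_le (hγ : γ ∈ Icc (0 : ℝ) 1) {q : ℝ} (hq : q ∈ Icc (0 : ℝ) 1) (ν : ℝ) :
    4 * vG γ ν q ≤ 1 := by
  rw [vG_eq]
  have h1 : 0 ≤ (1 - γ) * (q * (1 - q)) :=
    mul_nonneg (by linarith [hγ.2]) (mul_nonneg hq.1 (by linarith [hq.2]))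
  nlinarith [sq_nonneg (2 * ((1 - γ) * q + γ * ν) - 1)]

/-- `C(q) = 2√v(q)`. -/
noncomputable def cG (γ ν q : ℝ) : ℝ := 2 * √(vG γ ν q)

theorem cG_mem (hγ : γ ∈ Icc (0 : ℝ) 1) (hν : ν ∈ Icc (0 : ℝ) 1) {q : ℝ} (hq : q ∈ Icc (0 : ℝ) 1) :
    cG γ ν q ∈ Icc (0 : ℝ) 1 := by
  unfold cG
  refine ⟨by positivity, ?_⟩
  have h1 := four_vG_le hγ hq ν
  have h2 : √(vG γ ν q) ≤ 1 / 2 := by
    rw [Real.sqrt_le_iff]
    constructor
    · norm_num
    · linarith
  linarith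

theorem sG_eq_wF (hγ : γ ∈ Icc (0 : ℝ) 1) (hν : ν ∈ Icc (0 : ℝ) 1) (q : ℝ) :
    sG γ ν q = wF (cG γ ν q) := by
  unfold sG wF cG
  rw [mul_pow, Real.sq_sqrt (vG_nonneg hγ hν q)]
  norm_num

/-- Convexity of `√(a + b x²)`. -/
theorem sqrt_add_mul_sq_convex {a b : ℝ} (ha : 0 ≤ a) (hb : 0 ≤ b) (x y s t : ℝ) (hs : 0 ≤ s) (ht : 0 ≤ t)
    (hst : s + t = 1) :
    √(a + b * (s * x + t * y) ^ 2) ≤ s * √(a + b * x ^ 2) + t * √(a + b * y ^ 2) := by
  have hP0 : 0 ≤ a + b * x ^ 2 := by positivity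
  have hQ0 : 0 ≤ a + b * y ^ 2 := by positivity
  set P := √(a + b * x ^ 2) with hP
  set Q := √(a + b * y ^ 2) with hQ
  have hP2 : P ^ 2 = a + b * x ^ 2 := Real.sq_sqrt hP0
  have hQ2 : Q ^ 2 = a + b * y ^ 2 := Real.sq_sqrt hQ0
  have hPn : 0 ≤ P := Real.sqrt_nonneg _
  have hQn : 0 ≤ Q := Real.sqrt_nonneg _
  rw [Real.sqrt_le_iff]
  refine ⟨by positivity, ?_⟩
  have hCS : a + b * (x * y) ≤ P * Q := by
    have h1 : (a + b * (x * y)) ^ 2 ≤ (P * Q) ^ 2 := by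
      rw [mul_pow, hP2, hQ2]
      nlinarith [mul_nonneg ha hb, sq_nonneg (x - y)]
    exact (abs_le_of_sq_le_sq' h1 (by positivity)).2
  have e4 : s ^ 2 * a + t ^ 2 * a + 2 * (s * t) * a = a := by
    have h5 : (s + t) ^ 2 = 1 := by rw [hst]; ring
    nlinarith
  have h2 : 0 ≤ s * t := mul_nonneg hs ht
  have h3 := mul_le_mul_of_nonneg_left hCS (by positivity : 0 ≤ 2 * (s * t))
  have e2 : (s * P + t * Q) ^ 2 = s ^ 2 * P ^ 2 + t ^ 2 * Q ^ 2 + 2 * (s * t) * (P * Q) := by ring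
  rw [e2, hP2, hQ2]
  have e3 : a + b * (s * x + t * y) ^ 2 =
      s ^ 2 * (a + b * x ^ 2) + t ^ 2 * (a + b * y ^ 2) + 2 * (s * t) * (a + b * (x * y)) := by
    linear_combination -e4
  linarith

theorem cG_convex (hγ : γ ∈ Icc (0 : ℝ) 1) (hν : ν ∈ Icc (0 : ℝ) 1) (x y s t : ℝ) (hs : 0 ≤ s) (ht : 0 ≤ t)
    (hst : s + t = 1) : cG γ ν (s * x + t * y) ≤ s * cG γ ν x + t * cG γ ν y := by
  unfold cG vG
  have ha : 0 ≤ γ * ν * (1 - ν) := mul_nonneg (mul_nonneg hγ.1 hν.1) (by linarith [hν.2])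
  have hb : 0 ≤ γ * (1 - γ) := mul_nonneg hγ.1 (by linarith [hγ.2])
  have h := sqrt_add_mul_sq_convex ha hb (x - ν) (y - ν) s t hs ht hst
  have e : s * x + t * y - ν = s * (x - ν) + t * (y - ν) := by
    have : ν = (s + t) * ν := by rw [hst]; ring
    nlinarith
  rw [e]
  nlinarith

/-- **Convexity of the output entropy of pure states.** -/
theorem convexOn_sG (hγ : γ ∈ Icc (0 : ℝ) 1) (hν : ν ∈ Icc (0 : ℝ) 1) :
    ConvexOn ℝ (Icc 0 1) (sG γ ν) := by
  refine ⟨convex_Icc 0 1, fun x hx y hy s t hs ht hst => ?_⟩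
  have hxy : s • x + t • y ∈ Icc (0 : ℝ) 1 := convex_Icc 0 1 hx hy hs ht hst
  simp only [smul_eq_mul] at hxy ⊢
  rw [sG_eq_wF hγ hν, sG_eq_wF hγ hν, sG_eq_wF hγ hν]
  have h1 := cG_mem hγ hν hxy
  have h2 := cG_mem hγ hν hx
  have h3 := cG_mem hγ hν hy
  have h4 : s * cG γ ν x + t * cG γ ν y ∈ Icc (0 : ℝ) 1 := by
    have := convex_Icc (0 : ℝ) 1 h2 h3 hs ht hst
    simpa using this
  have h5 := monotoneOn_wF h1 h4 (cG_convex hγ hν x y s t hs ht hst)
  have h6 := convexOn_wF.2 h2 h3 hs ht hst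
  simp only [smul_eq_mul] at h6
  exact h5.trans h6

end Crest.Agent.Lib.GAD
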