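/-
Row 341 (S0534, S0535): explicit qubit states, their entropies and their images under `gadMap`.
-/
import Crest.Agent.Lib.GAD.Rate
import Crest.Agent.Lib.GAD.KeyDef

set_option autoImplicit false
set_option linter.unusedSectionVars false
set_option linter.unusedVariables false

namespace Crest.Agent.Lib.GAD

open Real Set Matrix Crest.Quantum Crest.MathPhysics.AmpDamp
open scoped ComplexConjugate ComplexOrder

/-- Determinant over `Bool`. -/
theorem det_bool (M : Matrix Bool Bool ℂ) :
    M.det = M false false * M true true - M false true * M true false := by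
  have h := Matrix.det_submatrix_equiv_self finTwoEquiv M
  rw [← h, Matrix.det_fin_two]
  simp [finTwoEquiv]

/-- Trace over `Bool`. -/
theorem trace_bool (M : Matrix Bool Bool ℂ) : M.trace = M false false + M true true := by
  simp [Matrix.trace]
  ring

/-- The entropy of a Hermitian `2 × 2` matrix of trace one. -/
theorem vnEntropy_bool {M : Matrix Bool Bool ℂ} (hM : M.IsHermitian) {v : ℝ} (htr : M.trace = 1)
    (hdet : M.det = (v : ℂ)) : vnEntropy M = binEntropy ((1 + √(1 - 4 * v)) / 2) := by
  unfold vnEntropy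
  rw [dif_pos hM, Fintype.sum_bool]
  set a := hM.eigenvalues true with ha
  set b := hM.eigenvalues false with hb
  have h1 : a + b = 1 := by
    have := hM.trace_eq_sum_eigenvalues
    rw [htr, Fintype.sum_bool] at this
    have h2 : ((a + b : ℝ) : ℂ) = 1 := by
      push_cast
      exact this.symm
    exact_mod_cast h2
  have h2 : a * b = v := by
    have := hM.det_eq_prod_eigenvalues
    rw [hdet, Fintype.prod_bool] at this
    have h3 : ((a * b : ℝ) : ℂ) = v := by
      push_cast
      exact this.symm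
    exact_mod_cast h3
  have hb' : b = 1 - a := by linarith
  have h3 : 1 - 4 * v = (a - b) ^ 2 := by
    rw [← h2]
    have : (a + b) ^ 2 = 1 := by rw [h1]; ring
    nlinarith
  rw [h3, Real.sqrt_sq_eq_abs]
  have h4 : -(a * Real.log a + b * Real.log b) = binEntropy a := by
    rw [binEntropy_eq_negMulLog_add_negMulLog_one_sub, hb']
    simp only [negMulLog]
    ring
  rw [h4]
  by_cases hab : b ≤ a
  · rw [abs_of_nonneg (by linarith)]
    congr 1
    linarith
  · rw [abs_of_neg (by linarith)]
    have : (1 + -(a - b)) / 2 = 1 - a := by linarith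
    rw [this, binEntropy_one_sub]

/-- The qubit state with excited population `q` and coherence `z`. -/
def qState (q : ℝ) (z : ℂ) : Matrix Bool Bool ℂ :=
  Matrix.of fun s t => match s, t with
    | false, false => ((1 - q : ℝ) : ℂ)
    | false, true => z
    | true, false => conj z
    | true, true => (q : ℂ)

@[simp] theorem qState_ff (q : ℝ) (z : ℂ) : qState q z false false = ((1 - q : ℝ) : ℂ) := rfl
@[simp] theorem qState_ft (q : ℝ) (z : ℂ) : qState q z false true = z := rfl
@[simp] theorem qState_tf (q : ℝ) (z : ℂ) : qState q z true false = conj z := rfl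
@[simp] theorem qState_tt (q : ℝ) (z : ℂ) : qState q z true true = (q : ℂ) := rfl

theorem qState_isHermitian (q : ℝ) (z : ℂ) : (qState q z).IsHermitian := by
  ext s t
  cases s <;> cases t <;> simp [Matrix.conjTranspose_apply]

theorem trace_qState (q : ℝ) (z : ℂ) : (qState q z).trace = 1 := by
  rw [trace_bool]
  simp

theorem det_qState (q : ℝ) (z : ℂ) :
    (qState q z).det = ((q * (1 - q) - Complex.normSq z : ℝ) : ℂ) := by
  rw [det_bool]
  simp only [qState_ff, qState_ft, qState_tf, qState_tt]
  rw [Complex.mul_conj]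
  push_cast
  ring

theorem vnEntropy_qState (q : ℝ) (z : ℂ) :
    vnEntropy (qState q z) = binEntropy ((1 + √(1 - 4 * (q * (1 - q) - Complex.normSq z))) / 2) :=
  vnEntropy_bool (qState_isHermitian q z) (trace_qState q z) (det_qState q z)

/-- Any Hermitian matrix of trace one over `Bool` is a `qState`. -/
theorem eq_qState {M : Matrix Bool Bool ℂ} (hM : M.IsHermitian) (htr : M.trace = 1) :
    M = qState (M true true).re (M false true) := by
  have h1 : star (M true true) = M true true := hM.apply true true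
  have h2 : star (M false false) = M false false := hM.apply false false
  have h3 : star (M false true) = M true false := hM.apply true false
  have him : (M true true).im = 0 := by
    have := congrArg Complex.im h1
    simp at this
    linarith
  have him0 : (M false false).im = 0 := by
    have := congrArg Complex.im h2
    simp at this
    linarith
  have hmain : M false false = 1 - M true true := by
    rw [trace_bool] at htr
    linear_combination htr
  ext s t
  cases s <;> cases t
  · simp only [qState_ff]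
    rw [hmain]
    apply Complex.ext <;> simp [him]
  · simp
  · simp only [qState_tf]
    rw [← h3]
    rfl
  · simp only [qState_tt]
    apply Complex.ext <;> simp [him]

/-- `qState` is a density matrix. -/
theorem qState_isDensity {q : ℝ} {z : ℂ} (hq : q ∈ Icc (0 : ℝ) 1)
    (hz : Complex.normSq z ≤ q * (1 - q)) : IsDensity (qState q z) := by
  refine ⟨.of_dotProduct_mulVec_nonneg (qState_isHermitian q z) fun x => ?_, trace_qState q z⟩
  set a := x false with ha
  set b := x true with hb
  set w := conj a * z * b with hw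
  have e : star x ⬝ᵥ (qState q z *ᵥ x) =
      (((1 - q) * Complex.normSq a + q * Complex.normSq b + 2 * w.re : ℝ) : ℂ) := by
    simp only [dotProduct, mulVec, Fintype.sum_bool, qState_ff, qState_ft, qState_tf, qState_tt,
      Pi.star_apply]
    rw [← ha, ← hb]
    apply Complex.ext
    · simp [hw, Complex.normSq_apply, Complex.mul_re, Complex.mul_im]
      ring
    · simp [hw, Complex.mul_re, Complex.mul_im]
      ring
  rw [e]
  have hA := Complex.normSq_nonneg a
  have hB := Complex.normSq_nonneg b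
  have hN := Complex.normSq_nonneg z
  have h1 : w.re ^ 2 ≤ Complex.normSq a * Complex.normSq z * Complex.normSq b := by
    have h2 := Complex.re_sq_le_normSq w
    rw [hw, Complex.normSq_mul, Complex.normSq_mul, Complex.normSq_conj] at h2
    nlinarith
  have h0 : 0 ≤ 1 - q := by linarith [hq.2]
  have h3 : 0 ≤ (1 - q) * Complex.normSq a + q * Complex.normSq b :=
    add_nonneg (mul_nonneg h0 hA) (mul_nonneg hq.1 hB)
  have h4 : (2 * w.re) ^ 2 ≤ ((1 - q) * Complex.normSq a + q * Complex.normSq b) ^ 2 := by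
    have h5 : Complex.normSq a * Complex.normSq z * Complex.normSq b ≤
        Complex.normSq a * (q * (1 - q)) * Complex.normSq b :=
      mul_le_mul_of_nonneg_right (mul_le_mul_of_nonneg_left hz hA) hB
    nlinarith [sq_nonneg ((1 - q) * Complex.normSq a - q * Complex.normSq b)]
  have h6 := (abs_le_of_sq_le_sq' h4 h3).1
  have h7 : 0 ≤ (1 - q) * Complex.normSq a + q * Complex.normSq b + 2 * w.re := by linarith
  exact_mod_cast h7

/-- Pure states: the coherence `σ √(q(1-q))`, `σ = ±1`. -/
noncomputable def pureState (q : ℝ) (σ : ℝ) : Matrix Bool Bool ℂ :=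
  qState q ((σ * √(q * (1 - q)) : ℝ) : ℂ)

theorem normSq_pure {q σ : ℝ} (hq : q ∈ Icc (0 : ℝ) 1) (hσ : σ ^ 2 = 1) :
    Complex.normSq ((σ * √(q * (1 - q)) : ℝ) : ℂ) = q * (1 - q) := by
  rw [Complex.normSq_ofReal, ← sq, mul_pow, hσ,
    Real.sq_sqrt (mul_nonneg hq.1 (by linarith [hq.2]))]
  ring

theorem pureState_isDensity {q σ : ℝ} (hq : q ∈ Icc (0 : ℝ) 1) (hσ : σ ^ 2 = 1) :
    IsDensity (pureState q σ) :=
  qState_isDensity hq (normSq_pure hq hσ).le

/-- The channel on a `qState`. -/
theorem gadMap_qState (γ ν q : ℝ) (z : ℂ) :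
    gadMap γ ν (qState q z) = qState ((1 - γ) * q + γ * ν) (((√(1 - γ) : ℝ) : ℂ) * z) := by
  ext s t
  cases s <;> cases t
  · simp only [gadMap, Matrix.of_apply, qState_ff, qState_tt]
    simp
    ring
  · simp [gadMap]
  · simp [gadMap]
  · simp only [gadMap, Matrix.of_apply, qState_ff, qState_tt]
    simp
    ring

variable {γ ν : ℝ}

theorem gadMap_qState_isDensity (hγ : γ ∈ Icc (0 : ℝ) 1) (hν : ν ∈ Icc (0 : ℝ) 1) {q : ℝ} {z : ℂ}
    (hq : q ∈ Icc (0 : ℝ) 1) (hz : Complex.normSq z ≤ q * (1 - q)) :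
    IsDensity (gadMap γ ν (qState q z)) := by
  rw [gadMap_qState]
  have h0 : 0 ≤ 1 - γ := by linarith [hγ.2]
  refine qState_isDensity ?_ ?_
  · constructor
    · exact add_nonneg (mul_nonneg h0 hq.1) (mul_nonneg hγ.1 hν.1)
    · nlinarith [hγ.1, hγ.2, hν.1, hν.2, hq.1, hq.2, mul_nonneg hγ.1 (sub_nonneg.2 hν.2),
        mul_nonneg h0 (sub_nonneg.2 hq.2)]
  · rw [Complex.normSq_mul, Complex.normSq_ofReal, ← sq, Real.sq_sqrt h0]
    have h1 : (1 - γ) * Complex.normSq z ≤ (1 - γ) * (q * (1 - q)) :=
      mul_le_mul_of_nonneg_left hz h0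
    have hv := vG_nonneg hγ hν q
    rw [vG_eq] at hv
    linarith

/-- The entropy of the channel output of a state. -/
theorem vnEntropy_gadMap_qState (hγ : γ ≤ 1) (q : ℝ) (z : ℂ) :
    vnEntropy (gadMap γ ν (qState q z)) = binEntropy ((1 + √(1 - 4 *
      (((1 - γ) * q + γ * ν) * (1 - ((1 - γ) * q + γ * ν)) - (1 - γ) * Complex.normSq z))) / 2) := by
  rw [gadMap_qState, vnEntropy_qState, Complex.normSq_mul, Complex.normSq_ofReal, ← sq,
    Real.sq_sqrt (by linarith)]

/-- The output entropy of a pure state. -/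
theorem vnEntropy_gadMap_pure (hγ : γ ≤ 1) {q : ℝ} {z : ℂ} (hz : Complex.normSq z = q * (1 - q)) :
    vnEntropy (gadMap γ ν (qState q z)) = sG γ ν q := by
  rw [vnEntropy_gadMap_qState hγ, hz, sG, vG_eq]

/-- The entropy of a diagonal state. -/
theorem vnEntropy_diag (q : ℝ) : vnEntropy (qState q 0) = binEntropy q := by
  rw [vnEntropy_qState]
  simp only [map_zero, sub_zero]
  have h1 : 1 - 4 * (q * (1 - q)) = (2 * q - 1) ^ 2 := by ring
  rw [h1, Real.sqrt_sq_eq_abs]
  by_cases h : 0 ≤ 2 * q - 1
  · rw [abs_of_nonneg h]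
    congr 1
    ring
  · rw [abs_of_neg (not_le.1 h)]
    have : (1 + -(2 * q - 1)) / 2 = 1 - q := by ring
    rw [this, binEntropy_one_sub]

/-- `binEntropy` through Wootters' function. -/
theorem binEntropy_eq_wF {q : ℝ} (hq : q ∈ Icc (0 : ℝ) 1) :
    binEntropy q = wF (2 * √(q * (1 - q))) := by
  have h1 : 0 ≤ q * (1 - q) := mul_nonneg hq.1 (by linarith [hq.2])
  rw [← vnEntropy_diag, vnEntropy_qState, wF, mul_pow, Real.sq_sqrt h1]
  simp only [map_zero, sub_zero]
  norm_num

/-- Pinching: the entropy of a state is at most the entropy of its diagonal. -/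
theorem vnEntropy_qState_le {q : ℝ} {z : ℂ} (hq : q ∈ Icc (0 : ℝ) 1)
    (hz : Complex.normSq z ≤ q * (1 - q)) : vnEntropy (qState q z) ≤ binEntropy q := by
  have h1 : 0 ≤ q * (1 - q) := mul_nonneg hq.1 (by linarith [hq.2])
  have h2 : 0 ≤ q * (1 - q) - Complex.normSq z := by linarith
  have h3 : q * (1 - q) ≤ 1 / 4 := by nlinarith [sq_nonneg (2 * q - 1)]
  have hN := Complex.normSq_nonneg z
  have hmem : ∀ x : ℝ, 0 ≤ x → x ≤ 1 / 4 → 2 * √x ∈ Icc (0 : ℝ) 1 := by
    intro x hx hx2
    refine ⟨by positivity, ?_⟩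
    have : √x ≤ 1 / 2 := by
      rw [Real.sqrt_le_iff]
      constructor
      · norm_num
      · linarith
    linarith
  have h4 : vnEntropy (qState q z) = wF (2 * √(q * (1 - q) - Complex.normSq z)) := by
    rw [vnEntropy_qState, wF, mul_pow, Real.sq_sqrt h2]
    norm_num
  rw [h4, binEntropy_eq_wF hq]
  refine monotoneOn_wF (hmem _ h2 (by linarith)) (hmem _ h1 h3) ?_
  have : √(q * (1 - q) - Complex.normSq z) ≤ √(q * (1 - q)) := Real.sqrt_le_sqrt (by linarith)
  linarith

/-- The rate function in terms of `sG`. -/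
theorem gadRate_eq (γ ν p : ℝ) : gadRate γ ν p = binEntropy ((1 - γ) * p + γ * ν) - sG γ ν p := rfl

/-- Any density matrix over `Bool`, as a `qState` with its bound. -/
theorem IsDensity.eq_qState {M : Matrix Bool Bool ℂ} (hM : IsDensity M) :
    ∃ (q : ℝ) (z : ℂ), q ∈ Icc (0 : ℝ) 1 ∧ Complex.normSq z ≤ q * (1 - q) ∧ M = qState q z := by
  have hH := hM.1.1
  have he := GAD.eq_qState hH hM.2
  refine ⟨(M true true).re, M false true, ?_, ?_, he⟩
  · set q := (M true true).re with hq
    have h1 : 0 ≤ M true true := hM.1.diag_nonneg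
    have h2 : 0 ≤ M false false := hM.1.diag_nonneg
    have h3 : M false false = ((1 - q : ℝ) : ℂ) := by
      rw [he]
      rfl
    constructor
    · exact (Complex.le_def.1 h1).1
    · have := (Complex.le_def.1 h2).1
      rw [h3] at this
      simp at this
      linarith
  · have hdet := hM.1.det_nonneg
    rw [he] at hdet
    rw [det_qState] at hdet
    have := Complex.zero_le_real.1 hdet
    set q := (M true true).re with hq
    linarith [this]

/-! ### Bridge to `KeyDef` -/

theorem sG_eq_gadG (γ ν q : ℝ) : sG γ ν q = Crest.Agent.GAD.gadG γ ν q := rfl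

theorem convexOn_gadG (hγ : γ ∈ Icc (0 : ℝ) 1) (hν : ν ∈ Icc (0 : ℝ) 1) :
    ConvexOn ℝ (Icc 0 1) (Crest.Agent.GAD.gadG γ ν) := convexOn_sG hγ hν

theorem gadRate_eq_gadG (γ ν p : ℝ) :
    gadRate γ ν p = binEntropy ((1 - γ) * p + γ * ν) - Crest.Agent.GAD.gadG γ ν p := rfl

/-- Output entropy of a pure state, as `gadG`. -/
theorem vnEntropy_gadMap_pureState (hγ : γ ≤ 1) {q σ : ℝ} (hq : q ∈ Icc (0 : ℝ) 1) (hσ : σ ^ 2 = 1) :
    vnEntropy (gadMap γ ν (pureState q σ)) = Crest.Agent.GAD.gadG γ ν q :=
  vnEntropy_gadMap_pure hγ (normSq_pure hq hσ)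

/-- Output entropy of a diagonal state. -/
theorem vnEntropy_gadMap_diag (hγ : γ ≤ 1) (q : ℝ) :
    vnEntropy (gadMap γ ν (qState q 0)) = binEntropy ((1 - γ) * q + γ * ν) := by
  rw [gadMap_qState, mul_zero, vnEntropy_diag]

/-- Pinching for channel outputs: a state with excited population `q`. -/
theorem vnEntropy_gadMap_le (hγ : γ ∈ Icc (0 : ℝ) 1) (hν : ν ∈ Icc (0 : ℝ) 1) {M : Matrix Bool Bool ℂ}
    (hM : IsDensity M) : vnEntropy (gadMap γ ν M) ≤ binEntropy ((1 - γ) * (M true true).re + γ * ν) := by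
  obtain ⟨q, z, hq, hz, rfl⟩ := IsDensity.eq_qState hM
  have h0 : 0 ≤ 1 - γ := by linarith [hγ.2]
  simp only [qState_tt, Complex.ofReal_re]
  rw [gadMap_qState]
  refine vnEntropy_qState_le ?_ ?_
  · constructor
    · exact add_nonneg (mul_nonneg h0 hq.1) (mul_nonneg hγ.1 hν.1)
    · nlinarith [hγ.1, hγ.2, hν.1, hν.2, hq.1, hq.2, mul_nonneg hγ.1 (sub_nonneg.2 hν.2),
        mul_nonneg h0 (sub_nonneg.2 hq.2)]
  · rw [Complex.normSq_mul, Complex.normSq_ofReal, ← sq, Real.sq_sqrt h0]
    have h1 : (1 - γ) * Complex.normSq z ≤ (1 - γ) * (q * (1 - q)) :=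
      mul_le_mul_of_nonneg_left hz h0
    have hv := vG_nonneg hγ hν q
    rw [vG_eq] at hv
    linarith

/-- The average of the two pure states with the given population is diagonal. -/
theorem pureState_avg (q : ℝ) :
    ((1 / 2 : ℝ) : ℂ) • pureState q 1 + ((1 / 2 : ℝ) : ℂ) • pureState q (-1) = qState q 0 := by
  ext s t
  cases s <;> cases t <;> simp [pureState] <;> ring

/-- Linearity of the channel on the pair. -/
theorem gadMap_pureState_avg (γ ν q : ℝ) :
    ((1 / 2 : ℝ) : ℂ) • gadMap γ ν (pureState q 1) + ((1 / 2 : ℝ) : ℂ) • gadMap γ ν (pureState q (-1)) =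
      gadMap γ ν (qState q 0) := by
  rw [pureState, pureState, gadMap_qState, gadMap_qState, gadMap_qState]
  ext s t
  cases s <;> cases t <;> simp <;> ring

/-- The Holevo information of the pair of pure states is the rate. -/
theorem holevoInfo_pair (hγ : γ ≤ 1) {q : ℝ} (hq : q ∈ Icc (0 : ℝ) 1) :
    holevoInfo (gadMap γ ν) (fun _ : Fin 2 => (1 / 2 : ℝ))
      (fun a : Fin 2 => pureState q (if a = 0 then 1 else -1)) = gadRate γ ν q := by
  unfold holevoInfo
  rw [Fin.sum_univ_two, Fin.sum_univ_two]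
  simp only [if_true, one_ne_zero, if_false, Fin.isValue]
  rw [gadMap_pureState_avg, vnEntropy_gadMap_diag hγ, vnEntropy_gadMap_pureState hγ hq (by norm_num),
    vnEntropy_gadMap_pureState hγ hq (by norm_num), gadRate_eq_gadG]
  ring

theorem isEnsemble_pair {q : ℝ} (hq : q ∈ Icc (0 : ℝ) 1) :
    IsEnsemble (fun _ : Fin 2 => (1 / 2 : ℝ))
      (fun a : Fin 2 => pureState q (if a = 0 then 1 else -1)) := by
  refine ⟨fun _ => by norm_num, by simp, fun a => pureState_isDensity hq ?_⟩
  split_ifs <;> norm_num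

end Crest.Agent.Lib.GAD
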