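/-
Row 341 (S0534, S0535): one-step reductions from the key inequality `GadKey`:
`GAD ⊗ Ψ` for a channel `Ψ`: ensembles (Holevo step and product step) and single states.
-/
import Crest.Agent.Lib.GAD.Qubit
import Crest.Agent.Lib.GAD.Kraus
import Crest.Agent.Lib.GAD.KeyDef

set_option autoImplicit false
set_option linter.unusedSectionVars false
set_option linter.unusedSimpArgs false

namespace Crest.Agent.Lib.GAD

open Matrix Real Finset
open scoped ComplexOrder Kronecker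
open Crest.Quantum Crest.MathPhysics.AmpDamp Crest.Agent.GAD

section Channel

variable {d e : Type*} [Fintype d] [Fintype e] [DecidableEq d] [DecidableEq e]

/-- Complete positivity with any finite ancilla. -/
theorem blockwise_posSemidef {Ψ : Matrix d d ℂ → Matrix e e ℂ} (hΨ : IsCompletelyPositive Ψ)
    {k : Type*} [Fintype k] [DecidableEq k] {M : Matrix (k × d) (k × d) ℂ} (hM : M.PosSemidef) :
    (blockwise Ψ M).PosSemidef := by
  let f : k ≃ Fin (Fintype.card k) := Fintype.equivFin k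
  let F : Fin (Fintype.card k) × d ≃ k × d := (f.symm).prodCongr (Equiv.refl d)
  let F' : k × e → Fin (Fintype.card k) × e := fun p => (f p.1, p.2)
  have h := hΨ (Fintype.card k) (M.submatrix F F) (hM.submatrix _)
  have h2 := h.submatrix F'
  convert h2 using 1
  ext p q
  simp only [blockwise, Matrix.of_apply, Matrix.submatrix_apply, F']
  congr 1
  ext i j
  simp [block, F, f]

theorem channel_posSemidef {Ψ : Matrix d d ℂ → Matrix e e ℂ} (hΨ : IsChannel Ψ)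
    {ρ : Matrix d d ℂ} (hρ : ρ.PosSemidef) : (Ψ ρ).PosSemidef := by
  let F : Unit × d → d := fun p => p.2
  have h := blockwise_posSemidef hΨ.2.1 (M := ρ.submatrix F F) (hρ.submatrix _)
  have h2 := h.submatrix (fun i : e => ((), i))
  have hb : block (ρ.submatrix F F) () () = ρ := by
    ext i j
    rfl
  convert h2 using 1
  ext i j
  simp only [blockwise, Matrix.of_apply, Matrix.submatrix_apply, hb]

theorem channel_density {Ψ : Matrix d d ℂ → Matrix e e ℂ} (hΨ : IsChannel Ψ)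
    {ρ : Matrix d d ℂ} (hρ : IsDensity ρ) : IsDensity (Ψ ρ) :=
  ⟨channel_posSemidef hΨ hρ.1, by rw [hΨ.2.2 ρ, hρ.2]⟩

theorem channel_zero {Ψ : Matrix d d ℂ → Matrix e e ℂ} (hΨ : IsChannel Ψ) : Ψ 0 = 0 :=
  hΨ.1.map_zero

theorem channel_smul {Ψ : Matrix d d ℂ → Matrix e e ℂ} (hΨ : IsChannel Ψ) (c : ℂ) (M : Matrix d d ℂ) :
    Ψ (c • M) = c • Ψ M := hΨ.1.map_smul c M

theorem channel_add {Ψ : Matrix d d ℂ → Matrix e e ℂ} (hΨ : IsChannel Ψ) (M N : Matrix d d ℂ) :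
    Ψ (M + N) = Ψ M + Ψ N := hΨ.1.map_add M N

end Channel

section Blocks

variable {d : Type*} [Fintype d] [DecidableEq d]

theorem block_eq_submatrix (ρ : Matrix (Bool × d) (Bool × d) ℂ) (s t : Bool) :
    block ρ s t = ρ.submatrix (fun i => (s, i)) (fun i => (t, i)) := rfl

theorem block_posSemidef {ρ : Matrix (Bool × d) (Bool × d) ℂ} (h : ρ.PosSemidef) (s : Bool) :
    (block ρ s s).PosSemidef := h.submatrix _

/-- The weight of a diagonal block. -/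
noncomputable def tw (ρ : Matrix (Bool × d) (Bool × d) ℂ) (s : Bool) : ℝ := (block ρ s s).trace.re

theorem tw_nonneg {ρ : Matrix (Bool × d) (Bool × d) ℂ} (h : ρ.PosSemidef) (s : Bool) : 0 ≤ tw ρ s :=
  (Complex.le_def.1 (block_posSemidef h s).trace_nonneg).1

theorem trace_block {ρ : Matrix (Bool × d) (Bool × d) ℂ} (h : ρ.PosSemidef) (s : Bool) :
    (block ρ s s).trace = (tw ρ s : ℂ) := by
  have := (Complex.le_def.1 (block_posSemidef h s).trace_nonneg).2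
  apply Complex.ext
  · simp [tw]
  · simpa using this.symm

theorem trace_eq_sum_block (ρ : Matrix (Bool × d) (Bool × d) ℂ) :
    ρ.trace = (block ρ false false).trace + (block ρ true true).trace := by
  simp only [Matrix.trace, Matrix.diag, block, Matrix.of_apply, Fintype.sum_prod_type, Fintype.sum_bool]
  ring

theorem tw_add {ρ : Matrix (Bool × d) (Bool × d) ℂ} (h : IsDensity ρ) : tw ρ false + tw ρ true = 1 := by
  have := trace_eq_sum_block ρ
  rw [h.2, trace_block h.1, trace_block h.1] at this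
  have h2 := congrArg Complex.re this
  simpa using h2.symm

theorem tw_false {ρ : Matrix (Bool × d) (Bool × d) ℂ} (h : IsDensity ρ) : tw ρ false = 1 - tw ρ true := by
  linarith [tw_add h]

theorem tw_le_one {ρ : Matrix (Bool × d) (Bool × d) ℂ} (h : IsDensity ρ) (s : Bool) : tw ρ s ≤ 1 := by
  have h1 := tw_add h
  have h2 := tw_nonneg h.1 false
  have h3 := tw_nonneg h.1 true
  cases s <;> linarith

theorem tw_mem {ρ : Matrix (Bool × d) (Bool × d) ℂ} (h : IsDensity ρ) (s : Bool) :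
    tw ρ s ∈ Set.Icc (0 : ℝ) 1 := ⟨tw_nonneg h.1 s, tw_le_one h s⟩

/-- The normalized block (a dummy at weight zero). -/
noncomputable def nbl (ρ : Matrix (Bool × d) (Bool × d) ℂ) (dm : Matrix d d ℂ) (s : Bool) : Matrix d d ℂ :=
  if tw ρ s = 0 then dm else ((tw ρ s)⁻¹ : ℂ) • block ρ s s

theorem nbl_density {ρ : Matrix (Bool × d) (Bool × d) ℂ} (h : IsDensity ρ) {dm : Matrix d d ℂ}
    (hdm : IsDensity dm) (s : Bool) : IsDensity (nbl ρ dm s) := by
  unfold nbl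
  split_ifs with h0
  · exact hdm
  · have hpos : 0 < tw ρ s := lt_of_le_of_ne (tw_nonneg h.1 s) (Ne.symm h0)
    constructor
    · have : (0 : ℝ) ≤ (tw ρ s)⁻¹ := inv_nonneg.mpr hpos.le
      have h2 : ((tw ρ s : ℂ))⁻¹ = (((tw ρ s)⁻¹ : ℝ) : ℂ) := by push_cast; rfl
      rw [h2]
      exact (block_posSemidef h.1 s).smul (by exact_mod_cast this)
    · rw [Matrix.trace_smul, trace_block h.1, smul_eq_mul]
      have : (tw ρ s : ℂ) ≠ 0 := by exact_mod_cast h0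
      field_simp

theorem smul_nbl {ρ : Matrix (Bool × d) (Bool × d) ℂ} (h : ρ.PosSemidef) (dm : Matrix d d ℂ) (s : Bool) :
    (tw ρ s : ℂ) • nbl ρ dm s = block ρ s s := by
  unfold nbl
  split_ifs with h0
  · have : (block ρ s s).trace = 0 := by rw [trace_block h, h0]; simp
    rw [(block_posSemidef h s).trace_eq_zero_iff.mp this, h0]
    simp
  · rw [smul_smul]
    have : (tw ρ s : ℂ) ≠ 0 := by exact_mod_cast h0
    rw [mul_inv_cancel₀ this, one_smul]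

end Blocks

section Tensor

variable {d e : Type*} [Fintype d] [Fintype e] [DecidableEq d] [DecidableEq e]
variable {γ ν : ℝ}

theorem block_blockwise (Ψ : Matrix d d ℂ → Matrix e e ℂ) (ρ : Matrix (Bool × d) (Bool × d) ℂ) (s t : Bool) :
    block (blockwise Ψ ρ) s t = Ψ (block ρ s t) := by
  ext i j
  rfl

theorem qubitTensor_id_blockwise (Φ : Matrix Bool Bool ℂ → Matrix Bool Bool ℂ)
    (Ψ : Matrix d d ℂ → Matrix e e ℂ) (ρ : Matrix (Bool × d) (Bool × d) ℂ) :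
    qubitTensor Φ (id : Matrix e e ℂ → Matrix e e ℂ) (blockwise Ψ ρ) = qubitTensor Φ Ψ ρ := by
  ext p q
  simp only [qubitTensor, Matrix.of_apply, id, block_blockwise]

theorem coeff_sum_diag (s' t' : Bool) :
    ∑ s, qubitCoeff (gadMap γ ν) s s s' t' = if s' = t' then 1 else 0 := by
  rw [Fintype.sum_bool, coeff_diag_tt, coeff_diag_ff]
  cases s' <;> cases t' <;> simp <;> push_cast <;> ring

/-- Trace out the channel output of the second factor of the tensor map. -/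
theorem ptraceL_qubitTensor (Ψ : Matrix d d ℂ → Matrix e e ℂ) (M : Matrix (Bool × d) (Bool × d) ℂ) :
    ptraceL (qubitTensor (gadMap γ ν) Ψ M) = Ψ (block M false false) + Ψ (block M true true) := by
  ext i j
  simp only [ptraceL, qubitTensor, Matrix.of_apply, Matrix.add_apply, Fintype.sum_bool, coeff_diag_tt,
    coeff_diag_ff]
  simp
  push_cast
  ring

theorem ptraceR_qubitTensor_tt {Ψ : Matrix d d ℂ → Matrix e e ℂ} (hΨ : IsTracePreserving Ψ)
    (M : Matrix (Bool × d) (Bool × d) ℂ) :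
    ptraceR (qubitTensor (gadMap γ ν) Ψ M) true true =
      ((γ * ν : ℝ) : ℂ) * (block M false false).trace +
        ((1 - γ + γ * ν : ℝ) : ℂ) * (block M true true).trace := by
  rw [← hΨ, ← hΨ]
  simp only [ptraceR, qubitTensor, Matrix.of_apply, Fintype.sum_bool, coeff_diag_tt, Matrix.trace,
    Matrix.diag]
  simp
  rw [Finset.mul_sum, Finset.mul_sum, ← Finset.sum_add_distrib]
  exact Finset.sum_congr rfl fun x _ => by ring

theorem ptraceR_qubitTensor_ff {Ψ : Matrix d d ℂ → Matrix e e ℂ} (hΨ : IsTracePreserving Ψ)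
    (M : Matrix (Bool × d) (Bool × d) ℂ) :
    ptraceR (qubitTensor (gadMap γ ν) Ψ M) false false =
      ((1 - γ * ν : ℝ) : ℂ) * (block M false false).trace +
        ((γ * (1 - ν) : ℝ) : ℂ) * (block M true true).trace := by
  rw [← hΨ, ← hΨ]
  simp only [ptraceR, qubitTensor, Matrix.of_apply, Fintype.sum_bool, coeff_diag_ff, Matrix.trace,
    Matrix.diag]
  simp
  rw [Finset.mul_sum, Finset.mul_sum, ← Finset.sum_add_distrib]
  exact Finset.sum_congr rfl fun x _ => by ring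

/-- The tensor map on a product. -/
theorem qubitTensor_kronecker (hγ : γ ∈ Set.Icc (0 : ℝ) 1) (hν : ν ∈ Set.Icc (0 : ℝ) 1)
    {Ψ : Matrix d d ℂ → Matrix e e ℂ} (hΨ : IsLinearMap ℂ Ψ) (A : Matrix Bool Bool ℂ) (B : Matrix d d ℂ) :
    qubitTensor (gadMap γ ν) Ψ (A ⊗ₖ B) = gadMap γ ν A ⊗ₖ Ψ B := by
  have hb : ∀ s t : Bool, block (A ⊗ₖ B) s t = A s t • B := by
    intro s t
    ext i j
    simp [block, kroneckerMap_apply]
  ext ⟨s, i⟩ ⟨t, j⟩
  simp only [qubitTensor, Matrix.of_apply, hb, hΨ.map_smul, kroneckerMap_apply,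
    gadMap_apply_coeff hγ hν A s t, Matrix.smul_apply, smul_eq_mul, Finset.sum_mul, mul_assoc]

/-- The per-state inequality for `GAD ⊗ Ψ`. -/
theorem state_bound_raw (hKey : GadKey) (hγ : γ ∈ Set.Icc (0 : ℝ) 1) (hν : ν ∈ Set.Icc (0 : ℝ) 1)
    {d e : Type} [Fintype d] [Fintype e] [DecidableEq d] [DecidableEq e]
    {Ψ : Matrix d d ℂ → Matrix e e ℂ} (hΨ : IsChannel Ψ)
    {ρ : Matrix (Bool × d) (Bool × d) ℂ} (hρ : IsDensity ρ) :
    gadG γ ν (tw ρ true) - binEntropy (tw ρ true) + vnEntropy (Ψ (block ρ false false)) +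
      vnEntropy (Ψ (block ρ true true)) ≤ vnEntropy (qubitTensor (gadMap γ ν) Ψ ρ) := by
  have hσ : IsDensity (blockwise Ψ ρ) := by
    refine ⟨blockwise_posSemidef hΨ.2.1 hρ.1, ?_⟩
    rw [trace_eq_sum_block, block_blockwise, block_blockwise, hΨ.2.2, hΨ.2.2, ← trace_eq_sum_block, hρ.2]
  have h := hKey γ ν hγ hν e (blockwise Ψ ρ) hσ
  rw [qubitTensor_id_blockwise, block_blockwise, block_blockwise, hΨ.2.2] at h
  exact h

/-- `GAD ⊗ id` preserves positivity. -/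
theorem qubitTensor_id_posSemidef (hγ : γ ∈ Set.Icc (0 : ℝ) 1) (hν : ν ∈ Set.Icc (0 : ℝ) 1)
    {σ : Matrix (Bool × e) (Bool × e) ℂ} (hσ : σ.PosSemidef) :
    (qubitTensor (gadMap γ ν) (id : Matrix e e ℂ → Matrix e e ℂ) σ).PosSemidef := by
  let sw : e × Bool → Bool × e := Prod.swap
  let sw' : Bool × e → e × Bool := Prod.swap
  have h := blockwise_posSemidef (gad_isChannel hγ hν).2.1 (M := σ.submatrix sw sw) (hσ.submatrix _)
  have h2 := h.submatrix sw'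
  convert h2 using 1
  ext ⟨s, i⟩ ⟨t, j⟩
  simp only [qubitTensor, Matrix.of_apply, id, blockwise, Matrix.submatrix_apply, sw', Prod.swap,
    gadMap_apply_coeff hγ hν _ s t]
  refine Finset.sum_congr rfl fun s' _ => Finset.sum_congr rfl fun t' _ => ?_
  rfl

theorem qubitTensor_density (hγ : γ ∈ Set.Icc (0 : ℝ) 1) (hν : ν ∈ Set.Icc (0 : ℝ) 1)
    {Ψ : Matrix d d ℂ → Matrix e e ℂ} (hΨ : IsChannel Ψ)
    {ρ : Matrix (Bool × d) (Bool × d) ℂ} (hρ : IsDensity ρ) :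
    IsDensity (qubitTensor (gadMap γ ν) Ψ ρ) := by
  constructor
  · rw [← qubitTensor_id_blockwise]
    exact qubitTensor_id_posSemidef hγ hν (blockwise_posSemidef hΨ.2.1 hρ.1)
  · rw [← trace_ptraceL, ptraceL_qubitTensor, Matrix.trace_add, hΨ.2.2, hΨ.2.2, ← trace_eq_sum_block, hρ.2]

/-- Normalized per-state inequality. -/
theorem state_bound (hKey : GadKey) (hγ : γ ∈ Set.Icc (0 : ℝ) 1) (hν : ν ∈ Set.Icc (0 : ℝ) 1)
    {d e : Type} [Fintype d] [Fintype e] [DecidableEq d] [DecidableEq e]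
    {Ψ : Matrix d d ℂ → Matrix e e ℂ} (hΨ : IsChannel Ψ)
    {ρ : Matrix (Bool × d) (Bool × d) ℂ} (hρ : IsDensity ρ) {dm : Matrix d d ℂ} (hdm : IsDensity dm) :
    gadG γ ν (tw ρ true) + (tw ρ false * vnEntropy (Ψ (nbl ρ dm false)) +
      tw ρ true * vnEntropy (Ψ (nbl ρ dm true))) ≤ vnEntropy (qubitTensor (gadMap γ ν) Ψ ρ) := by
  have h := state_bound_raw hKey hγ hν hΨ hρ
  have hs : ∀ s : Bool, vnEntropy (Ψ (block ρ s s)) =
      tw ρ s * vnEntropy (Ψ (nbl ρ dm s)) + negMulLog (tw ρ s) := by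
    intro s
    have hd := channel_density hΨ (nbl_density hρ hdm s)
    rw [← smul_nbl hρ.1 dm s, channel_smul hΨ, vnEntropy_smul hd.1.1, hd.2]
    simp
  rw [hs, hs, binEntropy_eq_negMulLog_add_negMulLog_one_sub, ← tw_false hρ] at h
  linarith

end Tensor

section Ensemble

variable {d e : Type*} [Fintype d] [Fintype e] [DecidableEq d] [DecidableEq e]

theorem exists_density [Nonempty d] : ∃ dm : Matrix d d ℂ, IsDensity dm := by
  classical
  obtain ⟨i₀⟩ := ‹Nonempty d›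
  refine ⟨Matrix.diagonal (Pi.single i₀ 1), ?_, ?_⟩
  · rw [Matrix.posSemidef_diagonal_iff]
    intro i
    by_cases h : i = i₀
    · subst h; simp
    · simp [Pi.single_eq_of_ne h]
  · simp [Matrix.trace_diagonal]

/-- An ensemble over any finite index set, as an ensemble over `Fin m`. -/
theorem exists_reindexed_ensemble {α : Type*} [Fintype α] {w : α → ℝ} {Q : α → Matrix d d ℂ}
    (hw0 : ∀ x, 0 ≤ w x) (hw1 : ∑ x, w x = 1) (hQ : ∀ x, IsDensity (Q x)) (Φ : Matrix d d ℂ → Matrix e e ℂ) :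
    ∃ (m : ℕ) (q : Fin m → ℝ) (ρ : Fin m → Matrix d d ℂ), IsEnsemble q ρ ∧ (∀ a, ∃ x, ρ a = Q x) ∧
      holevoInfo Φ q ρ = vnEntropy (∑ x, (w x : ℂ) • Φ (Q x)) - ∑ x, w x * vnEntropy (Φ (Q x)) := by
  let g := (Fintype.equivFin α).symm
  refine ⟨Fintype.card α, fun a => w (g a), fun a => Q (g a), ⟨fun a => hw0 _, ?_, fun a => hQ _⟩,
    fun a => ⟨g a, rfl⟩, ?_⟩
  · rw [Equiv.sum_comp g w]; exact hw1
  · unfold holevoInfo
    rw [Equiv.sum_comp g (fun x => (w x : ℂ) • Φ (Q x)), Equiv.sum_comp g (fun x => w x * vnEntropy (Φ (Q x)))]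

/-- An average of densities is a density. -/
theorem avg_density {α : Type*} [Fintype α] {w : α → ℝ} {R : α → Matrix d d ℂ}
    (hw0 : ∀ x, 0 ≤ w x) (hw1 : ∑ x, w x = 1) (hR : ∀ x, IsDensity (R x)) :
    IsDensity (∑ x, (w x : ℂ) • R x) := by
  constructor
  · refine posSemidef_sum _ fun x _ => (hR x).1.smul ?_
    exact_mod_cast hw0 x
  · rw [Matrix.trace_sum]
    simp only [Matrix.trace_smul, (hR _).2, smul_eq_mul, mul_one]
    exact_mod_cast hw1

theorem ptraceL_sum_smul {β₁ β₂ α : Type*} [Fintype β₁] [Fintype β₂] [Fintype α] (w : α → ℂ)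
    (R : α → Matrix (β₁ × β₂) (β₁ × β₂) ℂ) :
    ptraceL (∑ x, w x • R x) = ∑ x, w x • ptraceL (R x) := by
  ext i j
  simp only [ptraceL, Matrix.of_apply, Matrix.sum_apply, Matrix.smul_apply, smul_eq_mul, Finset.mul_sum]
  rw [Finset.sum_comm]

theorem ptraceR_sum_smul {β₁ β₂ α : Type*} [Fintype β₁] [Fintype β₂] [Fintype α] (w : α → ℂ)
    (R : α → Matrix (β₁ × β₂) (β₁ × β₂) ℂ) :
    ptraceR (∑ x, w x • R x) = ∑ x, w x • ptraceR (R x) := by
  ext i j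
  simp only [ptraceR, Matrix.of_apply, Matrix.sum_apply, Matrix.smul_apply, smul_eq_mul, Finset.mul_sum]
  rw [Finset.sum_comm]

end Ensemble


section Step

variable {d e : Type} [Fintype d] [Fintype e] [DecidableEq d] [DecidableEq e]
variable {γ ν : ℝ}

/-- The excited population of the output (partial trace of one state). -/
theorem re_ptraceR_tt {Ψ : Matrix d d ℂ → Matrix e e ℂ} (hΨ : IsTracePreserving Ψ)
    {ρ : Matrix (Bool × d) (Bool × d) ℂ} (hρ : IsDensity ρ) :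
    (ptraceR (qubitTensor (gadMap γ ν) Ψ ρ) true true).re = (1 - γ) * tw ρ true + γ * ν := by
  rw [ptraceR_qubitTensor_tt hΨ, trace_block hρ.1, trace_block hρ.1, tw_false hρ]
  simp only [Complex.add_re, Complex.mul_re, Complex.ofReal_re, Complex.ofReal_im, zero_mul, sub_zero]
  ring

/-- **The Holevo step**: `χ(GAD ⊗ Ψ) ≤ rate(p̄) + χ(Ψ)`. -/
theorem holevo_step (hKey : GadKey) (hγ : γ ∈ Set.Icc (0 : ℝ) 1) (hν : ν ∈ Set.Icc (0 : ℝ) 1) [Nonempty d]
    {Ψ : Matrix d d ℂ → Matrix e e ℂ} (hΨ : IsChannel Ψ) {m : ℕ} {q : Fin m → ℝ}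
    {ρ : Fin m → Matrix (Bool × d) (Bool × d) ℂ} (hE : IsEnsemble q ρ) :
    ∃ p ∈ Set.Icc (0 : ℝ) 1, ∃ (m₂ : ℕ) (q₂ : Fin m₂ → ℝ) (ρ₂ : Fin m₂ → Matrix d d ℂ), IsEnsemble q₂ ρ₂ ∧
      holevoInfo (qubitTensor (gadMap γ ν) Ψ) q ρ ≤ gadRate γ ν p + holevoInfo Ψ q₂ ρ₂ := by
  obtain ⟨hq0, hq1, hρ⟩ := hE
  obtain ⟨dm, hdm⟩ := exists_density (d := d)
  -- the populations
  set p : Fin m → ℝ := fun a => tw (ρ a) true with hp
  have hpm : ∀ a, p a ∈ Set.Icc (0 : ℝ) 1 := fun a => tw_mem (hρ a) true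
  set pb : ℝ := ∑ a, q a * p a with hpb
  have hpb0 : 0 ≤ pb := Finset.sum_nonneg fun a _ => mul_nonneg (hq0 a) (hpm a).1
  have hpb1 : pb ≤ 1 := by
    calc pb ≤ ∑ a, q a * 1 := Finset.sum_le_sum fun a _ =>
          mul_le_mul_of_nonneg_left (hpm a).2 (hq0 a)
      _ = 1 := by simpa using hq1
  -- the ensemble of the second factor
  let w : Fin m × Bool → ℝ := fun x => q x.1 * tw (ρ x.1) x.2
  let Q : Fin m × Bool → Matrix d d ℂ := fun x => nbl (ρ x.1) dm x.2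
  have hw0 : ∀ x, 0 ≤ w x := fun x => mul_nonneg (hq0 _) (tw_nonneg (hρ _).1 _)
  have hw1 : ∑ x, w x = 1 := by
    rw [Fintype.sum_prod_type]
    simp only [w, Fintype.sum_bool]
    have : ∀ a, q a * tw (ρ a) true + q a * tw (ρ a) false = q a := by
      intro a
      rw [← mul_add, add_comm, tw_add (hρ a), mul_one]
    simp only [this]
    exact hq1
  have hQ : ∀ x, IsDensity (Q x) := fun x => nbl_density (hρ _) hdm _
  obtain ⟨m₂, q₂, ρ₂, hE₂, -, hχ₂⟩ := exists_reindexed_ensemble hw0 hw1 hQ Ψ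
  refine ⟨pb, ⟨hpb0, hpb1⟩, m₂, q₂, ρ₂, hE₂, ?_⟩
  rw [hχ₂]
  -- the outputs
  set M : Fin m → Matrix (Bool × e) (Bool × e) ℂ := fun a => qubitTensor (gadMap γ ν) Ψ (ρ a) with hM
  have hMd : ∀ a, IsDensity (M a) := fun a => qubitTensor_density hγ hν hΨ (hρ a)
  have hMb : IsDensity (∑ a, (q a : ℂ) • M a) := avg_density hq0 hq1 hMd
  have hsub := vnEntropy_subadd hMb.1 hMb.2
  -- the average partial trace on the second factor
  have hL : ptraceL (∑ a, (q a : ℂ) • M a) = ∑ x, (w x : ℂ) • Ψ (Q x) := by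
    rw [ptraceL_sum_smul, Fintype.sum_prod_type]
    refine Finset.sum_congr rfl fun a _ => ?_
    simp only [hM, w, Q, Fintype.sum_bool]
    rw [ptraceL_qubitTensor]
    have hb : ∀ s, (tw (ρ a) s : ℂ) • Ψ (nbl (ρ a) dm s) = Ψ (block (ρ a) s s) := by
      intro s
      rw [← channel_smul hΨ, smul_nbl (hρ a).1]
    simp only [Complex.ofReal_mul, mul_smul, hb]
    rw [smul_add, add_comm]
  -- the average partial trace on the qubit
  have hRpsd := ptraceR_posSemidef hMb.1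
  have hRtt : (ptraceR (∑ a, (q a : ℂ) • M a) true true).re = (1 - γ) * pb + γ * ν := by
    rw [ptraceR_sum_smul]
    simp only [Matrix.sum_apply, Matrix.smul_apply, smul_eq_mul, Complex.re_sum, Complex.re_ofReal_mul]
    simp only [hM, re_ptraceR_tt hΨ.2.2 (hρ _)]
    rw [hpb, Finset.mul_sum]
    have : ∀ x, q x * ((1 - γ) * tw (ρ x) true + γ * ν) = (1 - γ) * (q x * p x) + q x * (γ * ν) := by
      intro x
      simp only [hp]
      ring
    simp only [this]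
    rw [Finset.sum_add_distrib, ← Finset.sum_mul, hq1, one_mul]
  have hRff : (ptraceR (∑ a, (q a : ℂ) • M a) false false).re = 1 - ((1 - γ) * pb + γ * ν) := by
    have h1 := trace_ptraceR (∑ a, (q a : ℂ) • M a)
    rw [hMb.2, trace_bool] at h1
    have h2 := congrArg Complex.re h1
    simp only [Complex.add_re, Complex.one_re] at h2
    linarith
  have hRle : vnEntropy (ptraceR (∑ a, (q a : ℂ) • M a)) ≤ binEntropy ((1 - γ) * pb + γ * ν) := by
    have h1 := vnEntropy_le_diag hRpsd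
    rw [Fintype.sum_bool, hRtt, hRff] at h1
    rw [binEntropy_eq_negMulLog_add_negMulLog_one_sub]
    exact h1
  have hstate : ∀ a, gadG γ ν (p a) + (tw (ρ a) false * vnEntropy (Ψ (nbl (ρ a) dm false)) +
      tw (ρ a) true * vnEntropy (Ψ (nbl (ρ a) dm true))) ≤ vnEntropy (M a) :=
    fun a => state_bound hKey hγ hν hΨ (hρ a) hdm
  have hsumw : ∑ x, w x * vnEntropy (Ψ (Q x)) = ∑ a, q a * (tw (ρ a) false * vnEntropy (Ψ (nbl (ρ a) dm false)) +
      tw (ρ a) true * vnEntropy (Ψ (nbl (ρ a) dm true))) := by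
    rw [Fintype.sum_prod_type]
    refine Finset.sum_congr rfl fun a _ => ?_
    simp only [w, Q, Fintype.sum_bool]
    ring
  have hconv : gadG γ ν pb ≤ ∑ a, q a * gadG γ ν (p a) := by
    have := (convexOn_gadG hγ hν).map_sum_le (t := Finset.univ) (w := q) (p := p)
      (fun a _ => hq0 a) hq1 (fun a _ => hpm a)
    simpa [hpb, smul_eq_mul] using this
  have hsum : ∑ a, q a * gadG γ ν (p a) + ∑ a, q a * (tw (ρ a) false * vnEntropy (Ψ (nbl (ρ a) dm false)) +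
      tw (ρ a) true * vnEntropy (Ψ (nbl (ρ a) dm true))) ≤ ∑ a, q a * vnEntropy (M a) := by
    rw [← Finset.sum_add_distrib]
    refine Finset.sum_le_sum fun a _ => ?_
    rw [← mul_add]
    exact mul_le_mul_of_nonneg_left (hstate a) (hq0 a)
  unfold holevoInfo
  rw [gadRate_eq_gadG, hsumw]
  rw [hL] at hsub
  have e1 : (fun a => (q a : ℂ) • qubitTensor (gadMap γ ν) Ψ (ρ a)) = fun a => (q a : ℂ) • M a := rfl
  linarith

end Step

section Product

variable {d e : Type*} [Fintype d] [Fintype e] [DecidableEq d] [DecidableEq e]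
variable {γ ν : ℝ}

theorem kronecker_density {A : Matrix Bool Bool ℂ} {B : Matrix d d ℂ} (hA : IsDensity A) (hB : IsDensity B) :
    IsDensity (A ⊗ₖ B) :=
  ⟨hA.1.kronecker hB.1, by rw [Matrix.trace_kronecker, hA.2, hB.2, one_mul]⟩

/-- Product ensembles: the Holevo informations add up. -/
theorem holevo_product (hγ : γ ∈ Set.Icc (0 : ℝ) 1) (hν : ν ∈ Set.Icc (0 : ℝ) 1)
    {Ψ : Matrix d d ℂ → Matrix e e ℂ} (hΨ : IsChannel Ψ)
    {m₁ : ℕ} {q₁ : Fin m₁ → ℝ} {ρ₁ : Fin m₁ → Matrix Bool Bool ℂ} (hE₁ : IsEnsemble q₁ ρ₁)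
    {m₂ : ℕ} {q₂ : Fin m₂ → ℝ} {ρ₂ : Fin m₂ → Matrix d d ℂ} (hE₂ : IsEnsemble q₂ ρ₂) :
    ∃ (m : ℕ) (q : Fin m → ℝ) (ρ : Fin m → Matrix (Bool × d) (Bool × d) ℂ), IsEnsemble q ρ ∧
      holevoInfo (gadMap γ ν) q₁ ρ₁ + holevoInfo Ψ q₂ ρ₂ = holevoInfo (qubitTensor (gadMap γ ν) Ψ) q ρ := by
  obtain ⟨h10, h11, h1ρ⟩ := hE₁
  obtain ⟨h20, h21, h2ρ⟩ := hE₂
  have hN := gad_isChannel hγ hν
  let w : Fin m₁ × Fin m₂ → ℝ := fun x => q₁ x.1 * q₂ x.2
  let Q : Fin m₁ × Fin m₂ → Matrix (Bool × d) (Bool × d) ℂ := fun x => ρ₁ x.1 ⊗ₖ ρ₂ x.2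
  have hw0 : ∀ x, 0 ≤ w x := fun x => mul_nonneg (h10 _) (h20 _)
  have hw1 : ∑ x, w x = 1 := by
    rw [Fintype.sum_prod_type]
    simp only [w, ← Finset.mul_sum, h21, mul_one, h11]
  have hQ : ∀ x, IsDensity (Q x) := fun x => kronecker_density (h1ρ _) (h2ρ _)
  obtain ⟨m, q, ρ, hE, -, hχ⟩ := exists_reindexed_ensemble hw0 hw1 hQ (qubitTensor (gadMap γ ν) Ψ)
  refine ⟨m, q, ρ, hE, ?_⟩
  rw [hχ]
  have hout : ∀ x, qubitTensor (gadMap γ ν) Ψ (Q x) = gadMap γ ν (ρ₁ x.1) ⊗ₖ Ψ (ρ₂ x.2) := fun x =>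
    qubitTensor_kronecker hγ hν hΨ.1 _ _
  simp only [hout]
  have hA := avg_density h10 h11 fun a => channel_density hN (h1ρ a)
  have hB := avg_density h20 h21 fun b => channel_density hΨ (h2ρ b)
  have havg : ∑ x, (w x : ℂ) • (gadMap γ ν (ρ₁ x.1) ⊗ₖ Ψ (ρ₂ x.2)) =
      (∑ a, (q₁ a : ℂ) • gadMap γ ν (ρ₁ a)) ⊗ₖ (∑ b, (q₂ b : ℂ) • Ψ (ρ₂ b)) := by
    ext ⟨s, i⟩ ⟨t, j⟩
    simp only [Matrix.sum_apply, Matrix.smul_apply, smul_eq_mul, kroneckerMap_apply, w]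
    rw [Finset.sum_mul_sum, Fintype.sum_prod_type]
    refine Finset.sum_congr rfl fun a _ => Finset.sum_congr rfl fun b _ => ?_
    push_cast
    ring
  rw [havg, vnEntropy_kronecker hA.1.1 hB.1.1 hA.2 hB.2]
  have hent : ∀ x : Fin m₁ × Fin m₂, vnEntropy (gadMap γ ν (ρ₁ x.1) ⊗ₖ Ψ (ρ₂ x.2)) =
      vnEntropy (gadMap γ ν (ρ₁ x.1)) + vnEntropy (Ψ (ρ₂ x.2)) := fun x =>
    vnEntropy_kronecker (channel_density hN (h1ρ _)).1.1 (channel_density hΨ (h2ρ _)).1.1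
      (channel_density hN (h1ρ _)).2 (channel_density hΨ (h2ρ _)).2
  simp only [hent]
  have hsum : ∑ x, w x * (vnEntropy (gadMap γ ν (ρ₁ x.1)) + vnEntropy (Ψ (ρ₂ x.2))) =
      ∑ a, q₁ a * vnEntropy (gadMap γ ν (ρ₁ a)) + ∑ b, q₂ b * vnEntropy (Ψ (ρ₂ b)) := by
    rw [Fintype.sum_prod_type]
    simp only [w]
    have : ∀ a, ∑ b, q₁ a * q₂ b * (vnEntropy (gadMap γ ν (ρ₁ a)) + vnEntropy (Ψ (ρ₂ b))) =
        q₁ a * vnEntropy (gadMap γ ν (ρ₁ a)) + q₁ a * ∑ b, q₂ b * vnEntropy (Ψ (ρ₂ b)) := by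
      intro a
      have h3 : ∀ b, q₁ a * q₂ b * (vnEntropy (gadMap γ ν (ρ₁ a)) + vnEntropy (Ψ (ρ₂ b))) =
          q₂ b * (q₁ a * vnEntropy (gadMap γ ν (ρ₁ a))) + q₁ a * (q₂ b * vnEntropy (Ψ (ρ₂ b))) := by
        intro b
        ring
      simp only [h3]
      rw [Finset.sum_add_distrib, ← Finset.sum_mul, h21, one_mul, ← Finset.mul_sum]
    simp only [this]
    rw [Finset.sum_add_distrib, ← Finset.sum_mul, h11, one_mul]
  rw [hsum]
  unfold holevoInfo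
  ring

/-- The output entropy of a product state. -/
theorem entropy_product (hγ : γ ∈ Set.Icc (0 : ℝ) 1) (hν : ν ∈ Set.Icc (0 : ℝ) 1)
    {Ψ : Matrix d d ℂ → Matrix e e ℂ} (hΨ : IsChannel Ψ) {ρ₁ : Matrix Bool Bool ℂ} {ρ₂ : Matrix d d ℂ}
    (h₁ : IsDensity ρ₁) (h₂ : IsDensity ρ₂) :
    vnEntropy (qubitTensor (gadMap γ ν) Ψ (ρ₁ ⊗ₖ ρ₂)) = vnEntropy (gadMap γ ν ρ₁) + vnEntropy (Ψ ρ₂) := by
  have hN := gad_isChannel hγ hν
  rw [qubitTensor_kronecker hγ hν hΨ.1]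
  exact vnEntropy_kronecker (channel_density hN h₁).1.1 (channel_density hΨ h₂).1.1
    (channel_density hN h₁).2 (channel_density hΨ h₂).2

end Product

section Final

variable {d e : Type} [Fintype d] [Fintype e] [DecidableEq d] [DecidableEq e]
variable {γ ν : ℝ}

/-- Minimum output entropy: each state of the product is beaten by a pair of states. -/
theorem moe_step (hKey : GadKey) (hγ : γ ∈ Set.Icc (0 : ℝ) 1) (hν : ν ∈ Set.Icc (0 : ℝ) 1) [Nonempty d]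
    {Ψ : Matrix d d ℂ → Matrix e e ℂ} (hΨ : IsChannel Ψ) {ρ : Matrix (Bool × d) (Bool × d) ℂ}
    (hρ : IsDensity ρ) :
    ∃ (ρ₁ : Matrix Bool Bool ℂ) (ρ₂ : Matrix d d ℂ), IsDensity ρ₁ ∧ IsDensity ρ₂ ∧
      vnEntropy (gadMap γ ν ρ₁) + vnEntropy (Ψ ρ₂) ≤ vnEntropy (qubitTensor (gadMap γ ν) Ψ ρ) := by
  obtain ⟨dm, hdm⟩ := exists_density (d := d)
  have hp := tw_mem hρ true
  have hb := state_bound hKey hγ hν hΨ hρ hdm
  have h1 : vnEntropy (gadMap γ ν (pureState (tw ρ true) 1)) = gadG γ ν (tw ρ true) :=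
    vnEntropy_gadMap_pureState hγ.2 hp (by norm_num)
  have hadd := tw_add hρ
  have h0f := tw_nonneg hρ.1 false
  have h0t := tw_nonneg hρ.1 true
  by_cases hle : vnEntropy (Ψ (nbl ρ dm false)) ≤ vnEntropy (Ψ (nbl ρ dm true))
  · refine ⟨pureState (tw ρ true) 1, nbl ρ dm false, pureState_isDensity hp (by norm_num),
      nbl_density hρ hdm false, ?_⟩
    rw [h1]
    have h2 := mul_le_mul_of_nonneg_left hle h0t
    have e1 : tw ρ false = 1 - tw ρ true := by linarith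
    rw [e1] at hb
    nlinarith
  · push Not at hle
    refine ⟨pureState (tw ρ true) 1, nbl ρ dm true, pureState_isDensity hp (by norm_num),
      nbl_density hρ hdm true, ?_⟩
    rw [h1]
    have h2 := mul_le_mul_of_nonneg_left hle.le h0f
    have e1 : tw ρ true = 1 - tw ρ false := by linarith
    have h3 : tw ρ false * vnEntropy (Ψ (nbl ρ dm false)) + tw ρ true * vnEntropy (Ψ (nbl ρ dm true)) ≥
        vnEntropy (Ψ (nbl ρ dm true)) := by
      rw [e1]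
      nlinarith
    linarith

/-- **S0535 from the key inequality.** -/
theorem s0535_of_key (hKey : GadKey) (γ ν : ℝ)
    (hγ : γ ∈ Set.Icc (0 : ℝ) 1) (hν : ν ∈ Set.Icc (0 : ℝ) 1)
    (d e : Type) [Fintype d] [Fintype e] [DecidableEq d] [DecidableEq e] [Nonempty d] [Nonempty e]
    (Ψ : Matrix d d ℂ → Matrix e e ℂ) (hΨ : IsChannel Ψ) :
    (∀ (m : ℕ) (q : Fin m → ℝ) (ρ : Fin m → Matrix (Bool × d) (Bool × d) ℂ), IsEnsemble q ρ →
      ∀ ε > (0 : ℝ), ∃ (m₁ : ℕ) (q₁ : Fin m₁ → ℝ) (ρ₁ : Fin m₁ → Matrix Bool Bool ℂ)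
        (m₂ : ℕ) (q₂ : Fin m₂ → ℝ) (ρ₂ : Fin m₂ → Matrix d d ℂ),
        IsEnsemble q₁ ρ₁ ∧ IsEnsemble q₂ ρ₂ ∧
          holevoInfo (qubitTensor (gadMap γ ν) Ψ) q ρ ≤
            holevoInfo (gadMap γ ν) q₁ ρ₁ + holevoInfo Ψ q₂ ρ₂ + ε) ∧
    (∀ (m₁ : ℕ) (q₁ : Fin m₁ → ℝ) (ρ₁ : Fin m₁ → Matrix Bool Bool ℂ)
      (m₂ : ℕ) (q₂ : Fin m₂ → ℝ) (ρ₂ : Fin m₂ → Matrix d d ℂ), IsEnsemble q₁ ρ₁ → IsEnsemble q₂ ρ₂ →
      ∃ (m : ℕ) (q : Fin m → ℝ) (ρ : Fin m → Matrix (Bool × d) (Bool × d) ℂ), IsEnsemble q ρ ∧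
        holevoInfo (gadMap γ ν) q₁ ρ₁ + holevoInfo Ψ q₂ ρ₂ ≤
          holevoInfo (qubitTensor (gadMap γ ν) Ψ) q ρ) ∧
    (∀ ρ : Matrix (Bool × d) (Bool × d) ℂ, IsDensity ρ → ∀ ε > (0 : ℝ),
      ∃ (ρ₁ : Matrix Bool Bool ℂ) (ρ₂ : Matrix d d ℂ), IsDensity ρ₁ ∧ IsDensity ρ₂ ∧
        vnEntropy (gadMap γ ν ρ₁) + vnEntropy (Ψ ρ₂) ≤ vnEntropy (qubitTensor (gadMap γ ν) Ψ ρ) + ε) ∧
    (∀ (ρ₁ : Matrix Bool Bool ℂ) (ρ₂ : Matrix d d ℂ), IsDensity ρ₁ → IsDensity ρ₂ →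
      ∃ ρ : Matrix (Bool × d) (Bool × d) ℂ, IsDensity ρ ∧
        vnEntropy (qubitTensor (gadMap γ ν) Ψ ρ) ≤ vnEntropy (gadMap γ ν ρ₁) + vnEntropy (Ψ ρ₂)) := by
  refine ⟨?_, ?_, ?_, ?_⟩
  · intro m q ρ hE ε hε
    obtain ⟨p, hp, m₂, q₂, ρ₂, hE₂, hχ⟩ := holevo_step hKey hγ hν hΨ hE
    refine ⟨2, _, _, m₂, q₂, ρ₂, isEnsemble_pair hp, hE₂, ?_⟩
    rw [holevoInfo_pair hγ.2 hp]
    linarith
  · intro m₁ q₁ ρ₁ m₂ q₂ ρ₂ hE₁ hE₂
    obtain ⟨m, q, ρ, hE, h⟩ := holevo_product hγ hν hΨ hE₁ hE₂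
    exact ⟨m, q, ρ, hE, h.le⟩
  · intro ρ hρ ε hε
    obtain ⟨ρ₁, ρ₂, h1, h2, h⟩ := moe_step hKey hγ hν hΨ hρ
    exact ⟨ρ₁, ρ₂, h1, h2, by linarith⟩
  · intro ρ₁ ρ₂ h1 h2
    exact ⟨ρ₁ ⊗ₖ ρ₂, kronecker_density h1 h2, (entropy_product hγ hν hΨ h1 h2).le⟩

end Final

end Crest.Agent.Lib.GAD
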