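/-
Row 341: the edge cases of the key inequality `GadKey`: `γ = 0`, `γ = 1`, `p = 0`, `p = 1`.
-/
import Crest.Agent.Lib.GAD.Step
import Crest.Agent.Lib.GAD.LogDet

set_option autoImplicit false
set_option linter.unusedSectionVars false
set_option linter.unusedSimpArgs false

namespace Crest.Agent.Lib.GAD

open Matrix Real Finset
open scoped ComplexOrder Kronecker
open Crest.Quantum Crest.MathPhysics.AmpDamp Crest.Agent.GAD

section General

variable {ι κ : Type*} [Fintype ι] [DecidableEq ι] [Fintype κ] [DecidableEq κ]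

theorem vnEntropy_zero : vnEntropy (0 : Matrix ι ι ℂ) = 0 := by
  have h := vnEntropy_diagonal (ι := ι) (fun _ => 0)
  simpa using h

/-- `a aᴴ` and `aᴴ a` have the same entropy: same nonzero eigenvalues. -/
theorem vnEntropy_mul_comm (a : Matrix ι κ ℂ) : vnEntropy (a * aᴴ) = vnEntropy (aᴴ * a) := by
  have h₁ : (a * aᴴ).IsHermitian := isHermitian_mul_conjTranspose_self a
  have h₂ : (aᴴ * a).IsHermitian := isHermitian_conjTranspose_mul_self a
  have hc := charpoly_mul_comm' a aᴴ
  have hne : ∀ (n : ℕ) (P : Polynomial ℂ), P.Monic → (Polynomial.X ^ n * P) ≠ 0 := fun n P hP =>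
    mul_ne_zero (pow_ne_zero _ Polynomial.X_ne_zero) hP.ne_zero
  have hr : ∀ (n : ℕ) (P : Polynomial ℂ), P.Monic → (Polynomial.X ^ n * P).roots = n • {0} + P.roots := by
    intro n P hP
    rw [Polynomial.roots_mul (hne n P hP), Polynomial.roots_pow, Polynomial.roots_X]
  have hroots := congrArg Polynomial.roots hc
  rw [hr _ _ (charpoly_monic _), hr _ _ (charpoly_monic _), h₁.roots_charpoly_eq_eigenvalues,
    h₂.roots_charpoly_eq_eigenvalues] at hroots
  have hsum := congrArg (fun s : Multiset ℂ => (s.map (fun z => negMulLog z.re)).sum) hroots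
  simp only [Multiset.map_add, Multiset.sum_add, Multiset.map_nsmul, Multiset.sum_nsmul, Multiset.map_singleton,
    Multiset.sum_singleton, Complex.zero_re, negMulLog_zero, smul_zero, zero_add, Multiset.map_map,
    Function.comp_def, Complex.ofReal_re] at hsum
  rw [vnEntropy_eq h₁, vnEntropy_eq h₂]
  exact hsum

/-- Concavity in the form of two unnormalized positive matrices. -/
theorem vnEntropy_add_ge {H₁ H₂ : Matrix ι ι ℂ} (h₁ : H₁.PosSemidef) (h₂ : H₂.PosSemidef)
    {t₁ t₂ : ℝ} (ht₁ : H₁.trace = t₁) (ht₂ : H₂.trace = t₂) (hs : t₁ + t₂ = 1) :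
    vnEntropy H₁ + vnEntropy H₂ - negMulLog t₁ - negMulLog t₂ ≤ vnEntropy (H₁ + H₂) := by
  have h10 : 0 ≤ t₁ := by
    have := h₁.trace_nonneg
    rw [ht₁] at this
    exact_mod_cast this
  have h20 : 0 ≤ t₂ := by
    have := h₂.trace_nonneg
    rw [ht₂] at this
    exact_mod_cast this
  rcases h10.eq_or_lt with h0 | hpos1
  · subst h0
    have hz : H₁ = 0 := h₁.trace_eq_zero_iff.mp (by rw [ht₁]; simp)
    have : t₂ = 1 := by linarith
    subst this
    rw [hz]
    simp [vnEntropy_zero]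
  rcases h20.eq_or_lt with h0 | hpos2
  · subst h0
    have hz : H₂ = 0 := h₂.trace_eq_zero_iff.mp (by rw [ht₂]; simp)
    have : t₁ = 1 := by linarith
    subst this
    rw [hz]
    simp [vnEntropy_zero]
  -- normalized matrices
  set R₁ : Matrix ι ι ℂ := ((t₁⁻¹ : ℝ) : ℂ) • H₁ with hR₁
  set R₂ : Matrix ι ι ℂ := ((t₂⁻¹ : ℝ) : ℂ) • H₂ with hR₂
  have hn1 : (t₁ : ℂ) ≠ 0 := by exact_mod_cast hpos1.ne'
  have hn2 : (t₂ : ℂ) ≠ 0 := by exact_mod_cast hpos2.ne'
  have e1 : (t₁ : ℂ) • R₁ = H₁ := by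
    rw [hR₁, smul_smul]; push_cast; rw [mul_inv_cancel₀ hn1, one_smul]
  have e2 : (t₂ : ℂ) • R₂ = H₂ := by
    rw [hR₂, smul_smul]; push_cast; rw [mul_inv_cancel₀ hn2, one_smul]
  have pR₁ : R₁.PosSemidef := h₁.smul (by exact_mod_cast (inv_nonneg.mpr h10))
  have pR₂ : R₂.PosSemidef := h₂.smul (by exact_mod_cast (inv_nonneg.mpr h20))
  have tr1 : R₁.trace = 1 := by
    rw [hR₁, Matrix.trace_smul, ht₁, smul_eq_mul]; push_cast; exact inv_mul_cancel₀ hn1
  have tr2 : R₂.trace = 1 := by
    rw [hR₂, Matrix.trace_smul, ht₂, smul_eq_mul]; push_cast; exact inv_mul_cancel₀ hn2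
  have hS1 : vnEntropy H₁ = t₁ * vnEntropy R₁ + negMulLog t₁ := by
    rw [← e1, vnEntropy_smul pR₁.1, tr1]; simp
  have hS2 : vnEntropy H₂ = t₂ * vnEntropy R₂ + negMulLog t₂ := by
    rw [← e2, vnEntropy_smul pR₂.1, tr2]; simp
  have hc := vnEntropy_concave (α := Bool) (fun s => if s then t₂ else t₁) (fun s => if s then R₂ else R₁)
    (by intro a; cases a <;> simp [h10, h20]) (by simp [Fintype.sum_bool]; linarith)
    (by intro a; cases a <;> simp [pR₁, pR₂])
    (by
      simp only [Fintype.sum_bool, if_true, Bool.false_eq_true, if_false]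
      rw [e2, e1]
      exact (h₂.add h₁).1)
  simp only [Fintype.sum_bool, if_true, Bool.false_eq_true, if_false] at hc
  rw [e2, e1, add_comm H₂ H₁] at hc
  rw [hS1, hS2]
  linarith

/-- A vanishing diagonal entry kills the column. -/
theorem posSemidef_col_zero {ρ : Matrix ι ι ℂ} (h : ρ.PosSemidef) {x : ι} (hx : ρ x x = 0) (y : ι) :
    ρ y x = 0 := by
  have h1 : star (Pi.single x (1 : ℂ)) ⬝ᵥ (ρ *ᵥ Pi.single x (1 : ℂ)) = 0 := by
    simp [hx]
  have h2 := (h.dotProduct_mulVec_zero_iff _).mp h1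
  have h3 := congrFun h2 y
  simpa using h3

theorem posSemidef_row_zero {ρ : Matrix ι ι ℂ} (h : ρ.PosSemidef) {x : ι} (hx : ρ x x = 0) (y : ι) :
    ρ x y = 0 := by
  have h1 := h.1.apply x y
  rw [posSemidef_col_zero h hx y] at h1
  simpa using h1.symm

end General

section Edge

variable {d : Type*} [Fintype d] [DecidableEq d] {γ ν : ℝ}

/-- The inequality of `GadKey` for one state. -/
def KeyAt (γ ν : ℝ) (ρ : Matrix (Bool × d) (Bool × d) ℂ) : Prop :=
  gadG γ ν (block ρ true true).trace.re - Real.binEntropy (block ρ true true).trace.re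
      + vnEntropy (block ρ false false) + vnEntropy (block ρ true true)
    ≤ vnEntropy (qubitTensor (gadMap γ ν) (id : Matrix d d ℂ → Matrix d d ℂ) ρ)

theorem isLinearMap_id' : IsLinearMap ℂ (id : Matrix d d ℂ → Matrix d d ℂ) :=
  ⟨fun _ _ => rfl, fun _ _ => rfl⟩

theorem block_density_of_tw {ρ : Matrix (Bool × d) (Bool × d) ℂ} (hρ : IsDensity ρ) {s : Bool}
    (h : tw ρ s = 1) : IsDensity (block ρ s s) :=
  ⟨block_posSemidef hρ.1 s, by rw [trace_block hρ.1, h]; simp⟩

theorem block_zero_of_tw {ρ : Matrix (Bool × d) (Bool × d) ℂ} (hρ : IsDensity ρ) {s : Bool}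
    (h : tw ρ s = 0) : block ρ s s = 0 :=
  (block_posSemidef hρ.1 s).trace_eq_zero_iff.mp (by rw [trace_block hρ.1, h]; simp)

theorem gadG_eq_diag (hγ : γ ∈ Set.Icc (0 : ℝ) 1) {q : ℝ} (hq : q * (1 - q) = 0) :
    gadG γ ν q = vnEntropy (gadMap γ ν (qState q 0)) := by
  rw [vnEntropy_gadMap_pure hγ.2 (by simpa using hq.symm)]
  rfl

/-- The case `p = 0`. -/
theorem keyAt_p_zero (hγ : γ ∈ Set.Icc (0 : ℝ) 1) (hν : ν ∈ Set.Icc (0 : ℝ) 1)
    {ρ : Matrix (Bool × d) (Bool × d) ℂ} (hρ : IsDensity ρ) (hq : tw ρ true = 0) : KeyAt γ ν ρ := by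
  have hC := block_zero_of_tw hρ hq
  have hA1 : tw ρ false = 1 := by linarith [tw_add hρ]
  have hA := block_density_of_tw hρ hA1
  have hdiag : ∀ i, ρ (true, i) (true, i) = 0 := fun i => congrFun (congrFun hC i) i
  have hρeq : ρ = qState 0 0 ⊗ₖ block ρ false false := by
    ext ⟨s, i⟩ ⟨t, j⟩
    cases s <;> cases t
    · simp [kroneckerMap_apply, block]
    · simp [kroneckerMap_apply, posSemidef_col_zero hρ.1 (hdiag j)]
    · simp [kroneckerMap_apply, posSemidef_row_zero hρ.1 (hdiag i)]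
    · have := congrFun (congrFun hC i) j
      simpa [kroneckerMap_apply, block] using this
  have hq0 : IsDensity (qState 0 0) := qState_isDensity (by simp) (by simp)
  have hN := channel_density (gad_isChannel hγ hν) hq0
  unfold KeyAt
  have e : (block ρ true true).trace.re = 0 := hq
  rw [e, hC, vnEntropy_zero, gadG_eq_diag hγ (by simp)]
  conv_rhs => rw [hρeq]
  rw [qubitTensor_kronecker hγ hν isLinearMap_id', id,
    vnEntropy_kronecker hN.1.1 hA.1.1 hN.2 hA.2]
  simp

/-- The case `p = 1`. -/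
theorem keyAt_p_one (hγ : γ ∈ Set.Icc (0 : ℝ) 1) (hν : ν ∈ Set.Icc (0 : ℝ) 1)
    {ρ : Matrix (Bool × d) (Bool × d) ℂ} (hρ : IsDensity ρ) (hq : tw ρ true = 1) : KeyAt γ ν ρ := by
  have hA0 : tw ρ false = 0 := by linarith [tw_add hρ]
  have hA := block_zero_of_tw hρ hA0
  have hC := block_density_of_tw hρ hq
  have hdiag : ∀ i, ρ (false, i) (false, i) = 0 := fun i => congrFun (congrFun hA i) i
  have hρeq : ρ = qState 1 0 ⊗ₖ block ρ true true := by
    ext ⟨s, i⟩ ⟨t, j⟩
    cases s <;> cases t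
    · have := congrFun (congrFun hA i) j
      simpa [kroneckerMap_apply, block] using this
    · simp [kroneckerMap_apply, posSemidef_row_zero hρ.1 (hdiag i)]
    · simp [kroneckerMap_apply, posSemidef_col_zero hρ.1 (hdiag j)]
    · simp [kroneckerMap_apply, block]
  have hq0 : IsDensity (qState 1 0) := qState_isDensity (by simp) (by simp)
  have hN := channel_density (gad_isChannel hγ hν) hq0
  unfold KeyAt
  have e : (block ρ true true).trace.re = 1 := hq
  rw [e, hA, vnEntropy_zero, gadG_eq_diag hγ (by simp)]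
  conv_rhs => rw [hρeq]
  rw [qubitTensor_kronecker hγ hν isLinearMap_id', id,
    vnEntropy_kronecker hN.1.1 hC.1.1 hN.2 hC.2]
  simp

/-- The case `γ = 1`: the replacer channel. -/
theorem keyAt_gamma_one (hν : ν ∈ Set.Icc (0 : ℝ) 1)
    {ρ : Matrix (Bool × d) (Bool × d) ℂ} (hρ : IsDensity ρ) : KeyAt 1 ν ρ := by
  have hrep : qubitTensor (gadMap 1 ν) (id : Matrix d d ℂ → Matrix d d ℂ) ρ =
      qState ν 0 ⊗ₖ (block ρ false false + block ρ true true) := by
    ext ⟨s, i⟩ ⟨t, j⟩
    cases s <;> cases t <;>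
      simp [qubitTensor, qubitCoeff, gadMap, Fintype.sum_bool, Matrix.single_apply, kroneckerMap_apply,
        block, Matrix.add_apply] <;> ring_nf
  have hq0 : IsDensity (qState ν 0) := qState_isDensity hν (by
    simpa using mul_nonneg hν.1 (by linarith [hν.2]))
  have hAC : IsDensity (block ρ false false + block ρ true true) :=
    ⟨(block_posSemidef hρ.1 _).add (block_posSemidef hρ.1 _), by
      rw [Matrix.trace_add, ← trace_eq_sum_block, hρ.2]⟩
  have hG : gadG 1 ν (block ρ true true).trace.re = binEntropy ν := by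
    have h1 := (vnEntropy_qState ν 0).symm.trans (vnEntropy_diag ν)
    unfold gadG gadV
    simp only [map_zero, sub_zero] at h1
    convert h1 using 3
    ring
  have hc := vnEntropy_add_ge (block_posSemidef hρ.1 false) (block_posSemidef hρ.1 true)
    (trace_block hρ.1 false) (trace_block hρ.1 true) (tw_add hρ)
  unfold KeyAt
  rw [hrep, hG, vnEntropy_kronecker hq0.1.1 hAC.1.1 hq0.2 hAC.2, vnEntropy_diag]
  have e : (block ρ true true).trace.re = tw ρ true := rfl
  have hbin : binEntropy (tw ρ true) = negMulLog (tw ρ true) + negMulLog (tw ρ false) := by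
    rw [binEntropy_eq_negMulLog_add_negMulLog_one_sub, tw_false hρ]
  rw [e, hbin]
  linarith

/-- The case `γ = 0`: the identity channel. -/
theorem keyAt_gamma_zero {ρ : Matrix (Bool × d) (Bool × d) ℂ} (hρ : IsDensity ρ) : KeyAt 0 ν ρ := by
  have hid : qubitTensor (gadMap 0 ν) (id : Matrix d d ℂ → Matrix d d ℂ) ρ = ρ := by
    ext ⟨s, i⟩ ⟨t, j⟩
    cases s <;> cases t <;>
      simp [qubitTensor, qubitCoeff, gadMap, Fintype.sum_bool, Matrix.single_apply, block]
  have hG : gadG 0 ν (block ρ true true).trace.re = 0 := by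
    unfold gadG gadV
    norm_num
  obtain ⟨B, hB⟩ := exists_sqrt hρ.1
  let a : Matrix d (Bool × d) ℂ := Matrix.of fun i z => star (B z (false, i))
  let b : Matrix d (Bool × d) ℂ := Matrix.of fun i z => star (B z (true, i))
  have hA : block ρ false false = a * aᴴ := by
    ext i j
    simp [block, hB, a, Matrix.mul_apply, conjTranspose_apply]
  have hC : block ρ true true = b * bᴴ := by
    ext i j
    simp [block, hB, b, Matrix.mul_apply, conjTranspose_apply]
  have hsum : aᴴ * a + bᴴ * b = B * Bᴴ := by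
    ext x y
    simp [a, b, Matrix.mul_apply, conjTranspose_apply, Matrix.add_apply, Fintype.sum_prod_type,
      Fintype.sum_bool]
    rw [add_comm]
  have hS : vnEntropy ρ = vnEntropy (aᴴ * a + bᴴ * b) := by
    rw [hsum, hB, vnEntropy_mul_comm B]
  have tA : (aᴴ * a).trace = (tw ρ false : ℂ) := by
    rw [Matrix.trace_mul_comm, ← hA, trace_block hρ.1]
  have tC : (bᴴ * b).trace = (tw ρ true : ℂ) := by
    rw [Matrix.trace_mul_comm, ← hC, trace_block hρ.1]
  have hc := vnEntropy_add_ge (posSemidef_conjTranspose_mul_self a) (posSemidef_conjTranspose_mul_self b)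
    tA tC (tw_add hρ)
  rw [← vnEntropy_mul_comm a, ← vnEntropy_mul_comm b, ← hA, ← hC, ← hS] at hc
  unfold KeyAt
  rw [hid, hG]
  have e : (block ρ true true).trace.re = tw ρ true := rfl
  have hbin : binEntropy (tw ρ true) = negMulLog (tw ρ true) + negMulLog (tw ρ false) := by
    rw [binEntropy_eq_negMulLog_add_negMulLog_one_sub, tw_false hρ]
  rw [e, hbin]
  linarith

end Edge

end Crest.Agent.Lib.GAD
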