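/-
Row 341 (S0534): the `n`-fold tensor power, by induction on `n` from the one-step results of `Step`.
-/
import Crest.Agent.Lib.GAD.Step

set_option autoImplicit false
set_option linter.unusedSectionVars false
set_option linter.unusedSimpArgs false

namespace Crest.Agent.Lib.GAD

open Matrix Real Finset
open scoped ComplexOrder Kronecker
open Crest.Quantum Crest.MathPhysics.AmpDamp Crest.Agent.GAD

/-- Split off the first qubit. -/
def consE (n : ℕ) : Bool × (Fin n → Bool) ≃ (Fin (n + 1) → Bool) := Fin.consEquiv (fun _ => Bool)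

@[simp] theorem consE_zero (n : ℕ) (b : Bool) (σ : Fin n → Bool) : consE n (b, σ) 0 = b := rfl
@[simp] theorem consE_succ (n : ℕ) (b : Bool) (σ : Fin n → Bool) (i : Fin n) :
    consE n (b, σ) i.succ = σ i := rfl

theorem qubitPower_succ (Φ : Matrix Bool Bool ℂ → Matrix Bool Bool ℂ) (n : ℕ)
    (M : Matrix (Fin (n + 1) → Bool) (Fin (n + 1) → Bool) ℂ) :
    (qubitPower (n + 1) Φ M).submatrix (consE n) (consE n) =
      qubitTensor Φ (qubitPower n Φ) (M.submatrix (consE n) (consE n)) := by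
  ext ⟨s, σ⟩ ⟨t, τ⟩
  simp only [Matrix.submatrix_apply, qubitPower, qubitTensor, Matrix.of_apply, block]
  rw [← Equiv.sum_comp (consE n), Fintype.sum_prod_type]
  simp only [← Equiv.sum_comp (consE n) (fun τ' : Fin (n + 1) → Bool => _), Fintype.sum_prod_type,
    Fin.prod_univ_succ, consE_zero, consE_succ, Finset.mul_sum]
  refine Finset.sum_congr rfl fun s' _ => ?_
  rw [Finset.sum_comm]
  refine Finset.sum_congr rfl fun t' _ => Finset.sum_congr rfl fun σ' _ =>
    Finset.sum_congr rfl fun τ' _ => ?_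
  ring

variable {γ ν : ℝ}

/-- Reindexing the Holevo information through the first qubit. -/
theorem holevo_succ (hγ : γ ∈ Set.Icc (0 : ℝ) 1) (hν : ν ∈ Set.Icc (0 : ℝ) 1) (n : ℕ) {m : ℕ} {q : Fin m → ℝ}
    {ρ : Fin m → Matrix (Fin (n + 1) → Bool) (Fin (n + 1) → Bool) ℂ} (hE : IsEnsemble q ρ) :
    holevoInfo (qubitPower (n + 1) (gadMap γ ν)) q ρ =
      holevoInfo (qubitTensor (gadMap γ ν) (qubitPower n (gadMap γ ν))) q
        (fun a => (ρ a).submatrix (consE n) (consE n)) := by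
  have hC := gadPower_isChannel hγ hν (n + 1)
  have hd : ∀ a, IsDensity (qubitPower (n + 1) (gadMap γ ν) (ρ a)) := fun a =>
    channel_density hC (hE.2.2 a)
  have hm := avg_density hE.1 hE.2.1 hd
  unfold holevoInfo
  simp only [← qubitPower_succ]
  have h1 : ∑ a, (q a : ℂ) • (qubitPower (n + 1) (gadMap γ ν) (ρ a)).submatrix (consE n) (consE n) =
      (∑ a, (q a : ℂ) • qubitPower (n + 1) (gadMap γ ν) (ρ a)).submatrix (consE n) (consE n) := by
    ext x y
    simp [Matrix.sum_apply, Matrix.smul_apply]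
  rw [h1, vnEntropy_submatrix hm.1.1]
  congr 1
  refine Finset.sum_congr rfl fun a _ => ?_
  rw [vnEntropy_submatrix (hd a).1.1]

theorem trace_submatrix_equiv {α β : Type*} [Fintype α] [Fintype β] (M : Matrix α α ℂ) (e : β ≃ α) :
    (M.submatrix e e).trace = M.trace := by
  simp only [Matrix.trace, Matrix.diag, Matrix.submatrix_apply]
  exact Equiv.sum_comp e (fun a => M a a)

theorem ensemble_submatrix {α β : Type*} [Fintype α] [Fintype β] {m : ℕ} {q : Fin m → ℝ}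
    {ρ : Fin m → Matrix α α ℂ} (e : β ≃ α) (hE : IsEnsemble q ρ) :
    IsEnsemble q (fun a => (ρ a).submatrix e e) := by
  refine ⟨hE.1, hE.2.1, fun a => ⟨(hE.2.2 a).1.submatrix _, ?_⟩⟩
  rw [trace_submatrix_equiv, (hE.2.2 a).2]

theorem vnEntropy_unique {ι : Type*} [Fintype ι] [DecidableEq ι] [Unique ι] {M : Matrix ι ι ℂ}
    (h : IsDensity M) : vnEntropy M = 0 := by
  obtain ⟨hp, ht⟩ := h
  have hH : M.IsHermitian := hp.1
  rw [vnEntropy_eq hH, Fintype.sum_unique]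
  have h1 := hH.trace_eq_sum_eigenvalues
  rw [ht, Fintype.sum_unique] at h1
  have h2 : hH.eigenvalues default = 1 := by
    have h3 := congrArg Complex.re h1
    simpa using h3.symm
  rw [h2]
  simp

/-- Holevo information of an empty register (`n = 0`): no information. -/
theorem holevo_zero (hγ : γ ∈ Set.Icc (0 : ℝ) 1) (hν : ν ∈ Set.Icc (0 : ℝ) 1) {m : ℕ} {q : Fin m → ℝ}
    {ρ : Fin m → Matrix (Fin 0 → Bool) (Fin 0 → Bool) ℂ}
    (hE : IsEnsemble q ρ) : holevoInfo (qubitPower 0 (gadMap γ ν)) q ρ = 0 := by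
  have hC := gadPower_isChannel hγ hν 0
  have hd : ∀ a, IsDensity (qubitPower 0 (gadMap γ ν) (ρ a)) := fun a => channel_density hC (hE.2.2 a)
  have hm := avg_density hE.1 hE.2.1 hd
  unfold holevoInfo
  rw [vnEntropy_unique hm]
  simp only [vnEntropy_unique (hd _)]
  simp

/-- **Upper bound of S0534**, by induction on `n`. -/
theorem s0534_upper (hKey : GadKey) (hγ : γ ∈ Set.Icc (0 : ℝ) 1) (hν : ν ∈ Set.Icc (0 : ℝ) 1) (n : ℕ) :
    ∀ (m : ℕ) (q : Fin m → ℝ) (ρ : Fin m → Matrix (Fin n → Bool) (Fin n → Bool) ℂ),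
      IsEnsemble q ρ → ∃ p ∈ Set.Icc (0 : ℝ) 1,
        holevoInfo (qubitPower n (gadMap γ ν)) q ρ ≤ n * gadRate γ ν p := by
  induction n with
  | zero =>
    intro m q ρ hE
    refine ⟨0, ⟨le_refl _, zero_le_one⟩, ?_⟩
    rw [holevo_zero hγ hν hE]
    simp
  | succ n ih =>
    intro m q ρ hE
    rw [holevo_succ hγ hν n hE]
    obtain ⟨p, hp, m₂, q₂, ρ₂, hE₂, hχ⟩ :=
      holevo_step hKey hγ hν (gadPower_isChannel hγ hν n) (ensemble_submatrix (consE n) hE)
    obtain ⟨p', hp', hle⟩ := ih m₂ q₂ ρ₂ hE₂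
    have hn : (0 : ℝ) ≤ n := Nat.cast_nonneg n
    push_cast
    by_cases hc : gadRate γ ν p ≤ gadRate γ ν p'
    · refine ⟨p', hp', ?_⟩
      linarith
    · refine ⟨p, hp, ?_⟩
      push Not at hc
      have := mul_le_mul_of_nonneg_left hc.le hn
      linarith

/-- **Lower bound of S0534**, by induction on `n`. -/
theorem s0534_lower (hγ : γ ∈ Set.Icc (0 : ℝ) 1) (hν : ν ∈ Set.Icc (0 : ℝ) 1) (n : ℕ)
    {p : ℝ} (hp : p ∈ Set.Icc (0 : ℝ) 1) :
    ∃ (m : ℕ) (q : Fin m → ℝ) (ρ : Fin m → Matrix (Fin n → Bool) (Fin n → Bool) ℂ),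
      IsEnsemble q ρ ∧ n * gadRate γ ν p ≤ holevoInfo (qubitPower n (gadMap γ ν)) q ρ := by
  induction n with
  | zero =>
    have hE : IsEnsemble (fun _ : Fin 1 => (1 : ℝ))
        (fun _ : Fin 1 => (1 : Matrix (Fin 0 → Bool) (Fin 0 → Bool) ℂ)) := by
      refine ⟨fun _ => zero_le_one, by simp, fun _ => ⟨PosSemidef.one, by simp⟩⟩
    refine ⟨1, _, _, hE, ?_⟩
    rw [holevo_zero hγ hν hE]
    simp
  | succ n ih =>
    obtain ⟨m₂, q₂, ρ₂, hE₂, hle⟩ := ih
    obtain ⟨m, q, ρ, hE, hχ⟩ :=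
      holevo_product hγ hν (gadPower_isChannel hγ hν n) (isEnsemble_pair hp) hE₂
    have hE' := ensemble_submatrix (consE n).symm hE
    refine ⟨m, q, _, hE', ?_⟩
    rw [holevo_succ hγ hν n hE']
    have e : (fun a => ((ρ a).submatrix (consE n).symm (consE n).symm).submatrix (consE n) (consE n)) = ρ := by
      funext a
      ext x y
      simp
    rw [e, ← hχ, holevoInfo_pair hγ.2 hp]
    push_cast
    linarith

/-- **S0534 from the key inequality.** -/
theorem s0534_of_key (hKey : GadKey) (γ ν : ℝ) (hγ : γ ∈ Set.Icc (0 : ℝ) 1)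
    (hν : ν ∈ Set.Icc (0 : ℝ) 1) (n : ℕ) :
    (∀ (m : ℕ) (q : Fin m → ℝ) (ρ : Fin m → Matrix (Fin n → Bool) (Fin n → Bool) ℂ),
        IsEnsemble q ρ → ∃ p ∈ Set.Icc (0 : ℝ) 1,
          holevoInfo (qubitPower n (gadMap γ ν)) q ρ ≤ n * gadRate γ ν p) ∧
    (∀ p ∈ Set.Icc (0 : ℝ) 1, ∃ (m : ℕ) (q : Fin m → ℝ)
        (ρ : Fin m → Matrix (Fin n → Bool) (Fin n → Bool) ℂ),
        IsEnsemble q ρ ∧ n * gadRate γ ν p ≤ holevoInfo (qubitPower n (gadMap γ ν)) q ρ) :=
  ⟨s0534_upper hKey hγ hν n, fun _ hp => s0534_lower hγ hν n hp⟩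

end Crest.Agent.Lib.GAD
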