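/-
Row 341 (S0534, S0535), the scalar layer of the key inequality: the function
`W(r) = u log(l₊ + r) + (1 - u) log(l₋ + r) - log(r + e)` (`layerW`), which is antitone, tends to `0`,
is `≥ 0` and integrable at `0`; the clipped function of `young_clip` is `W` in the parameter
`r = q / x - τ` (`clipW_eq`, `clipW_nonneg`, `layerW_le_clipW`); and all numerical hypotheses for the
actual parameters of the generalized amplitude-damping channel (`gadLp`, `gadLm`, ...).
-/
import Mathlib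
import Crest.Agent.Lib.GAD.KeyDef

set_option autoImplicit false
set_option linter.unusedSectionVars false

namespace Crest.Agent.Lib.GAD

open Real Set Filter Topology MeasureTheory
open Crest.Agent.GAD

/-- The layer function. -/
noncomputable def layerW (u lp lm e r : ℝ) : ℝ :=
  u * log (lp + r) + (1 - u) * log (lm + r) - log (r + e)

/-- The numerical hypotheses on the layer function. -/
structure LayerData (u lp lm e τ : ℝ) : Prop where
  hu0 : 0 ≤ u
  hu1 : u ≤ 1
  hlp : 0 < lp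
  hlm : 0 < lm
  he : 0 ≤ e
  hτ : τ = u * lp + (1 - u) * lm
  heτ : e ≤ τ
  hkey : (lp + lm - τ) * e ≤ lp * lm

section layer

variable {u lp lm e τ : ℝ}

lemma layerW_hasDerivAt (d : LayerData u lp lm e τ) {r : ℝ} (hr : 0 < r) (he' : 0 < r + e) :
    HasDerivAt (layerW u lp lm e) (u / (lp + r) + (1 - u) / (lm + r) - 1 / (r + e)) r := by
  have hlp := d.hlp
  have hlm := d.hlm
  have h1 : HasDerivAt (fun r => log (lp + r)) (1 / (lp + r)) r := by
    have := ((hasDerivAt_id r).const_add lp).log (by simp only [id]; positivity)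
    simpa using this
  have h2 : HasDerivAt (fun r => log (lm + r)) (1 / (lm + r)) r := by
    have := ((hasDerivAt_id r).const_add lm).log (by simp only [id]; positivity)
    simpa using this
  have h3 : HasDerivAt (fun r => log (r + e)) (1 / (r + e)) r := by
    have := ((hasDerivAt_id r).add_const e).log (by simp only [id]; positivity)
    simpa using this
  have := ((h1.const_mul u).add (h2.const_mul (1 - u))).sub h3
  exact this.congr_deriv (by ring)

lemma layerW_deriv_nonpos (d : LayerData u lp lm e τ) {r : ℝ} (hr : 0 < r) (he' : 0 < r + e) :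
    u / (lp + r) + (1 - u) / (lm + r) - 1 / (r + e) ≤ 0 := by
  have hlp := d.hlp
  have hlm := d.hlm
  have hτ := d.hτ
  have h1 : 0 < lp + r := by linarith
  have h2 : 0 < lm + r := by linarith
  have hk := d.hkey
  have he := d.heτ
  have hsum : u / (lp + r) + (1 - u) / (lm + r) =
      (r + (lp + lm - τ)) / ((lp + r) * (lm + r)) := by
    rw [hτ]
    field_simp
    ring
  rw [hsum, sub_nonpos, div_le_div_iff₀ (by positivity) he', one_mul]
  nlinarith [mul_nonneg hr.le (sub_nonneg.2 he)]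

theorem antitoneOn_layerW (d : LayerData u lp lm e τ) : AntitoneOn (layerW u lp lm e) (Ioi 0) := by
  have he := d.he
  have hd : ∀ r ∈ Ioi (0 : ℝ), HasDerivAt (layerW u lp lm e)
      (u / (lp + r) + (1 - u) / (lm + r) - 1 / (r + e)) r := fun r hr =>
    layerW_hasDerivAt d hr (by have := mem_Ioi.1 hr; linarith)
  refine antitoneOn_of_deriv_nonpos (convex_Ioi 0) ?_ ?_ ?_
  · exact fun r hr => (hd r hr).continuousAt.continuousWithinAt
  · rw [interior_Ioi]
    exact fun r hr => (hd r hr).differentiableAt.differentiableWithinAt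
  · rw [interior_Ioi]
    intro r hr
    rw [(hd r hr).deriv]
    exact layerW_deriv_nonpos d hr (by have := mem_Ioi.1 hr; linarith)

theorem antitoneOn_layerW_Ici (d : LayerData u lp lm e τ) (he0 : 0 < e) :
    AntitoneOn (layerW u lp lm e) (Ici 0) := by
  have hd : ∀ r ∈ Ioi (0 : ℝ), HasDerivAt (layerW u lp lm e)
      (u / (lp + r) + (1 - u) / (lm + r) - 1 / (r + e)) r := fun r hr =>
    layerW_hasDerivAt d hr (by have := mem_Ioi.1 hr; linarith)
  have hlp := d.hlp
  have hlm := d.hlm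
  refine antitoneOn_of_deriv_nonpos (convex_Ici 0) ?_ ?_ ?_
  · intro r hr
    have hr' : (0 : ℝ) ≤ r := hr
    have h1 : ContinuousAt (layerW u lp lm e) r := by
      unfold layerW
      refine ContinuousAt.sub (ContinuousAt.add ?_ ?_) ?_
      · exact continuousAt_const.mul
          (continuousAt_log (by positivity) |>.comp (continuousAt_const.add continuousAt_id))
      · exact continuousAt_const.mul
          (continuousAt_log (by positivity) |>.comp (continuousAt_const.add continuousAt_id))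
      · exact (continuousAt_log (by positivity)).comp (continuousAt_id.add continuousAt_const)
    exact h1.continuousWithinAt
  · rw [interior_Ici]
    exact fun r hr => (hd r hr).differentiableAt.differentiableWithinAt
  · rw [interior_Ici]
    intro r hr
    rw [(hd r hr).deriv]
    exact layerW_deriv_nonpos d hr (by have := mem_Ioi.1 hr; linarith)

lemma tendsto_log_sub (a e : ℝ) :
    Tendsto (fun r : ℝ => log (a + r) - log (r + e)) atTop (𝓝 0) := by
  have h1 : Tendsto (fun r : ℝ => 1 + (a - e) / (r + e)) atTop (𝓝 (1 + 0)) :=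
    tendsto_const_nhds.add
      (Tendsto.const_div_atTop (tendsto_atTop_add_const_right _ _ tendsto_id) _)
  rw [add_zero] at h1
  have h2 := h1.log (by norm_num)
  rw [log_one] at h2
  refine h2.congr' ?_
  filter_upwards [eventually_gt_atTop (max (-a) (-e))] with r hr
  have hr1 : 0 < a + r := by have := lt_of_le_of_lt (le_max_left _ _) hr; linarith
  have hr2 : 0 < r + e := by have := lt_of_le_of_lt (le_max_right _ _) hr; linarith
  rw [← log_div hr1.ne' hr2.ne']
  congr 1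
  field_simp
  ring

theorem tendsto_layerW (u lp lm e : ℝ) : Tendsto (layerW u lp lm e) atTop (𝓝 0) := by
  have h := ((tendsto_log_sub lp e).const_mul u).add ((tendsto_log_sub lm e).const_mul (1 - u))
  rw [mul_zero, mul_zero, add_zero] at h
  refine h.congr fun r => ?_
  unfold layerW
  ring

theorem layerW_nonneg (d : LayerData u lp lm e τ) {r : ℝ} (hr : 0 < r) :
    0 ≤ layerW u lp lm e r := by
  refine le_of_tendsto (tendsto_layerW u lp lm e) ?_
  filter_upwards [eventually_ge_atTop r] with r' hr'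
  exact antitoneOn_layerW d (mem_Ioi.2 hr) (mem_Ioi.2 (lt_of_lt_of_le hr hr')) hr'

theorem layerW_zero_nonneg (d : LayerData u lp lm e τ) (he0 : 0 < e) :
    0 ≤ layerW u lp lm e 0 := by
  refine le_of_tendsto (tendsto_layerW u lp lm e) ?_
  filter_upwards [eventually_ge_atTop 0] with r' hr'
  exact antitoneOn_layerW_Ici d he0 (mem_Ici.2 le_rfl) (mem_Ici.2 hr') hr'

theorem intervalIntegrable_layerW (d : LayerData u lp lm e τ) {R : ℝ} (hR : 0 < R) :
    IntervalIntegrable (layerW u lp lm e) volume 0 R := by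
  have hlp := d.hlp
  have hlm := d.hlm
  have h1 : IntervalIntegrable (fun r => log (lp + r)) volume 0 R := by
    refine ContinuousOn.intervalIntegrable ?_
    rw [uIcc_of_le hR.le]
    intro r hr
    have hr0 : lp + r ≠ 0 := by have := hr.1; linarith
    exact ((continuousAt_log hr0).comp
      (continuousAt_const.add continuousAt_id)).continuousWithinAt
  have h2 : IntervalIntegrable (fun r => log (lm + r)) volume 0 R := by
    refine ContinuousOn.intervalIntegrable ?_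
    rw [uIcc_of_le hR.le]
    intro r hr
    have hr0 : lm + r ≠ 0 := by have := hr.1; linarith
    exact ((continuousAt_log hr0).comp
      (continuousAt_const.add continuousAt_id)).continuousWithinAt
  have h3 : IntervalIntegrable (fun r => log (r + e)) volume 0 R := by
    have := (intervalIntegral.intervalIntegrable_log' (a := 0 + e) (b := R + e)).comp_add_right e
    simpa using this
  exact ((h1.const_mul u).add (h2.const_mul (1 - u))).sub h3

end layer

section clip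

/-- The clipped function of `young_clip`, one side: `x# = min x x0`. -/
noncomputable def clipW (u a0 a1 α x0 x : ℝ) : ℝ :=
  u * log (1 + a0 * min x x0) + (1 - u) * log (1 - a1 * min x x0) - log (1 - α * min x x0)

variable {u lp lm e τ q a0 a1 α : ℝ}

/-- The clipped function in the parameter `ρ = q / x - τ`. -/
theorem clipW_eq (d : LayerData u lp lm e τ) (hq : 0 < q) (hτ0 : 0 < τ) (ha0 : τ + a0 * q = lp)
    (ha1 : τ - a1 * q = lm) (hα : τ - α * q = e) {x : ℝ} (hx : 0 < x) (hxle : x ≤ q / τ)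
    (hρ : 0 < q / x - τ + e) :
    u * log (1 + a0 * x) + (1 - u) * log (1 - a1 * x) - log (1 - α * x) =
      layerW u lp lm e (q / x - τ) := by
  have hlp := d.hlp
  have hlm := d.hlm
  set ρ := q / x - τ with hρdef
  have hρ0 : 0 ≤ ρ := by
    rw [hρdef, sub_nonneg, le_div_iff₀ hx]
    rwa [le_div_iff₀ hτ0, mul_comm] at hxle
  have hτρ : τ + ρ = q / x := by rw [hρdef]; ring
  have hτρ0 : 0 < τ + ρ := by linarith
  have hxq : x = q / (τ + ρ) := by rw [hτρ]; field_simp
  have h1 : 1 + a0 * x = (lp + ρ) / (τ + ρ) := by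
    rw [hxq, ← ha0]; field_simp; ring
  have h2 : 1 - a1 * x = (lm + ρ) / (τ + ρ) := by
    rw [hxq, ← ha1]; field_simp; ring
  have h3 : 1 - α * x = (ρ + e) / (τ + ρ) := by
    rw [hxq, ← hα]; field_simp; ring
  rw [h1, h2, h3, log_div (by positivity) hτρ0.ne', log_div (by positivity) hτρ0.ne',
    log_div hρ.ne' hτρ0.ne']
  unfold layerW
  ring

/-- `hw0` of `side_lower`. -/
theorem clipW_nonneg (d : LayerData u lp lm e τ) (hq : 0 < q) (hτ0 : 0 < τ) (ha0 : τ + a0 * q = lp)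
    (ha1 : τ - a1 * q = lm) (hα : τ - α * q = e) {x : ℝ} (hx : 0 ≤ x) (hor : 0 < e ∨ x < q / τ) :
    0 ≤ clipW u a0 a1 α (q / τ) x := by
  have hx0 : 0 < q / τ := div_pos hq hτ0
  unfold clipW
  rcases hx.eq_or_lt with rfl | hx1
  · rw [min_eq_left hx0.le]; simp
  · set y := min x (q / τ) with hy
    have hy0 : 0 < y := lt_min hx1 hx0
    have hyle : y ≤ q / τ := min_le_right _ _
    have hρ0 : 0 ≤ q / y - τ := by
      rw [sub_nonneg, le_div_iff₀ hy0]
      rwa [le_div_iff₀ hτ0, mul_comm] at hyle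
    have he := d.he
    rcases hρ0.eq_or_lt with h0 | h0
    · -- `y = q / τ`, so `e > 0`
      have he0 : 0 < e := by
        rcases hor with h | h
        · exact h
        · exfalso
          have hyx : y = x := min_eq_left h.le
          have : q / y = τ := by linarith
          rw [hyx, div_eq_iff hx1.ne'] at this
          rw [lt_div_iff₀ hτ0] at h
          nlinarith
      rw [clipW_eq d hq hτ0 ha0 ha1 hα hy0 hyle (by linarith), ← h0]
      exact layerW_zero_nonneg d he0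
    · rw [clipW_eq d hq hτ0 ha0 ha1 hα hy0 hyle (by linarith)]
      exact layerW_nonneg d h0

/-- `hw` of `side_lower`. -/
theorem layerW_le_clipW (d : LayerData u lp lm e τ) (hq : 0 < q) (hτ0 : 0 < τ)
    (ha0 : τ + a0 * q = lp) (ha1 : τ - a1 * q = lm) (hα : τ - α * q = e) {x r : ℝ}
    (hor : 0 < e ∨ x < q / τ) (hr : 0 < r) (hlt : q / (τ + r) < x) :
    layerW u lp lm e r ≤ clipW u a0 a1 α (q / τ) x := by
  have hx0 : 0 < q / τ := div_pos hq hτ0
  have hξ : 0 < q / (τ + r) := by positivity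
  have hx1 : 0 < x := lt_trans hξ hlt
  have hξ2 : q / (τ + r) < q / τ :=
    div_lt_div_of_pos_left hq hτ0 (by linarith)
  unfold clipW
  set y := min x (q / τ) with hy
  have hy0 : 0 < y := lt_min hx1 hx0
  have hyle : y ≤ q / τ := min_le_right _ _
  have hξy : q / (τ + r) < y := lt_min hlt hξ2
  have hρ0 : 0 ≤ q / y - τ := by
    rw [sub_nonneg, le_div_iff₀ hy0]
    rwa [le_div_iff₀ hτ0, mul_comm] at hyle
  have hρr : q / y - τ < r := by
    have h1 : q / y < τ + r := by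
      rw [div_lt_iff₀ hy0]
      rw [div_lt_iff₀ (by positivity)] at hξy
      linarith
    linarith
  have he := d.he
  rcases hρ0.eq_or_lt with h0 | h0
  · have he0 : 0 < e := by
      rcases hor with h | h
      · exact h
      · exfalso
        have hyx : y = x := min_eq_left h.le
        have : q / y = τ := by linarith
        rw [hyx, div_eq_iff hx1.ne'] at this
        rw [lt_div_iff₀ hτ0] at h
        nlinarith
    rw [clipW_eq d hq hτ0 ha0 ha1 hα hy0 hyle (by linarith), ← h0]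
    exact antitoneOn_layerW_Ici d he0 (mem_Ici.2 le_rfl) (mem_Ici.2 hr.le) hr.le
  · rw [clipW_eq d hq hτ0 ha0 ha1 hα hy0 hyle (by linarith)]
    exact antitoneOn_layerW d (mem_Ioi.2 h0) (mem_Ioi.2 hr) hρr.le

end clip

section params

/-- `l₊ = (1 + √(1 - 4v)) / 2`. -/
noncomputable def gadLp (γ ν p : ℝ) : ℝ := (1 + √(1 - 4 * gadV γ ν p)) / 2
/-- `l₋ = (1 - √(1 - 4v)) / 2`. -/
noncomputable def gadLm (γ ν p : ℝ) : ℝ := (1 - √(1 - 4 * gadV γ ν p)) / 2
/-- `p' = (1 - γ) p + γ ν`. -/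
noncomputable def gadP (γ ν p : ℝ) : ℝ := (1 - γ) * p + γ * ν
/-- `θ = (l₊ - (1 - p')) / (l₊ - l₋)`. -/
noncomputable def gadTh (γ ν p : ℝ) : ℝ :=
  (gadLp γ ν p - (1 - gadP γ ν p)) / (gadLp γ ν p - gadLm γ ν p)
/-- `a0 = (l₊ - (1 - p')) / (1 - p)`. -/
noncomputable def gadA0 (γ ν p : ℝ) : ℝ := (gadLp γ ν p - (1 - gadP γ ν p)) / (1 - p)
/-- `a1 = (1 - p' - l₋) / (1 - p)`. -/
noncomputable def gadA1 (γ ν p : ℝ) : ℝ := (1 - gadP γ ν p - gadLm γ ν p) / (1 - p)
/-- `b0 = (l₊ - p') / p`. -/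
noncomputable def gadB0 (γ ν p : ℝ) : ℝ := (gadLp γ ν p - gadP γ ν p) / p
/-- `b1 = (p' - l₋) / p`. -/
noncomputable def gadB1 (γ ν p : ℝ) : ℝ := (gadP γ ν p - gadLm γ ν p) / p

variable {γ ν p : ℝ}

/-- `p'(1 - p') - (1 - γ) p (1 - p) = v`. -/
lemma gadV_eq (γ ν p : ℝ) :
    gadV γ ν p = gadP γ ν p * (1 - gadP γ ν p) - (1 - γ) * p * (1 - p) := by
  unfold gadV gadP
  ring

/-- `1 - 4v = (1 - 2p')² + 4(1-γ)p(1-p)`. -/
lemma one_sub_four_gadV (γ ν p : ℝ) :
    1 - 4 * gadV γ ν p = (1 - 2 * gadP γ ν p) ^ 2 + 4 * ((1 - γ) * p * (1 - p)) := by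
  rw [gadV_eq]
  ring

variable (hγ0 : 0 < γ) (hγ1 : γ < 1) (hν0 : 0 ≤ ν) (hν1 : ν ≤ 1) (hp0 : 0 < p) (hp1 : p < 1)

include hγ1 hp0 hp1 in
lemma gad_disc_pos : 0 < 1 - 4 * gadV γ ν p := by
  rw [one_sub_four_gadV]
  have : 0 < (1 - γ) * p * (1 - p) := mul_pos (mul_pos (by linarith) hp0) (by linarith)
  positivity

include hγ1 hp0 hp1 in
lemma gadLm_lt_gadLp : gadLm γ ν p < gadLp γ ν p := by
  unfold gadLm gadLp
  have := Real.sqrt_pos.2 (gad_disc_pos (ν := ν) hγ1 hp0 hp1)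
  linarith

lemma gadLp_add_gadLm : gadLp γ ν p + gadLm γ ν p = 1 := by
  unfold gadLp gadLm
  ring

include hγ1 hp0 hp1 in
lemma gadLp_mul_gadLm : gadLp γ ν p * gadLm γ ν p = gadV γ ν p := by
  unfold gadLp gadLm
  have h := Real.mul_self_sqrt (gad_disc_pos (ν := ν) hγ1 hp0 hp1).le
  nlinarith

include hγ0 hγ1 hν0 hν1 hp0 hp1 in
lemma gadV_pos : 0 < gadV γ ν p := by
  unfold gadV
  have hg : 0 < γ * (1 - γ) := mul_pos hγ0 (by linarith)
  rcases hν0.eq_or_lt with rfl | h0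
  · have : 0 < γ * (1 - γ) * (p - 0) ^ 2 := by
      have : 0 < (p - 0) ^ 2 := by
        have : p - 0 ≠ 0 := by linarith [hp0.ne']
        positivity
      positivity
    simpa using this
  rcases hν1.eq_or_lt with rfl | h1
  · have : 0 < γ * (1 - γ) * (p - 1) ^ 2 := by
      have : 0 < (p - 1) ^ 2 := by
        have : p - 1 ≠ 0 := by intro h; linarith
        positivity
      positivity
    simpa using this
  · have h2 : 0 < γ * ν * (1 - ν) := mul_pos (mul_pos hγ0 h0) (by linarith)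
    have h3 : 0 ≤ γ * (1 - γ) * (p - ν) ^ 2 := by positivity
    linarith

include hγ0 hγ1 hν0 hν1 hp0 hp1 in
lemma gadLm_pos : 0 < gadLm γ ν p := by
  have h1 := gadLp_mul_gadLm (ν := ν) hγ1 hp0 hp1
  have h2 := gadV_pos hγ0 hγ1 hν0 hν1 hp0 hp1
  have h3 := gadLm_lt_gadLp (ν := ν) hγ1 hp0 hp1
  have h4 := gadLp_add_gadLm (γ := γ) (ν := ν) (p := p)
  by_contra hcon
  have h5 : gadLm γ ν p ≤ 0 := not_lt.1 hcon
  have h6 : 0 < gadLp γ ν p := by linarith
  nlinarith

include hγ0 hγ1 hν0 hν1 hp0 hp1 in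
lemma gadLp_pos : 0 < gadLp γ ν p := by
  have := gadLm_pos hγ0 hγ1 hν0 hν1 hp0 hp1
  have := gadLm_lt_gadLp (ν := ν) hγ1 hp0 hp1
  linarith

include hγ0 hγ1 hν0 hν1 hp0 hp1 in
lemma gadP_pos : 0 < gadP γ ν p := by
  unfold gadP
  have : 0 < (1 - γ) * p := mul_pos (by linarith) hp0
  have : 0 ≤ γ * ν := mul_nonneg hγ0.le hν0
  linarith

include hγ0 hγ1 hν0 hν1 hp0 hp1 in
lemma one_sub_gadP_pos : 0 < 1 - gadP γ ν p := by
  unfold gadP
  have : 0 < (1 - γ) * (1 - p) := mul_pos (by linarith) (by linarith)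
  have : 0 ≤ γ * (1 - ν) := mul_nonneg hγ0.le (by linarith)
  nlinarith

/-- `1 - p'` lies strictly between the eigenvalues, as does `p'`. -/
lemma gad_between_aux {x : ℝ} (h : 0 < -(x ^ 2 - x + gadV γ ν p))
    (hd : 0 < 1 - 4 * gadV γ ν p) :
    gadLm γ ν p < x ∧ x < gadLp γ ν p := by
  have hs := Real.mul_self_sqrt hd.le
  have hs0 := Real.sqrt_pos.2 hd
  unfold gadLm gadLp
  set c := √(1 - 4 * gadV γ ν p)
  have key : (2 * x - 1) ^ 2 < c ^ 2 := by nlinarith
  have := abs_lt_of_sq_lt_sq' key hs0.le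
  constructor <;> linarith [this.1, this.2]

include hγ1 hp0 hp1 in
lemma gadLm_lt_one_sub_gadP : gadLm γ ν p < 1 - gadP γ ν p ∧ 1 - gadP γ ν p < gadLp γ ν p := by
  refine gad_between_aux ?_ (gad_disc_pos hγ1 hp0 hp1)
  rw [gadV_eq]
  have : 0 < (1 - γ) * p * (1 - p) := mul_pos (mul_pos (by linarith) hp0) (by linarith)
  nlinarith

include hγ1 hp0 hp1 in
lemma gadLm_lt_gadP : gadLm γ ν p < gadP γ ν p ∧ gadP γ ν p < gadLp γ ν p := by
  refine gad_between_aux ?_ (gad_disc_pos hγ1 hp0 hp1)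
  rw [gadV_eq]
  have : 0 < (1 - γ) * p * (1 - p) := mul_pos (mul_pos (by linarith) hp0) (by linarith)
  nlinarith

include hγ1 hp0 hp1 in
lemma gadTh_pos : 0 < gadTh γ ν p := by
  unfold gadTh
  have h1 := (gadLm_lt_one_sub_gadP (ν := ν) hγ1 hp0 hp1).2
  have h2 := gadLm_lt_gadLp (ν := ν) hγ1 hp0 hp1
  exact div_pos (by linarith) (by linarith)

include hγ1 hp0 hp1 in
lemma gadTh_lt_one : gadTh γ ν p < 1 := by
  unfold gadTh
  have h1 := (gadLm_lt_one_sub_gadP (ν := ν) hγ1 hp0 hp1).1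
  have h2 := gadLm_lt_gadLp (ν := ν) hγ1 hp0 hp1
  rw [div_lt_one (by linarith)]
  linarith

include hγ1 hp0 hp1 in
lemma gadA0_pos : 0 < gadA0 γ ν p := by
  unfold gadA0
  have h1 := (gadLm_lt_one_sub_gadP (ν := ν) hγ1 hp0 hp1).2
  exact div_pos (by linarith) (by linarith)

include hγ1 hp0 hp1 in
lemma gadA1_pos : 0 < gadA1 γ ν p := by
  unfold gadA1
  have h1 := (gadLm_lt_one_sub_gadP (ν := ν) hγ1 hp0 hp1).1
  exact div_pos (by linarith) (by linarith)

include hγ1 hp0 hp1 in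
lemma gadB0_pos : 0 < gadB0 γ ν p := by
  unfold gadB0
  have h1 := (gadLm_lt_gadP (ν := ν) hγ1 hp0 hp1).2
  exact div_pos (by linarith) hp0

include hγ1 hp0 hp1 in
lemma gadB1_pos : 0 < gadB1 γ ν p := by
  unfold gadB1
  have h1 := (gadLm_lt_gadP (ν := ν) hγ1 hp0 hp1).1
  exact div_pos (by linarith) hp0

include hγ1 hp0 hp1 in
/-- `a0 b0 = 1 - γ`. -/
lemma gadA0_mul_gadB0 : gadA0 γ ν p * gadB0 γ ν p = 1 - γ := by
  unfold gadA0 gadB0
  have h1 := gadLp_mul_gadLm (ν := ν) hγ1 hp0 hp1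
  have h2 := gadLp_add_gadLm (γ := γ) (ν := ν) (p := p)
  have h3 : gadLp γ ν p = 1 - gadLm γ ν p := by linarith
  have hp' : (1 - p) ≠ 0 := by linarith
  have hv := gadV_eq γ ν p
  have hnum : (gadLp γ ν p - (1 - gadP γ ν p)) * (gadLp γ ν p - gadP γ ν p) =
      (1 - γ) * p * (1 - p) := by
    rw [h3] at h1 ⊢
    nlinarith
  rw [div_mul_div_comm, hnum, div_eq_iff (mul_ne_zero hp' hp0.ne')]
  ring

include hγ1 hp0 hp1 in
/-- `a1 b1 = 1 - γ`. -/
lemma gadA1_mul_gadB1 : gadA1 γ ν p * gadB1 γ ν p = 1 - γ := by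
  have h := gadA0_mul_gadB0 (ν := ν) hγ1 hp0 hp1
  have h2 := gadLp_add_gadLm (γ := γ) (ν := ν) (p := p)
  have e1 : gadA1 γ ν p = gadB0 γ ν p * p / (1 - p) := by
    unfold gadA1 gadB0
    have : (gadLp γ ν p - gadP γ ν p) / p * p = gadLp γ ν p - gadP γ ν p := by
      field_simp
    rw [this]
    congr 1
    linarith
  have e2 : gadB1 γ ν p = gadA0 γ ν p * (1 - p) / p := by
    unfold gadA0 gadB1
    have hp' : (1 - p) ≠ 0 := by linarith
    have : (gadLp γ ν p - (1 - gadP γ ν p)) / (1 - p) * (1 - p) =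
        gadLp γ ν p - (1 - gadP γ ν p) := by
      field_simp
    rw [this]
    congr 1
    linarith
  rw [e1, e2]
  have hp' : (1 - p) ≠ 0 := by linarith
  rw [← h]
  field_simp

/-- `1 - γ ≤ (1 - γν)(1 - γ + γν)`. -/
lemma gad_k2_le (hν0 : 0 ≤ ν) (hν1 : ν ≤ 1) :
    1 - γ ≤ (1 - γ * ν) * (1 - γ + γ * ν) := by
  have : 0 ≤ γ ^ 2 * (ν * (1 - ν)) := by
    have : 0 ≤ ν * (1 - ν) := mul_nonneg hν0 (by linarith)
    positivity
  nlinarith

include hγ1 hp0 hp1 in
/-- `a1 θ = a0 (1 - θ)`. -/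
lemma gadA1_mul_gadTh : gadA1 γ ν p * gadTh γ ν p = gadA0 γ ν p * (1 - gadTh γ ν p) := by
  unfold gadA1 gadA0 gadTh
  have h2 := gadLm_lt_gadLp (ν := ν) hγ1 hp0 hp1
  have hc : gadLp γ ν p - gadLm γ ν p ≠ 0 := by linarith
  have hp' : (1 - p) ≠ 0 := by linarith
  field_simp
  ring

include hγ1 hp0 hp1 in
/-- `b1 (1 - θ) = b0 θ`. -/
lemma gadB1_mul_gadTh : gadB1 γ ν p * (1 - gadTh γ ν p) = gadB0 γ ν p * gadTh γ ν p := by
  unfold gadB1 gadB0 gadTh
  have h2 := gadLm_lt_gadLp (ν := ν) hγ1 hp0 hp1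
  have h3 := gadLp_add_gadLm (γ := γ) (ν := ν) (p := p)
  have hc : gadLp γ ν p - gadLm γ ν p ≠ 0 := by linarith
  field_simp
  have h4 : gadLp γ ν p = 1 - gadLm γ ν p := by linarith
  rw [h4]
  ring

include hγ0 hγ1 hν0 hν1 hp0 hp1 in
/-- `a1 x0 < 1`, with `x0 = (1 - p) / (1 - p')`. -/
lemma gadA1_mul_x0 : gadA1 γ ν p * ((1 - p) / (1 - gadP γ ν p)) < 1 := by
  unfold gadA1
  have h1 := one_sub_gadP_pos hγ0 hγ1 hν0 hν1 hp0 hp1
  have h2 := gadLm_pos hγ0 hγ1 hν0 hν1 hp0 hp1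
  have hp' : (1 - p) ≠ 0 := by linarith
  have : (1 - gadP γ ν p - gadLm γ ν p) / (1 - p) * ((1 - p) / (1 - gadP γ ν p)) =
      (1 - gadP γ ν p - gadLm γ ν p) / (1 - gadP γ ν p) := by
    field_simp
  rw [this, div_lt_one h1]
  linarith

include hγ0 hγ1 hν0 hν1 hp0 hp1 in
/-- `b1 y0 < 1`, with `y0 = p / p'`. -/
lemma gadB1_mul_y0 : gadB1 γ ν p * (p / gadP γ ν p) < 1 := by
  unfold gadB1
  have h1 := gadP_pos hγ0 hγ1 hν0 hν1 hp0 hp1
  have h2 := gadLm_pos hγ0 hγ1 hν0 hν1 hp0 hp1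
  have : (gadP γ ν p - gadLm γ ν p) / p * (p / gadP γ ν p) =
      (gadP γ ν p - gadLm γ ν p) / gadP γ ν p := by
    field_simp
  rw [this, div_lt_one h1]
  linarith

include hγ0 hγ1 hν0 hν1 hp0 hp1 in
/-- The `A` side: `u = 1 - θ`, `e = β p`, `τ = 1 - p'`, `q = 1 - p`. -/
theorem layerData_A :
    LayerData (1 - gadTh γ ν p) (gadLp γ ν p) (gadLm γ ν p) (γ * (1 - ν) * p) (1 - gadP γ ν p) where
  hu0 := by linarith [gadTh_lt_one (ν := ν) hγ1 hp0 hp1]
  hu1 := by linarith [gadTh_pos (ν := ν) hγ1 hp0 hp1]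
  hlp := gadLp_pos hγ0 hγ1 hν0 hν1 hp0 hp1
  hlm := gadLm_pos hγ0 hγ1 hν0 hν1 hp0 hp1
  he := mul_nonneg (mul_nonneg hγ0.le (by linarith)) hp0.le
  hτ := by
    unfold gadTh
    have h2 := gadLm_lt_gadLp (ν := ν) hγ1 hp0 hp1
    have hc : gadLp γ ν p - gadLm γ ν p ≠ 0 := by linarith
    field_simp
    ring
  heτ := by
    unfold gadP
    have : 0 ≤ (1 - γ * ν) * (1 - p) :=
      mul_nonneg (by nlinarith) (by linarith)
    nlinarith
  hkey := by
    rw [gadLp_add_gadLm, gadLp_mul_gadLm hγ1 hp0 hp1, gadV_eq]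
    have hk := gad_k2_le (γ := γ) hν0 hν1
    unfold gadP at *
    have h1 : 0 ≤ (1 - p) * ((1 - γ * ν) * (γ * ν) * (1 - p) +
        ((1 - γ * ν) * (1 - γ + γ * ν) - (1 - γ)) * p) := by
      refine mul_nonneg (by linarith) (add_nonneg ?_ (mul_nonneg (by linarith) hp0.le))
      exact mul_nonneg (mul_nonneg (by nlinarith) (mul_nonneg hγ0.le hν0)) (by linarith)
    nlinarith

include hγ0 hγ1 hν0 hν1 hp0 hp1 in
/-- The `C` side: `u = θ`, `e = α' (1 - p)`, `τ = p'`, `q = p`. -/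
theorem layerData_C :
    LayerData (gadTh γ ν p) (gadLp γ ν p) (gadLm γ ν p) (γ * ν * (1 - p)) (gadP γ ν p) where
  hu0 := (gadTh_pos (ν := ν) hγ1 hp0 hp1).le
  hu1 := (gadTh_lt_one (ν := ν) hγ1 hp0 hp1).le
  hlp := gadLp_pos hγ0 hγ1 hν0 hν1 hp0 hp1
  hlm := gadLm_pos hγ0 hγ1 hν0 hν1 hp0 hp1
  he := mul_nonneg (mul_nonneg hγ0.le hν0) (by linarith)
  hτ := by
    unfold gadTh
    have h2 := gadLm_lt_gadLp (ν := ν) hγ1 hp0 hp1
    have h3 := gadLp_add_gadLm (γ := γ) (ν := ν) (p := p)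
    have hc : gadLp γ ν p - gadLm γ ν p ≠ 0 := by linarith
    field_simp
    have h4 : gadLp γ ν p = 1 - gadLm γ ν p := by linarith
    rw [h4]
    ring
  heτ := by
    unfold gadP
    have : 0 ≤ (1 - γ + γ * ν) * p := mul_nonneg (by nlinarith) hp0.le
    nlinarith
  hkey := by
    rw [gadLp_add_gadLm, gadLp_mul_gadLm hγ1 hp0 hp1, gadV_eq]
    have hk := gad_k2_le (γ := γ) hν0 hν1
    unfold gadP at *
    have h1 : 0 ≤ p * ((1 - γ + γ * ν) * (γ * (1 - ν)) * p +
        ((1 - γ * ν) * (1 - γ + γ * ν) - (1 - γ)) * (1 - p)) := by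
      refine mul_nonneg hp0.le (add_nonneg ?_ (mul_nonneg (by linarith) (by linarith)))
      exact mul_nonneg (mul_nonneg (by nlinarith) (mul_nonneg hγ0.le (by linarith))) hp0.le
    nlinarith

/-! The affine identities `τ + a0 q = l₊`, `τ - a1 q = l₋`, `τ - α q = e` on each side. -/

include hp1 in
lemma gad_tau_A0 : (1 - gadP γ ν p) + gadA0 γ ν p * (1 - p) = gadLp γ ν p := by
  unfold gadA0
  have hp' : (1 - p) ≠ 0 := by linarith
  field_simp
  ring

include hp1 in
lemma gad_tau_A1 : (1 - gadP γ ν p) - gadA1 γ ν p * (1 - p) = gadLm γ ν p := by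
  unfold gadA1
  have hp' : (1 - p) ≠ 0 := by linarith
  field_simp
  ring

lemma gad_tau_Aα (γ ν p : ℝ) :
    (1 - gadP γ ν p) - (1 - γ * ν) * (1 - p) = γ * (1 - ν) * p := by
  unfold gadP
  ring

include hp0 in
lemma gad_tau_B0 : gadP γ ν p + gadB0 γ ν p * p = gadLp γ ν p := by
  unfold gadB0
  field_simp
  ring

include hp0 in
lemma gad_tau_B1 : gadP γ ν p - gadB1 γ ν p * p = gadLm γ ν p := by
  unfold gadB1
  field_simp
  ring

lemma gad_tau_Bα (γ ν p : ℝ) :
    gadP γ ν p - (1 - γ + γ * ν) * p = γ * ν * (1 - p) := by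
  unfold gadP
  ring

end params

end Crest.Agent.Lib.GAD
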